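import Mathlib

/-!
# Row 153, operators

Translation operators `tau w g v = g (v + w)` on functions on a commutative monoid `V`, averages
`Av w` of finite families of translations, and the cone `IsT` generated by the nonnegative
multiples of translations.  Everything in `IsT` commutes, is positive and monotone, and satisfies
`m * T G ≤ T (m * G)` for functions `m` which grow along translations and `G ≥ 0`.
-/

set_option autoImplicit false

namespace Crest.Agent.R153

section
variable {V : Type*} [AddCommMonoid V]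

/-- translation operator -/
def tau (w : V) : Module.End ℝ (V → ℝ) where
  toFun g v := g (v + w)
  map_add' _ _ := rfl
  map_smul' _ _ := rfl

@[simp] lemma tau_apply (w : V) (g : V → ℝ) (v : V) : tau w g v = g (v + w) := rfl

/-- average of a finite family of translations -/
noncomputable def Av {ι : Type*} [Fintype ι] (w : ι → V) : Module.End ℝ (V → ℝ) :=
  (Fintype.card ι : ℝ)⁻¹ • ∑ i, tau (w i)

lemma Av_apply {ι : Type*} [Fintype ι] (w : ι → V) (g : V → ℝ) (v : V) :
    Av w g v = (Fintype.card ι : ℝ)⁻¹ * ∑ i, g (v + w i) := by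
  simp [Av, LinearMap.sum_apply, Finset.sum_apply]

/-- generators of the cone -/
def gens (V : Type*) [AddCommMonoid V] : Set (Module.End ℝ (V → ℝ)) :=
  {S | ∃ (a : ℝ) (w : V), 0 ≤ a ∧ S = a • tau w}

/-- the cone of nonnegative combinations of translations -/
def IsT (T : Module.End ℝ (V → ℝ)) : Prop := T ∈ Subsemiring.closure (gens V)

lemma tau_mul (w w' : V) : tau w * tau w' = tau (w + w') := by
  ext g v
  simp [add_assoc]

lemma tau_zero : tau (0 : V) = 1 := by
  ext g v
  simp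

lemma tau_comm (w w' : V) : Commute (tau w) (tau w') := by
  unfold Commute SemiconjBy
  rw [tau_mul, tau_mul, add_comm]

lemma IsT.zero : IsT (0 : Module.End ℝ (V → ℝ)) := Subsemiring.zero_mem _
lemma IsT.one : IsT (1 : Module.End ℝ (V → ℝ)) := Subsemiring.one_mem _
lemma IsT.add {S T : Module.End ℝ (V → ℝ)} (hS : IsT S) (hT : IsT T) : IsT (S + T) :=
  Subsemiring.add_mem _ hS hT
lemma IsT.mul {S T : Module.End ℝ (V → ℝ)} (hS : IsT S) (hT : IsT T) : IsT (S * T) :=
  Subsemiring.mul_mem _ hS hT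
lemma IsT.pow {T : Module.End ℝ (V → ℝ)} (hT : IsT T) (n : ℕ) : IsT (T ^ n) :=
  Subsemiring.pow_mem _ hT n
lemma IsT.sum {ι : Type*} {s : Finset ι} {T : ι → Module.End ℝ (V → ℝ)}
    (h : ∀ i ∈ s, IsT (T i)) : IsT (∑ i ∈ s, T i) :=
  Subsemiring.sum_mem _ h
lemma IsT.tau (w : V) : IsT (tau w) :=
  Subsemiring.subset_closure ⟨1, w, zero_le_one, by simp⟩
lemma IsT.smul {T : Module.End ℝ (V → ℝ)} (hT : IsT T) {a : ℝ} (ha : 0 ≤ a) : IsT (a • T) := by
  have h1 : IsT (a • (1 : Module.End ℝ (V → ℝ))) :=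
    Subsemiring.subset_closure ⟨a, 0, ha, by rw [tau_zero]⟩
  have h2 := h1.mul hT
  rwa [smul_mul_assoc, one_mul] at h2

lemma IsT.av {ι : Type*} [Fintype ι] (w : ι → V) : IsT (Av w) :=
  (IsT.sum fun i _ => IsT.tau (w i)).smul (by positivity)

lemma IsT.induction {p : Module.End ℝ (V → ℝ) → Prop}
    (hg : ∀ (a : ℝ) (w : V), 0 ≤ a → p (a • R153.tau w)) (h0 : p 0) (h1 : p 1)
    (ha : ∀ S T, IsT S → IsT T → p S → p T → p (S + T))
    (hm : ∀ S T, IsT S → IsT T → p S → p T → p (S * T))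
    {T : Module.End ℝ (V → ℝ)} (hT : IsT T) : p T := by
  refine Subsemiring.closure_induction (p := fun T _ => p T) ?_ h0 h1 ?_ ?_ hT
  · rintro _ ⟨a, w, ha, rfl⟩
    exact hg a w ha
  · intro S T hS hT h1 h2
    exact ha S T hS hT h1 h2
  · intro S T hS hT h1 h2
    exact hm S T hS hT h1 h2

lemma IsT.commute {S T : Module.End ℝ (V → ℝ)} (hS : IsT S) (hT : IsT T) : Commute S T := by
  refine IsT.induction (p := fun S => Commute S T) ?_ (Commute.zero_left _) (Commute.one_left _)
    (fun _ _ _ _ h1 h2 => h1.add_left h2) (fun _ _ _ _ h1 h2 => h1.mul_left h2) hS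
  intro a w ha
  refine IsT.induction (p := fun T => Commute (a • R153.tau w) T) ?_ (Commute.zero_right _)
    (Commute.one_right _) (fun _ _ _ _ h1 h2 => h1.add_right h2)
    (fun _ _ _ _ h1 h2 => h1.mul_right h2) hT
  intro b w' hb
  exact ((tau_comm w w').smul_left a).smul_right b

lemma IsT.nonneg {T : Module.End ℝ (V → ℝ)} (hT : IsT T) : ∀ {g : V → ℝ}, 0 ≤ g → 0 ≤ T g := by
  refine IsT.induction (p := fun T => ∀ {g : V → ℝ}, 0 ≤ g → 0 ≤ T g) ?_ ?_ ?_ ?_ ?_ hT
  · intro a w ha g hg v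
    simpa using mul_nonneg ha (hg (v + w))
  · intro g hg
    simp
  · intro g hg
    simpa using hg
  · intro S T _ _ h1 h2 g hg
    simpa using add_nonneg (h1 hg) (h2 hg)
  · intro S T _ _ h1 h2 g hg
    simpa using h1 (h2 hg)

lemma IsT.mono {T : Module.End ℝ (V → ℝ)} (hT : IsT T) {g g' : V → ℝ} (h : g ≤ g') :
    T g ≤ T g' := by
  have h1 : 0 ≤ T (g' - g) := hT.nonneg (sub_nonneg.2 h)
  rw [map_sub] at h1
  exact sub_nonneg.1 h1

/-- operators in the cone preserve functions which grow along translations -/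
lemma IsT.grow {T : Module.End ℝ (V → ℝ)} (hT : IsT T) :
    ∀ {m : V → ℝ}, (∀ v w, m v ≤ m (v + w)) → ∀ v w, T m v ≤ T m (v + w) := by
  refine IsT.induction
    (p := fun T => ∀ {m : V → ℝ}, (∀ v w, m v ≤ m (v + w)) → ∀ v w, T m v ≤ T m (v + w))
    ?_ ?_ ?_ ?_ ?_ hT
  · intro a w ha m hm v w'
    have := hm (v + w) w'
    simp only [LinearMap.smul_apply, Pi.smul_apply, tau_apply, smul_eq_mul]
    refine mul_le_mul_of_nonneg_left ?_ ha
    rwa [add_right_comm] at this
  · intro m _ v w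
    simp
  · intro m hm v w
    simpa using hm v w
  · intro S T _ _ h1 h2 m hm v w
    simpa using add_le_add (h1 hm v w) (h2 hm v w)
  · intro S T _ _ h1 h2 m hm v w
    simpa using h1 (h2 hm) v w

/-- a growing factor may be moved inside -/
lemma IsT.mul_le {T : Module.End ℝ (V → ℝ)} (hT : IsT T) {m : V → ℝ}
    (hm : ∀ v w, m v ≤ m (v + w)) :
    ∀ {G : V → ℝ}, 0 ≤ G → m * T G ≤ T (m * G) := by
  refine IsT.induction (p := fun T => ∀ {G : V → ℝ}, 0 ≤ G → m * T G ≤ T (m * G))
    ?_ ?_ ?_ ?_ ?_ hT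
  · intro a w ha G hG v
    have h1 := mul_le_mul_of_nonneg_right (hm v w) (mul_nonneg ha (hG (v + w)))
    simp only [Pi.mul_apply, LinearMap.smul_apply, Pi.smul_apply, tau_apply,
      smul_eq_mul] at h1 ⊢
    nlinarith [h1]
  · intro G hG
    simp
  · intro G hG
    simp
  · intro S T _ _ h1 h2 G hG v
    have := add_le_add (h1 hG v) (h2 hG v)
    simp only [LinearMap.add_apply, Pi.mul_apply, Pi.add_apply] at this ⊢
    linarith
  · intro S T hS hT' h1 h2 G hG
    calc m * (S * T) G = m * S (T G) := rfl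
      _ ≤ S (m * T G) := h1 (hT'.nonneg hG)
      _ ≤ S (T (m * G)) := hS.mono (h2 hG)

/-- a factor invariant under the operator may be moved out -/
lemma Av_one {ι : Type*} [Fintype ι] [Nonempty ι] (w : ι → V) : Av w (1 : V → ℝ) = 1 := by
  ext v
  rw [Av_apply]
  simp

/-- Markov operators: fix constants -/
def Mk (T : Module.End ℝ (V → ℝ)) : Prop := IsT T ∧ T 1 = 1

lemma Mk.pow {T : Module.End ℝ (V → ℝ)} (hT : Mk T) (n : ℕ) : Mk (T ^ n) := by
  refine ⟨hT.1.pow n, ?_⟩
  induction n with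
  | zero => simp
  | succ n ih => rw [pow_succ, Module.End.mul_apply, hT.2, ih]

lemma Mk.mul {S T : Module.End ℝ (V → ℝ)} (hS : Mk S) (hT : Mk T) : Mk (S * T) :=
  ⟨hS.1.mul hT.1, by rw [Module.End.mul_apply, hT.2, hS.2]⟩

lemma Mk.const {T : Module.End ℝ (V → ℝ)} (hT : Mk T) (a : ℝ) :
    T (fun _ => a) = fun _ => a := by
  have h : (fun _ : V => a) = a • (1 : V → ℝ) := by ext; simp
  rw [h, map_smul, hT.2]

/-- an upper bound by a constant is preserved -/
lemma Mk.le_const {T : Module.End ℝ (V → ℝ)} (hT : Mk T) {g : V → ℝ} {a : ℝ}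
    (h : ∀ v, g v ≤ a) (v : V) : T g v ≤ a := by
  have := hT.1.mono (g := g) (g' := fun _ => a) h v
  rwa [hT.const] at this

/-- the Cauchy-Schwarz inequality `(T g)² ≤ T (g²)` for Markov operators -/
lemma Mk.sq_le {T : Module.End ℝ (V → ℝ)} (hT : Mk T) (g : V → ℝ) (v : V) :
    (T g v) ^ 2 ≤ T (g ^ 2) v := by
  set x := T g v with hx
  have h1 : 0 ≤ T ((g - fun _ => x) ^ 2) v :=
    hT.1.nonneg (g := (g - fun _ => x) ^ 2) (fun w => sq_nonneg _) v
  have h2 : (g - fun _ => x) ^ 2 = g ^ 2 - (2 * x) • g + (fun _ => x ^ 2) := by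
    ext w
    simp only [Pi.pow_apply, Pi.sub_apply, Pi.add_apply, Pi.smul_apply, smul_eq_mul]
    ring
  rw [h2, map_add, map_sub, map_smul, hT.const] at h1
  simp only [Pi.add_apply, Pi.sub_apply, Pi.smul_apply, smul_eq_mul, ← hx] at h1
  nlinarith

omit [AddCommMonoid V] in
/-- telescoping -/
lemma telescope {T : Module.End ℝ (V → ℝ)} {φ h : V → ℝ} (hφ : T φ = φ + h) (c : ℕ) :
    (T ^ c) φ = φ + ∑ i ∈ Finset.range c, (T ^ i) h := by
  induction c with
  | zero => simp
  | succ c ih =>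
    rw [pow_succ, Module.End.mul_apply, hφ, map_add, ih, Finset.sum_range_succ, add_assoc]

end

end Crest.Agent.R153
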