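import Mathlib
import Crest.Prelude.Def_RandomSAT
import Crest.Agent.R153.Op

/-!
# Row 153, definitions

`St n`: states, i.e. the number of violated clauses of every assignment.  `P j n`: add one uniform
`j`-clause.  `U v` = ground state energy.  Level functions `gt u = 1[U > u]`, `ee u = 1[U = u]`.
`Kset u v` = the literals `l` such that every assignment satisfying `l` violates more than `u`
clauses, `kap u v = |Kset u v| / (2n)`.  `hh j u = ee u * P j n (gt u)` = probability that a new
`j`-clause kills level `u`.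
-/

set_option autoImplicit false

namespace Crest.Agent.R153

open Crest.ProbabilityR.RandomSAT Finset

/-- assignments -/
abbrev Asg (n : ℕ) : Type := Fin n → Bool

/-- states: the number of violated clauses of every assignment -/
abbrev St (n : ℕ) : Type := Asg n → ℕ

/-- the violation vector of a clause -/
def vc {j n : ℕ} (c : Clause j n) : St n := fun s => if ∀ i, s (c.1.1 i) ≠ c.2 i then 1 else 0

/-- ground state energy -/
def U {n : ℕ} (v : St n) : ℕ := univ.inf' univ_nonempty v

/-- add one uniform `j`-clause -/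
noncomputable def P (j n : ℕ) : Module.End ℝ (St n → ℝ) := Av (fun c : Clause j n => vc c)

/-- indicator of `U > u` -/
def gt {n : ℕ} (u : ℕ) : St n → ℝ := fun v => if u < U v then 1 else 0

/-- indicator of `U = u` -/
def ee {n : ℕ} (u : ℕ) : St n → ℝ := fun v => if U v = u then 1 else 0

/-- literals excluded at level `u`: all assignments satisfying the literal have value `> u` -/
def Kset {n : ℕ} (u : ℕ) (v : St n) : Finset (Fin n × Bool) :=
  univ.filter (fun l => ∀ s : Asg n, s l.1 = l.2 → u < v s)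

/-- density of excluded literals -/
noncomputable def kap {n : ℕ} (u : ℕ) : St n → ℝ := fun v => ((Kset u v).card : ℝ) / (2 * n)

/-- probability that a new `j`-clause kills level `u` -/
noncomputable def hh {n : ℕ} (j u : ℕ) : St n → ℝ := ee u * P j n (gt u)

/-! ### basic facts on `U`, `gt`, `ee` -/

lemma U_le {n : ℕ} (v : St n) (s : Asg n) : U v ≤ v s := inf'_le v (mem_univ s)

lemma exists_U {n : ℕ} (v : St n) : ∃ s, v s = U v := by
  obtain ⟨s, -, hs⟩ := exists_mem_eq_inf' univ_nonempty v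
  exact ⟨s, hs.symm⟩

lemma lt_U {n : ℕ} {u : ℕ} {v : St n} : u < U v ↔ ∀ s, u < v s := by
  simp [U]

lemma le_U {n : ℕ} {u : ℕ} {v : St n} : u ≤ U v ↔ ∀ s, u ≤ v s := by
  simp [U]

lemma U_mono {n : ℕ} {v w : St n} (h : v ≤ w) : U v ≤ U w :=
  le_U.2 fun s => (U_le v s).trans (h s)

lemma U_le_add {n : ℕ} (v w : St n) : U v ≤ U (v + w) :=
  U_mono fun _ => Nat.le_add_right _ _

lemma U_zero {n : ℕ} : U (0 : St n) = 0 := Nat.le_zero.1 (U_le _ (fun _ => true))

lemma vc_le_one {j n : ℕ} (c : Clause j n) (s : Asg n) : vc c s ≤ 1 := by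
  unfold vc; split_ifs <;> simp

lemma U_add_vc_le {j n : ℕ} (v : St n) (c : Clause j n) : U (v + vc c) ≤ U v + 1 := by
  obtain ⟨s, hs⟩ := exists_U v
  refine (U_le _ s).trans ?_
  have := vc_le_one c s
  simp only [Pi.add_apply]
  omega

lemma gt_nonneg {n : ℕ} (u : ℕ) : 0 ≤ (gt u : St n → ℝ) := by
  intro v; unfold gt; dsimp; split_ifs <;> norm_num

lemma gt_le_one {n : ℕ} (u : ℕ) : (gt u : St n → ℝ) ≤ 1 := by
  intro v; unfold gt; dsimp; split_ifs <;> norm_num

lemma gt_grow {n : ℕ} (u : ℕ) (v w : St n) : gt u v ≤ gt u (v + w) := by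
  have := U_le_add v w
  unfold gt
  split_ifs with h1 h2 <;> first | (exfalso; omega) | norm_num

lemma ee_nonneg {n : ℕ} (u : ℕ) : 0 ≤ (ee u : St n → ℝ) := by
  intro v; unfold ee; dsimp; split_ifs <;> norm_num

lemma ee_le_one {n : ℕ} (u : ℕ) : (ee u : St n → ℝ) ≤ 1 := by
  intro v; unfold ee; dsimp; split_ifs <;> norm_num

/-! ### basic facts on `Kset`, `kap` -/

lemma mem_Kset {n u : ℕ} {v : St n} {l : Fin n × Bool} :
    l ∈ Kset u v ↔ ∀ s : Asg n, s l.1 = l.2 → u < v s := by
  simp [Kset]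

lemma Kset_mono {n u : ℕ} {v w : St n} (h : v ≤ w) : Kset u v ⊆ Kset u w := by
  intro l hl
  rw [mem_Kset] at hl ⊢
  exact fun s hs => (hl s hs).trans_le (h s)

lemma kap_nonneg {n : ℕ} (u : ℕ) : 0 ≤ (kap u : St n → ℝ) := by
  intro v; unfold kap; dsimp; positivity

lemma kap_grow {n : ℕ} (u : ℕ) (v w : St n) : kap u v ≤ kap u (v + w) := by
  unfold kap
  have h : (Kset u v).card ≤ (Kset u (v + w)).card :=
    card_le_card (Kset_mono fun s => Nat.le_add_right _ _)
  have h' : ((Kset u v).card : ℝ) ≤ (Kset u (v + w)).card := by exact_mod_cast h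
  gcongr

lemma kap_le_one {n : ℕ} (u : ℕ) : (kap u : St n → ℝ) ≤ 1 := by
  intro v
  have h : (Kset u v).card ≤ n * 2 := by
    refine (card_le_univ _).trans ?_
    simp
  have h' : ((Kset u v).card : ℝ) ≤ 2 * n := by
    have : ((Kset u v).card : ℝ) ≤ ((n * 2 : ℕ) : ℝ) := by exact_mod_cast h
    push_cast at this
    linarith
  unfold kap
  dsimp
  exact div_le_one_of_le₀ h' (by positivity)

/-! ### `P` -/

lemma P_apply (j n : ℕ) (g : St n → ℝ) (v : St n) :
    P j n g v = (Fintype.card (Clause j n) : ℝ)⁻¹ * ∑ c : Clause j n, g (v + vc c) := Av_apply _ _ _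

lemma P_isT (j n : ℕ) : IsT (P j n) := IsT.av _

lemma clause_nonempty {j n : ℕ} (h : j ≤ n) : Nonempty (Clause j n) :=
  ⟨(⟨Fin.castLE h, Fin.castLE_injective h⟩, fun _ => true)⟩

lemma P_mk {j n : ℕ} (h : j ≤ n) : Mk (P j n) := by
  have := clause_nonempty h
  exact ⟨P_isT j n, Av_one _⟩

lemma P_comm (j j' n a b : ℕ) : P j n ^ a * P j' n ^ b = P j' n ^ b * P j n ^ a :=
  (((P_isT j n).pow a).commute ((P_isT j' n).pow b)).eq

lemma hh_nonneg {n : ℕ} (j u : ℕ) : 0 ≤ (hh j u : St n → ℝ) :=
  mul_nonneg (ee_nonneg u) ((P_isT j n).nonneg (gt_nonneg u))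

/-- the clause operator raises level `u` by `hh` -/
lemma P_gt {j n : ℕ} (h : j ≤ n) (u : ℕ) : P j n (gt u) = gt u + hh j u := by
  have hne := clause_nonempty h
  have hc : (Fintype.card (Clause j n) : ℝ) ≠ 0 := by
    exact_mod_cast Fintype.card_ne_zero
  ext v
  simp only [Pi.add_apply, hh, Pi.mul_apply]
  rcases lt_trichotomy (U v) u with h1 | h1 | h1
  · have h2 : gt u v = 0 := by simp [gt, h1.le]
    have h3 : ee u v = 0 := by simp [ee, h1.ne]
    rw [h2, h3, P_apply, sum_eq_zero]
    · simp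
    · intro c _
      have := U_add_vc_le v c
      have h4 : ¬ u < U (v + vc c) := by omega
      simp [gt, h4]
  · have h2 : gt u v = 0 := by simp [gt, h1]
    have h3 : ee u v = 1 := by simp [ee, h1]
    rw [h2, h3]; ring
  · have h2 : gt u v = 1 := by simp [gt, h1]
    have h3 : ee u v = 0 := by simp [ee, h1.ne']
    rw [h2, h3, P_apply]
    have : ∀ c : Clause j n, gt u (v + vc c) = 1 := by
      intro c
      have := h1.trans_le (U_le_add v (vc c))
      simp [gt, this]
    rw [sum_congr rfl fun c _ => this c, sum_const, card_univ, nsmul_eq_mul, mul_one, inv_mul_cancel₀ hc]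
    ring

/-- telescoping at level `u` -/
lemma sum_hh {j n : ℕ} (h : j ≤ n) (u c : ℕ) :
    ∑ i ∈ range c, (P j n ^ i) (hh j u) = (P j n ^ c) (gt u) - gt u := by
  rw [telescope (P_gt h u) c]
  ext v; simp

/-- telescoped sums are at most the indicator of `U ≤ u` -/
lemma sum_hh_le {j n : ℕ} (h : j ≤ n) (u c : ℕ) :
    ∑ i ∈ range c, (P j n ^ i) (hh j u) ≤ 1 - gt u := by
  rw [sum_hh h]
  have h1 := ((P_isT j n).pow c).mono (gt_le_one (n := n) u)
  rw [((P_mk h).pow c).2] at h1
  exact sub_le_sub_right h1 _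

/-- the `a`-fold sums of states: `ee 0` decreases -/
lemma ee_zero_anti {n : ℕ} (v w : St n) : ee 0 (v + w) ≤ ee 0 v := by
  have := U_le_add v w
  unfold ee
  split_ifs with h1 h2 <;> first | (exfalso; omega) | norm_num

end Crest.Agent.R153
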