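import Mathlib
import Crest.Agent.R153.Defs

/-!
# Row 153, piece LK: link between the operators and explicit sequences of clauses

`(P j n ^ m) g v = card^{-m} ∑_{F : Fin m → Clause} g (v + ∑_i vc (F i))`: induction on `m`
(`Fin.consEquiv`/`Fin.cons_sum` ...).  A formula is satisfiable iff some assignment has
`∑_i vc (F i) s = 0` iff `U (∑_i vc (F i)) = 0`.  `satProb` is `FinProb.uniformProb`.
-/

set_option autoImplicit false

namespace Crest.Agent.R153

open Crest.ProbabilityR.RandomSAT Finset

theorem P_pow_apply (j n m : ℕ) (g : St n → ℝ) (v : St n) :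
    (P j n ^ m) g v
      = ((Fintype.card (Clause j n) : ℝ) ^ m)⁻¹ *
          ∑ F : Fin m → Clause j n, g (v + ∑ i, vc (F i)) := by
  induction m generalizing v with
  | zero => simp
  | succ m ih =>
    rw [pow_succ', Module.End.mul_apply, P_apply]
    have h1 : ∑ F : Fin (m + 1) → Clause j n, g (v + ∑ i, vc (F i))
        = ∑ c : Clause j n, ∑ F : Fin m → Clause j n, g (v + vc c + ∑ i, vc (F i)) := by
      rw [← (Fin.consEquiv (fun _ : Fin (m + 1) => Clause j n)).sum_comp, Fintype.sum_prod_type]
      refine sum_congr rfl fun c _ => sum_congr rfl fun F _ => ?_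
      rw [Fin.sum_univ_succ]
      simp only [Fin.consEquiv, Equiv.coe_fn_mk, Fin.cons_zero, Fin.cons_succ]
      rw [add_assoc]
    rw [h1, sum_congr rfl fun c _ => ih (v + vc c), ← mul_sum, ← mul_assoc, pow_succ',
      mul_inv]

theorem clauseSat_iff {j n : ℕ} (s : Asg n) (c : Clause j n) : ClauseSat s c ↔ vc c s = 0 := by
  unfold ClauseSat vc
  split_ifs with h
  · simp only [one_ne_zero, iff_false, not_exists]
    exact h
  · simp only [iff_true]
    push Not at h
    exact h

theorem satisfiable_iff {j n m : ℕ} (F : Fin m → Clause j n) :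
    Satisfiable F ↔ U (∑ i, vc (F i)) = 0 := by
  constructor
  · rintro ⟨s, hs⟩
    refine Nat.le_zero.1 ((U_le _ s).trans_eq ?_)
    rw [Finset.sum_apply]
    exact sum_eq_zero fun i _ => (clauseSat_iff s (F i)).1 (hs i)
  · intro h
    obtain ⟨s, hs⟩ := exists_U (∑ i, vc (F i))
    rw [h, Finset.sum_apply, sum_eq_zero_iff] at hs
    exact ⟨s, fun i => (clauseSat_iff s (F i)).2 (hs i (mem_univ i))⟩

theorem satProb_eq (j n m : ℕ) : satProb j n m = (P j n ^ m) (ee 0) 0 := by
  classical
  rw [P_pow_apply, satProb, Crest.FinProb.uniformProb, div_eq_inv_mul]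
  congr 1
  · rw [Fintype.card_fun, Fintype.card_fin]
    push_cast
    rfl
  · rw [card_eq_sum_ones, sum_filter]
    push_cast
    refine sum_congr rfl fun F _ => ?_
    have : (F ∈ {F : Fin m → Clause j n | Satisfiable F}) ↔ U (0 + ∑ i, vc (F i)) = 0 := by
      rw [zero_add]
      exact satisfiable_iff F
    unfold ee
    by_cases h : U (0 + ∑ i, vc (F i)) = 0
    · rw [if_pos h, if_pos (this.2 h)]
    · rw [if_neg h, if_neg (fun h' => h (this.1 h'))]

end Crest.Agent.R153
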