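import Mathlib
import Crest.Agent.R153.SatProb

/-!
# Row 153, piece B3: removing a violated clause (exchangeability)

Let `F : Fin (l+1) → Clause`, `v = ∑_i vc (F i)`, `v_i = ∑_{i' ≠ i} vc (F i')` (so `v = v_i + vc (F i)`).
Pointwise in `F` (and in the `N` further clauses `d`, use `P_pow_apply` for `P^N`, state `w = ∑ vc d`):
`(u+1) 1[U v = u+1] 1[U (v+w) = u+1]
   ≤ ∑_i 1[U v_i = u] 1[U (v_i + vc (F i)) > u] 1[U (v_i + w) = u]`.
Indeed let `s` be a ground state of `v + w`: `v s + w s = u+1`, `v s ≥ U v = u+1`, so `w s = 0` and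
`v s = u+1`: exactly `u+1` of the clauses `F i` are violated by `s`; for such `i`,
`v_i s = u`, so `U v_i ≤ u`, `U v_i ≥ U v - 1 = u`; `(v_i + w) s = u` so `U (v_i + w) ≤ u`, and `≥ U v_i`.
Average over `d` and `F`: the term `i` gives, by symmetry of the average
(`Fin.insertNthEquiv`, `Fin.sum_univ_succAbove`), the same value
`P^l (v' ↦ ee u v' * (average_c 1[U (v' + vc c) > u]) * P^N (ee u) v') 0 = P^l (hh j u * P^N (ee u)) 0`.
-/

set_option autoImplicit false

namespace Crest.Agent.R153

open Crest.ProbabilityR.RandomSAT Finset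

lemma remove_pointwise {j n : ℕ} (u l : ℕ) (F : Fin (l + 1) → Clause j n)
    (w : St n) :
    ((u : ℝ) + 1) * (ee (u + 1) (∑ i, vc (F i)) * ee (u + 1) (∑ i, vc (F i) + w)) ≤
      ∑ i, ee u (∑ k, vc (F (i.succAbove k))) *
        gt u (∑ k, vc (F (i.succAbove k)) + vc (F i)) *
        ee u (∑ k, vc (F (i.succAbove k)) + w) := by
  have hnn : ∀ i, 0 ≤ ee u (∑ k, vc (F (i.succAbove k))) *
        gt u (∑ k, vc (F (i.succAbove k)) + vc (F i)) *
        ee u (∑ k, vc (F (i.succAbove k)) + w) := fun i =>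
    mul_nonneg (mul_nonneg (ee_nonneg u _) (gt_nonneg u _)) (ee_nonneg u _)
  by_cases hU : U (∑ i, vc (F i)) = u + 1 ∧ U (∑ i, vc (F i) + w) = u + 1
  · obtain ⟨h1, h2⟩ := hU
    obtain ⟨s, hs⟩ := exists_U (∑ i, vc (F i) + w)
    rw [h2, Pi.add_apply] at hs
    have h3 : u + 1 ≤ (∑ i, vc (F i)) s := by
      rw [← h1]; exact U_le _ s
    have hw : w s = 0 := by omega
    have hv : (∑ i, vc (F i)) s = u + 1 := by omega
    have hcard : ((univ.filter (fun i => vc (F i) s = 1)).card : ℝ) = u + 1 := by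
      have : (∑ i, vc (F i)) s = (univ.filter (fun i => vc (F i) s = 1)).card := by
        rw [Finset.sum_apply, Finset.card_filter]
        refine Finset.sum_congr rfl fun i _ => ?_
        have := vc_le_one (F i) s
        split_ifs with h4
        · exact h4
        · omega
      rw [hv] at this
      exact_mod_cast this.symm
    have hL : ((u : ℝ) + 1) * (ee (u + 1) (∑ i, vc (F i)) * ee (u + 1) (∑ i, vc (F i) + w))
        = u + 1 := by
      unfold ee
      simp [h1, h2]
    rw [hL, ← hcard]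
    calc ((univ.filter (fun i => vc (F i) s = 1)).card : ℝ)
        = ∑ i ∈ univ.filter (fun i => vc (F i) s = 1), (1 : ℝ) := by simp
      _ ≤ ∑ i ∈ univ.filter (fun i => vc (F i) s = 1),
            ee u (∑ k, vc (F (i.succAbove k))) *
            gt u (∑ k, vc (F (i.succAbove k)) + vc (F i)) *
            ee u (∑ k, vc (F (i.succAbove k)) + w) := by
          refine Finset.sum_le_sum fun i hi => ?_
          have hi' : vc (F i) s = 1 := (Finset.mem_filter.1 hi).2
          have hdec : ∑ i, vc (F i) = ∑ k, vc (F (i.succAbove k)) + vc (F i) := by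
            rw [Fin.sum_univ_succAbove _ i, add_comm]
          have hvi : (∑ k, vc (F (i.succAbove k))) s = u := by
            have := congrFun hdec s
            rw [Pi.add_apply, hv, hi'] at this
            omega
          have hU1 : U (∑ k, vc (F (i.succAbove k))) ≤ u := by
            rw [← hvi]; exact U_le _ s
          have hU2 : u + 1 ≤ U (∑ k, vc (F (i.succAbove k))) + 1 := by
            have := U_add_vc_le (∑ k, vc (F (i.succAbove k))) (F i)
            rw [← hdec, h1] at this
            exact this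
          have hU3 : U (∑ k, vc (F (i.succAbove k))) = u := by omega
          have hU4 : U (∑ k, vc (F (i.succAbove k)) + w) ≤ u := by
            have := U_le (∑ k, vc (F (i.succAbove k)) + w) s
            rw [Pi.add_apply, hvi, hw] at this
            exact this
          have hU5 := U_le_add (∑ k, vc (F (i.succAbove k))) w
          have hU6 : U (∑ k, vc (F (i.succAbove k)) + w) = u := by omega
          have e1 : ee u (∑ k, vc (F (i.succAbove k))) = 1 := by simp [ee, hU3]
          have e2 : ee u (∑ k, vc (F (i.succAbove k)) + w) = 1 := by simp [ee, hU6]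
          have e3 : gt u (∑ k, vc (F (i.succAbove k)) + vc (F i)) = 1 := by
            rw [← hdec]; simp [gt, h1]
          rw [e1, e2, e3]; norm_num
      _ ≤ _ := Finset.sum_le_sum_of_subset_of_nonneg (Finset.filter_subset _ _)
          (fun i _ _ => hnn i)
  · have hL : ((u : ℝ) + 1) * (ee (u + 1) (∑ i, vc (F i)) * ee (u + 1) (∑ i, vc (F i) + w))
        = 0 := by
      rw [not_and_or] at hU
      rcases hU with h1 | h1
      · have : ee (u + 1) (∑ i, vc (F i)) = 0 := by simp [ee, h1]
        rw [this]; ring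
      · have : ee (u + 1) (∑ i, vc (F i) + w) = 0 := by simp [ee, h1]
        rw [this]; ring
    rw [hL]
    exact Finset.sum_nonneg fun i _ => hnn i

lemma sum_insertNth {l : ℕ} {C : Type*} [Fintype C] (i : Fin (l + 1))
    (φ : C → (Fin l → C) → ℝ) :
    ∑ F : Fin (l + 1) → C, φ (F i) (fun k => F (i.succAbove k)) = ∑ F : Fin l → C, ∑ c, φ c F := by
  rw [← (Fin.insertNthEquiv (fun _ => C) i).sum_comp, Fintype.sum_prod_type_right]
  refine Finset.sum_congr rfl fun F _ => Finset.sum_congr rfl fun c _ => ?_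
  simp [Fin.insertNthEquiv]

theorem remove_le {j n : ℕ} (h : j ≤ n) (u N l : ℕ) :
    ((u : ℝ) + 1) * (P j n ^ (l + 1)) (ee (u + 1) * (P j n ^ N) (ee (u + 1))) 0
      ≤ ((l : ℝ) + 1) * (P j n ^ l) (hh j u * (P j n ^ N) (ee u)) 0 := by
  have hne := clause_nonempty h
  have hq : (0 : ℝ) < Fintype.card (Clause j n) := by exact_mod_cast Fintype.card_pos
  set q : ℝ := ((Fintype.card (Clause j n) : ℕ) : ℝ) with hqd
  have hR : ((l : ℝ) + 1) * (P j n ^ l) (hh j u * (P j n ^ N) (ee u)) 0
      = (q ^ (l + 1))⁻¹ * (q ^ N)⁻¹ * ∑ d : Fin N → Clause j n,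
          ∑ F : Fin (l + 1) → Clause j n, ∑ i, ee u (∑ k, vc (F (i.succAbove k))) *
            gt u (∑ k, vc (F (i.succAbove k)) + vc (F i)) *
            ee u (∑ k, vc (F (i.succAbove k)) + ∑ k, vc (d k)) := by
    have h1 : ∀ d : Fin N → Clause j n, ∑ F : Fin (l + 1) → Clause j n, ∑ i,
          ee u (∑ k, vc (F (i.succAbove k))) *
            gt u (∑ k, vc (F (i.succAbove k)) + vc (F i)) *
            ee u (∑ k, vc (F (i.succAbove k)) + ∑ k, vc (d k))
        = ((l : ℝ) + 1) * ∑ F : Fin l → Clause j n, ∑ c : Clause j n,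
            ee u (∑ k, vc (F k)) * gt u (∑ k, vc (F k) + vc c) *
            ee u (∑ k, vc (F k) + ∑ k, vc (d k)) := by
      intro d
      rw [Finset.sum_comm]
      have h2 : ∀ i : Fin (l + 1), ∑ F : Fin (l + 1) → Clause j n,
          ee u (∑ k, vc (F (i.succAbove k))) *
            gt u (∑ k, vc (F (i.succAbove k)) + vc (F i)) *
            ee u (∑ k, vc (F (i.succAbove k)) + ∑ k, vc (d k))
          = ∑ F : Fin l → Clause j n, ∑ c : Clause j n,
            ee u (∑ k, vc (F k)) * gt u (∑ k, vc (F k) + vc c) *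
            ee u (∑ k, vc (F k) + ∑ k, vc (d k)) := fun i =>
        sum_insertNth i (fun c F => ee u (∑ k, vc (F k)) * gt u (∑ k, vc (F k) + vc c) *
            ee u (∑ k, vc (F k) + ∑ k, vc (d k)))
      rw [Finset.sum_congr rfl fun i _ => h2 i, Finset.sum_const, Finset.card_univ,
        Fintype.card_fin, nsmul_eq_mul]
      push_cast
      ring
    rw [Finset.sum_congr rfl fun d _ => h1 d, ← Finset.mul_sum, P_pow_apply]
    simp only [Pi.mul_apply, hh, P_apply, P_pow_apply, zero_add]
    rw [← hqd]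
    have h3 : ∀ F : Fin l → Clause j n,
        ee u (∑ i, vc (F i)) * (q⁻¹ * ∑ c : Clause j n, gt u (∑ i, vc (F i) + vc c)) *
          ((q ^ N)⁻¹ * ∑ d : Fin N → Clause j n, ee u (∑ i, vc (F i) + ∑ i, vc (d i)))
        = q⁻¹ * (q ^ N)⁻¹ * ∑ d : Fin N → Clause j n, ∑ c : Clause j n,
            ee u (∑ k, vc (F k)) * gt u (∑ k, vc (F k) + vc c) *
            ee u (∑ k, vc (F k) + ∑ k, vc (d k)) := by
      intro F
      have h4 : ∑ d : Fin N → Clause j n, ∑ c : Clause j n,
            ee u (∑ k, vc (F k)) * gt u (∑ k, vc (F k) + vc c) *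
            ee u (∑ k, vc (F k) + ∑ k, vc (d k))
          = ee u (∑ k, vc (F k)) * (∑ c : Clause j n, gt u (∑ k, vc (F k) + vc c)) *
            ∑ d : Fin N → Clause j n, ee u (∑ k, vc (F k) + ∑ k, vc (d k)) := by
        rw [Finset.mul_sum]
        refine Finset.sum_congr rfl fun d _ => ?_
        rw [Finset.mul_sum, Finset.sum_mul]
      rw [h4]
      ring
    rw [Finset.sum_congr rfl fun F _ => h3 F, ← Finset.mul_sum, Finset.sum_comm, pow_succ,
      mul_inv]
    ring
  have hL : ((u : ℝ) + 1) * (P j n ^ (l + 1)) (ee (u + 1) * (P j n ^ N) (ee (u + 1))) 0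
      = (q ^ (l + 1))⁻¹ * (q ^ N)⁻¹ * ∑ d : Fin N → Clause j n,
          ∑ F : Fin (l + 1) → Clause j n, ((u : ℝ) + 1) *
            (ee (u + 1) (∑ i, vc (F i)) * ee (u + 1) (∑ i, vc (F i) + ∑ k, vc (d k))) := by
    rw [P_pow_apply]
    simp only [Pi.mul_apply, P_pow_apply, zero_add]
    rw [← hqd, Finset.sum_comm]
    simp only [← Finset.mul_sum]
    have h5 : ∀ F : Fin (l + 1) → Clause j n,
        ee (u + 1) (∑ i, vc (F i)) * ((q ^ N)⁻¹ *
          ∑ d : Fin N → Clause j n, ee (u + 1) (∑ i, vc (F i) + ∑ i, vc (d i)))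
        = (q ^ N)⁻¹ * (ee (u + 1) (∑ i, vc (F i)) *
          ∑ d : Fin N → Clause j n, ee (u + 1) (∑ i, vc (F i) + ∑ i, vc (d i))) := by
      intro F; ring
    rw [Finset.sum_congr rfl fun F _ => h5 F, ← Finset.mul_sum]
    ring
  rw [hL, hR]
  refine mul_le_mul_of_nonneg_left ?_ (by positivity)
  refine Finset.sum_le_sum fun d _ => Finset.sum_le_sum fun F _ => ?_
  exact remove_pointwise u l F _

end Crest.Agent.R153
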