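import Mathlib
import Crest.Agent.R153.Defs

/-!
# Row 153, piece K: the killing probability of a clause in terms of the excluded literals

`Kset u v` contains at most one literal of every variable when `U v = u` (a ground state of value
`u` gives every variable a value, and the corresponding literal is not excluded).  A clause `c`
raises the level, i.e. `U (v + vc c) > u`, iff all its literals `(c.1.1 i, c.2 i)` are excluded
(`U (v + vc c) > u` iff every `s` with `v s ≤ u` violates `c`, i.e. has `s (c.1.1 i) ≠ c.2 i` for
all `i`; and `l ∈ Kset u v` iff every `s` with `v s ≤ u` has `s l.1 ≠ l.2`).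
So the number of killing clauses is the number of injective maps `Fin j → (frozen variables)`,
`f (f-1) ... (f-j+1)` with `f = (Kset u v).card`, and the total number of clauses is
`n.descFactorial j * 2^j` (`Fintype.card_embedding_eq`).
-/

set_option autoImplicit false

namespace Crest.Agent.R153

open Crest.ProbabilityR.RandomSAT Finset

/-- number of clauses -/
theorem card_clause (j n : ℕ) : Fintype.card (Clause j n) = n.descFactorial j * 2 ^ j := by
  have e : Clause j n ≃ (Fin j ↪ Fin n) × (Fin j → Bool) :=
    (Equiv.subtypeInjectiveEquivEmbedding (Fin j) (Fin n)).prodCongr (Equiv.refl _)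
  rw [Fintype.card_congr e, Fintype.card_prod, Fintype.card_embedding_eq]
  simp

/-- a literal excluded at the ground state level is violated by every ground state -/
theorem Kset_snd {n u : ℕ} {v : St n} {s : Asg n} (hs : v s = u) {l : Fin n × Bool}
    (hl : l ∈ Kset u v) : l.2 = !(s l.1) := by
  rw [mem_Kset] at hl
  by_contra hcon
  have h1 : s l.1 = l.2 := by
    cases h2 : l.2 <;> cases h3 : s l.1 <;> simp_all
  have := hl s h1
  omega

theorem Kset_fst_inj {n u : ℕ} {v : St n} (h : U v = u) {l l' : Fin n × Bool}
    (hl : l ∈ Kset u v) (hl' : l' ∈ Kset u v) (he : l.1 = l'.1) : l = l' := by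
  obtain ⟨s, hs⟩ := exists_U v
  rw [h] at hs
  have h1 := Kset_snd hs hl
  have h2 := Kset_snd hs hl'
  refine Prod.ext he ?_
  rw [h1, h2, he]

theorem Kset_card_le {n u : ℕ} {v : St n} (h : U v = u) : (Kset u v).card ≤ n := by
  have h1 : (Kset u v).card ≤ (univ : Finset (Fin n)).card :=
    card_le_card_of_injOn Prod.fst (fun _ _ => mem_coe.2 (mem_univ _))
      (fun l hl l' hl' he => Kset_fst_inj h (mem_coe.1 hl) (mem_coe.1 hl') he)
  simpa using h1

/-- a clause kills the level iff all its literals are excluded -/
theorem kill_iff {j n u : ℕ} {v : St n} (h : U v = u) (c : Clause j n) :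
    u < U (v + vc c) ↔ ∀ i, (c.1.1 i, c.2 i) ∈ Kset u v := by
  rw [lt_U]
  constructor
  · intro hc i
    rw [mem_Kset]
    intro s hs
    have h1 := hc s
    have h2 : vc c s = 0 := by
      unfold vc
      rw [if_neg]
      intro hcon
      exact hcon i hs
    rw [Pi.add_apply, h2] at h1
    exact h1
  · intro hc s
    rw [Pi.add_apply]
    by_cases hs : ∀ i, s (c.1.1 i) ≠ c.2 i
    · have h2 : vc c s = 1 := by unfold vc; rw [if_pos hs]
      have h3 := U_le v s
      omega
    · push Not at hs
      obtain ⟨i, hi⟩ := hs
      have h1 := mem_Kset.1 (hc i) s hi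
      omega

/-- the killing clauses are the embeddings into the excluded literals -/
def killEquiv {j n u : ℕ} {v : St n} (h : U v = u) :
    {c : Clause j n // ∀ i, (c.1.1 i, c.2 i) ∈ Kset u v} ≃ (Fin j ↪ Kset u v) where
  toFun c := ⟨fun i => ⟨(c.1.1.1 i, c.1.2 i), c.2 i⟩, fun i i' hii => by
    have h1 := congrArg (fun x => x.1.1) hii
    exact c.1.1.2 h1⟩
  invFun e := ⟨(⟨fun i => (e i).1.1, fun i i' hii => by
    have h1 := Kset_fst_inj h (e i).2 (e i').2 hii
    exact e.injective (Subtype.ext h1)⟩, fun i => (e i).1.2), fun i => (e i).2⟩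
  left_inv c := rfl
  right_inv e := rfl

/-- exact formula -/
theorem P_gt_eq {j n u : ℕ} {v : St n} (h : U v = u) :
    P j n (gt u) v
      = ((Kset u v).card.descFactorial j : ℝ) / ((n.descFactorial j : ℝ) * 2 ^ j) := by
  have h1 : ∑ c : Clause j n, gt u (v + vc c) = ((Kset u v).card.descFactorial j : ℝ) := by
    have h2 : ∀ c : Clause j n, gt u (v + vc c)
        = if (∀ i, (c.1.1 i, c.2 i) ∈ Kset u v) then (1 : ℝ) else 0 := by
      intro c
      unfold gt
      simp only [kill_iff h c]
    rw [sum_congr rfl fun c _ => h2 c, sum_boole]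
    congr 1
    rw [← Fintype.card_subtype, Fintype.card_congr (killEquiv h), Fintype.card_embedding_eq]
    simp
  rw [P_apply, h1, card_clause]
  push_cast
  rw [inv_mul_eq_div]

end Crest.Agent.R153
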