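import Mathlib
import Crest.Agent.R153.KapBound

/-!
# Row 153, piece K2: `hh` against powers of `kap`

From `P_gt_eq` (`f = (Kset u v).card ≤ n` if `U v = u`):
* `(f)_j / (n)_j ≤ (f/n)^j` (each factor `(f-i)/(n-i) ≤ f/n`; if `f < j` the left side is `0`),
  hence `hh j u v ≤ kap^j` when `U v = u` (and `0` otherwise);
* if `2 j ≤ f` then `f - i ≥ f/2` for `i < j`, so `(f)_j ≥ (f/2)^j`, `(n)_j ≤ n^j` and
  `kap^j = f^j/(2n)^j ≤ 2^j * (f)_j / ((n)_j 2^j)`; if `f < 2j` then `kap^j ≤ (j/n)^j`.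
-/

set_option autoImplicit false

namespace Crest.Agent.R153

open Crest.ProbabilityR.RandomSAT Finset

private lemma desc_mul_pow_le {f n : ℕ} (hf : f ≤ n) (j : ℕ) :
    f.descFactorial j * n ^ j ≤ f ^ j * n.descFactorial j := by
  induction j with
  | zero => simp
  | succ j ih =>
    rw [Nat.descFactorial_succ, Nat.descFactorial_succ, pow_succ, pow_succ]
    have h1 : (f - j) * n ≤ f * (n - j) := by
      rcases le_total f j with h | h
      · simp [Nat.sub_eq_zero_of_le h]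
      · have h2 : j ≤ n := h.trans hf
        zify [h, h2]
        have : (f : ℤ) ≤ n := by exact_mod_cast hf
        have hj : (0 : ℤ) ≤ j := by positivity
        nlinarith
    calc (f - j) * f.descFactorial j * (n ^ j * n)
        = ((f - j) * n) * (f.descFactorial j * n ^ j) := by ring
      _ ≤ (f * (n - j)) * (f ^ j * n.descFactorial j) := Nat.mul_le_mul h1 ih
      _ = f ^ j * f * ((n - j) * n.descFactorial j) := by ring

private lemma pow_le_desc {f j : ℕ} (hf : 2 * j ≤ f) :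
    ∀ i, i ≤ j → f ^ i ≤ 2 ^ i * f.descFactorial i := by
  intro i
  induction i with
  | zero => intro _; simp
  | succ i ih =>
    intro hi
    have h1 := ih (by omega)
    have h2 : f ≤ 2 * (f - i) := by omega
    rw [Nat.descFactorial_succ, pow_succ, pow_succ]
    calc f ^ i * f ≤ (2 ^ i * f.descFactorial i) * (2 * (f - i)) := Nat.mul_le_mul h1 h2
      _ = 2 ^ i * 2 * ((f - i) * f.descFactorial i) := by ring

private lemma hh_eq {j n u : ℕ} {v : St n} (h : U v = u) :
    hh j u v = ((Kset u v).card.descFactorial j : ℝ) / ((n.descFactorial j : ℝ) * 2 ^ j) := by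
  have h1 : ee u v = 1 := by simp [ee, h]
  show ee u v * P j n (gt u) v = _
  rw [h1, one_mul, P_gt_eq h]

private lemma hh_ne {j n u : ℕ} {v : St n} (h : U v ≠ u) : hh j u v = 0 := by
  have h1 : ee u v = 0 := by simp [ee, h]
  show ee u v * P j n (gt u) v = _
  rw [h1, zero_mul]

theorem hh_le {j n : ℕ} (u : ℕ) (hj : j ≤ n) (v : St n) :
    hh j u v ≤ kap u v ^ j * ee u v := by
  by_cases h : U v = u
  · have h1 : ee u v = 1 := by simp [ee, h]
    rw [hh_eq h, h1, mul_one]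
    have hf := Kset_card_le h
    set f := (Kset u v).card with hfd
    have hk : kap u v = (f : ℝ) / (2 * n) := rfl
    rw [hk, div_pow]
    rcases Nat.eq_zero_or_pos j with rfl | hj0
    · simp
    have hn : 0 < n := lt_of_lt_of_le hj0 hj
    have hd : 0 < n.descFactorial j := Nat.descFactorial_pos.2 hj
    have hdr : (0 : ℝ) < n.descFactorial j := by exact_mod_cast hd
    have hnr : (0 : ℝ) < n := by exact_mod_cast hn
    rw [div_le_div_iff₀ (by positivity) (by positivity)]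
    have h2 := desc_mul_pow_le hf j
    have h3 : (f.descFactorial j : ℝ) * (n : ℝ) ^ j ≤ (f : ℝ) ^ j * n.descFactorial j := by
      exact_mod_cast h2
    have h4 : (0 : ℝ) ≤ 2 ^ j := by positivity
    calc (f.descFactorial j : ℝ) * (2 * n) ^ j
        = ((f.descFactorial j : ℝ) * (n : ℝ) ^ j) * 2 ^ j := by rw [mul_pow]; ring
      _ ≤ ((f : ℝ) ^ j * n.descFactorial j) * 2 ^ j := mul_le_mul_of_nonneg_right h3 h4
      _ = (f : ℝ) ^ j * ((n.descFactorial j : ℝ) * 2 ^ j) := by ring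
  · rw [hh_ne h]
    exact mul_nonneg (pow_nonneg (kap_nonneg u v) _) (ee_nonneg u v)

theorem kap_pow_le {j n : ℕ} (u : ℕ) (hj : j ≤ n) (hn : 0 < n) (v : St n) :
    kap u v ^ j * ee u v ≤ 2 ^ j * hh j u v + ((j : ℝ) / n) ^ j * ee u v := by
  by_cases h : U v = u
  · have h1 : ee u v = 1 := by simp [ee, h]
    rw [hh_eq h, h1, mul_one, mul_one]
    set f := (Kset u v).card with hfd
    have hk : kap u v = (f : ℝ) / (2 * n) := rfl
    have hd : 0 < n.descFactorial j := Nat.descFactorial_pos.2 hj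
    have hdr : (0 : ℝ) < n.descFactorial j := by exact_mod_cast hd
    have hnr : (0 : ℝ) < n := by exact_mod_cast hn
    rw [hk]
    by_cases h2 : 2 * j ≤ f
    · have h3 : (f : ℝ) ^ j ≤ 2 ^ j * f.descFactorial j := by
        exact_mod_cast pow_le_desc h2 j le_rfl
      have h4 : (n.descFactorial j : ℝ) ≤ (n : ℝ) ^ j := by
        exact_mod_cast Nat.descFactorial_le_pow n j
      have h5 : ((f : ℝ) / (2 * n)) ^ j
          ≤ 2 ^ j * ((f.descFactorial j : ℝ) / ((n.descFactorial j : ℝ) * 2 ^ j)) := by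
        rw [div_pow, mul_div_assoc', div_le_div_iff₀ (by positivity) (by positivity)]
        calc (f : ℝ) ^ j * ((n.descFactorial j : ℝ) * 2 ^ j)
            ≤ (2 ^ j * f.descFactorial j) * ((n : ℝ) ^ j * 2 ^ j) := by gcongr
          _ = 2 ^ j * (f.descFactorial j : ℝ) * (2 * n) ^ j := by rw [mul_pow]; ring
      have h6 : (0 : ℝ) ≤ ((j : ℝ) / n) ^ j := by positivity
      linarith
    · push Not at h2
      have h3 : (f : ℝ) ≤ 2 * j := by
        have : f ≤ 2 * j := h2.le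
        exact_mod_cast this
      have h4 : (f : ℝ) / (2 * n) ≤ (j : ℝ) / n := by
        rw [div_le_div_iff₀ (by positivity) hnr]
        nlinarith
      have h5 : ((f : ℝ) / (2 * n)) ^ j ≤ ((j : ℝ) / n) ^ j := by gcongr
      have h6 : (0 : ℝ) ≤ 2 ^ j * ((f.descFactorial j : ℝ) / ((n.descFactorial j : ℝ) * 2 ^ j)) := by
        positivity
      linarith
  · have h1 : ee u v = 0 := by simp [ee, h]
    rw [hh_ne h, h1]
    simp

/-- interpolation: for `x = kap ∈ [0,1]`, `2 ≤ k`, `0 < η ≤ 1`: `x^k ≤ η x + η⁻¹ x^(k+1)`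
(if `x^(k-1) ≤ η` the first term suffices; otherwise `x ≥ x^(k-1) > η`, so `x^k ≤ x^(k+1)/η`) -/
theorem pow_interp {k : ℕ} (hk : 2 ≤ k) {x η : ℝ} (hx0 : 0 ≤ x) (hx1 : x ≤ 1) (hη0 : 0 < η)
    (hη1 : η ≤ 1) : x ^ k ≤ η * x + η⁻¹ * x ^ (k + 1) := by
  obtain ⟨m, rfl⟩ : ∃ m, k = m + 2 := ⟨k - 2, by omega⟩
  have h0 : 0 ≤ η⁻¹ * x ^ (m + 2 + 1) := by positivity
  have h0' : 0 ≤ η * x := by positivity
  by_cases h : x ^ (m + 1) ≤ η
  · have : x ^ (m + 2) = x ^ (m + 1) * x := by ring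
    have h1 : x ^ (m + 1) * x ≤ η * x := mul_le_mul_of_nonneg_right h hx0
    linarith
  · push Not at h
    have h1 : x ^ (m + 1) ≤ x := by
      calc x ^ (m + 1) = x ^ m * x := by ring
        _ ≤ 1 * x := mul_le_mul_of_nonneg_right (pow_le_one₀ hx0 hx1) hx0
        _ = x := one_mul x
    have h2 : η ≤ x := (h.trans_le h1).le
    have h3 : x ^ (m + 2) ≤ η⁻¹ * x ^ (m + 2 + 1) := by
      have h4 : 1 ≤ η⁻¹ * x := by
        rw [← div_eq_inv_mul, le_div_iff₀ hη0]; linarith
      have h5 : 0 ≤ x ^ (m + 2) := by positivity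
      calc x ^ (m + 2) = 1 * x ^ (m + 2) := (one_mul _).symm
        _ ≤ (η⁻¹ * x) * x ^ (m + 2) := mul_le_mul_of_nonneg_right h4 h5
        _ = η⁻¹ * x ^ (m + 2 + 1) := by ring
    linarith

/-- `hh k u ≤ η κ e + η⁻¹ κ^(k+1) e` -/
theorem hh_interp {k n : ℕ} (hk : 2 ≤ k) (hn : k ≤ n) (u : ℕ) {η : ℝ} (hη0 : 0 < η)
    (hη1 : η ≤ 1) (v : St n) :
    hh k u v ≤ η * (kap u v * ee u v) + η⁻¹ * (kap u v ^ (k + 1) * ee u v) := by
  refine (hh_le u hn v).trans ?_
  have h1 := pow_interp hk (kap_nonneg u v) (kap_le_one u v) hη0 hη1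
  have h2 := mul_le_mul_of_nonneg_right h1 (ee_nonneg u v)
  refine h2.trans (le_of_eq ?_)
  ring

end Crest.Agent.R153
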