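import Mathlib
import Crest.Agent.R153.KapPow

/-! # Row 153, piece K3: telescoped sums of `κ^(k+1) e` -/

set_option autoImplicit false

namespace Crest.Agent.R153

open Crest.ProbabilityR.RandomSAT Finset

/-- `P^a (ee 0) ≤ ee 0` -/
theorem P_pow_ee_zero_le {j n : ℕ} (h : j ≤ n) (a : ℕ) :
    (P j n ^ a) (ee 0) ≤ (ee 0 : St n → ℝ) := by
  have hne := clause_nonempty h
  have hc : (0 : ℝ) < (Fintype.card (Clause j n) : ℝ) := by
    exact_mod_cast Fintype.card_pos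
  have h1 : P j n (ee 0) ≤ (ee 0 : St n → ℝ) := by
    intro v
    rw [P_apply]
    have h2 : ∑ c : Clause j n, (ee 0 : St n → ℝ) (v + vc c)
        ≤ (Fintype.card (Clause j n) : ℝ) * ee 0 v := by
      calc ∑ c : Clause j n, (ee 0 : St n → ℝ) (v + vc c)
          ≤ ∑ _c : Clause j n, (ee 0 : St n → ℝ) v := sum_le_sum fun c _ => ee_zero_anti v (vc c)
        _ = _ := by rw [sum_const, card_univ, nsmul_eq_mul]
    calc (Fintype.card (Clause j n) : ℝ)⁻¹ * ∑ c : Clause j n, (ee 0 : St n → ℝ) (v + vc c)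
        ≤ (Fintype.card (Clause j n) : ℝ)⁻¹ * ((Fintype.card (Clause j n) : ℝ) * ee 0 v) :=
          mul_le_mul_of_nonneg_left h2 (by positivity)
      _ = ee 0 v := by rw [inv_mul_cancel_left₀ hc.ne']
  induction a with
  | zero => simp
  | succ a ih =>
    rw [pow_succ, Module.End.mul_apply]
    exact (((P_isT j n).pow a).mono h1).trans ih

/-- the pointwise bound behind both sums -/
theorem sum_kap_aux {k n : ℕ} (hn : k + 1 ≤ n) (u A : ℕ) (v : St n) :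
    (∑ a ∈ range A, (P (k + 1) n ^ a) (kap u ^ (k + 1) * ee u)) v
      ≤ 2 ^ (k + 1) * (1 - gt u v)
        + ((k + 1 : ℝ) / n) * (∑ a ∈ range A, (P (k + 1) n ^ a) (ee u)) v := by
  have hn0 : 0 < n := by omega
  have hn0' : (0 : ℝ) < n := by exact_mod_cast hn0
  have hx1 : ((k + 1 : ℝ) / n) ≤ 1 := by
    rw [div_le_one hn0']
    exact_mod_cast hn
  have hx0 : 0 ≤ ((k + 1 : ℝ) / n) := by positivity
  have hpow : ((k + 1 : ℝ) / n) ^ (k + 1) ≤ (k + 1 : ℝ) / n := by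
    calc ((k + 1 : ℝ) / n) ^ (k + 1) ≤ ((k + 1 : ℝ) / n) ^ 1 :=
          pow_le_pow_of_le_one hx0 hx1 (by omega)
      _ = _ := pow_one _
  have h1 : (kap u ^ (k + 1) * ee u : St n → ℝ)
      ≤ (2 ^ (k + 1) : ℝ) • hh (k + 1) u + ((k + 1 : ℝ) / n) • ee u := by
    intro w
    have h2 := kap_pow_le u hn hn0 w
    push_cast at h2
    simp only [Pi.mul_apply, Pi.pow_apply, Pi.add_apply, Pi.smul_apply, smul_eq_mul]
    have h3 : ((k + 1 : ℝ) / n) ^ (k + 1) * ee u w ≤ (k + 1 : ℝ) / n * ee u w :=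
      mul_le_mul_of_nonneg_right hpow (ee_nonneg u w)
    linarith
  have h4 : ∑ a ∈ range A, (P (k + 1) n ^ a) (kap u ^ (k + 1) * ee u : St n → ℝ)
      ≤ ∑ a ∈ range A, (P (k + 1) n ^ a)
        ((2 ^ (k + 1) : ℝ) • hh (k + 1) u + ((k + 1 : ℝ) / n) • ee u) :=
    sum_le_sum fun a _ => ((P_isT (k + 1) n).pow a).mono h1
  have h5 : ∑ a ∈ range A, (P (k + 1) n ^ a)
        ((2 ^ (k + 1) : ℝ) • hh (k + 1) u + ((k + 1 : ℝ) / n) • ee u)
      = (2 ^ (k + 1) : ℝ) • (∑ a ∈ range A, (P (k + 1) n ^ a) (hh (k + 1) u))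
        + ((k + 1 : ℝ) / n) • ∑ a ∈ range A, (P (k + 1) n ^ a) (ee u : St n → ℝ) := by
    simp only [map_add, map_smul, sum_add_distrib, smul_sum]
  rw [h5] at h4
  have h6 := sum_hh_le hn u A v
  have h7 := h4 v
  simp only [Pi.add_apply, Pi.smul_apply, smul_eq_mul, Pi.sub_apply, Pi.one_apply] at h6 h7
  have h8 := mul_le_mul_of_nonneg_left h6 (show (0 : ℝ) ≤ 2 ^ (k + 1) by positivity)
  linarith

/-- the telescoped sum of `κ^(k+1) e`, arbitrary level: use `kap_pow_le` with `j = k+1`,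
`sum_hh_le` (pointwise `1 - gt u ≤ 1`), and `ee ≤ 1`, `(P^a) 1 = 1` for the error term -/
theorem sum_kap_pow_le {k n : ℕ} (hn : k + 1 ≤ n) (u A : ℕ) (v : St n) :
    (∑ a ∈ range A, (P (k + 1) n ^ a) (kap u ^ (k + 1) * ee u)) v
      ≤ 2 ^ (k + 1) + A * ((k + 1 : ℝ) / n) := by
  have h1 := sum_kap_aux hn u A v
  have h2 : 0 ≤ (gt u v : ℝ) := gt_nonneg u v
  have h3 : (∑ a ∈ range A, (P (k + 1) n ^ a) (ee u : St n → ℝ)) v ≤ A := by
    rw [Finset.sum_apply]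
    calc ∑ a ∈ range A, ((P (k + 1) n ^ a) (ee u : St n → ℝ)) v
        ≤ ∑ _a ∈ range A, (1 : ℝ) :=
          sum_le_sum fun a _ => ((P_mk hn).pow a).le_const (fun w => ee_le_one u w) v
      _ = A := by simp
  have h4 : 0 ≤ ((k + 1 : ℝ) / n) := by positivity
  have h5 := mul_le_mul_of_nonneg_left h3 h4
  have h6 : (2 : ℝ) ^ (k + 1) * (1 - gt u v) ≤ 2 ^ (k + 1) := by
    have : (0 : ℝ) < 2 ^ (k + 1) := by positivity
    nlinarith
  linarith

/-- the telescoped sum at level `0`: in addition it vanishes outside `U = 0`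
(`1 - gt 0 = ee 0`, and `P^a (ee 0) ≤ ee 0` because `ee 0` decreases: `ee_zero_anti`) -/
theorem sum_kap_pow_le_zero {k n : ℕ} (hn : k + 1 ≤ n) (A : ℕ) (v : St n) :
    (∑ a ∈ range A, (P (k + 1) n ^ a) (kap 0 ^ (k + 1) * ee 0)) v
      ≤ (2 ^ (k + 1) + A * ((k + 1 : ℝ) / n)) * ee 0 v := by
  have h1 := sum_kap_aux hn 0 A v
  have h2 : (1 : ℝ) - gt 0 v = ee 0 v := by
    unfold gt ee
    by_cases h : U v = 0
    · simp [h]
    · have h' : 0 < U v := Nat.pos_of_ne_zero h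
      simp [h, h']
  have h3 : (∑ a ∈ range A, (P (k + 1) n ^ a) (ee 0 : St n → ℝ)) v ≤ A * ee 0 v := by
    rw [Finset.sum_apply]
    calc ∑ a ∈ range A, ((P (k + 1) n ^ a) (ee 0 : St n → ℝ)) v
        ≤ ∑ _a ∈ range A, (ee 0 : St n → ℝ) v :=
          sum_le_sum fun a _ => P_pow_ee_zero_le hn a v
      _ = A * ee 0 v := by rw [sum_const, card_range, nsmul_eq_mul]
  have h4 : 0 ≤ ((k + 1 : ℝ) / n) := by positivity
  have h5 := mul_le_mul_of_nonneg_left h3 h4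
  rw [h2] at h1
  calc _ ≤ _ := h1
    _ ≤ 2 ^ (k + 1) * ee 0 v + ((k + 1 : ℝ) / n) * (A * ee 0 v) := by linarith
    _ = _ := by ring

end Crest.Agent.R153
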