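import Mathlib
import Crest.Agent.R153.KapSum

/-!
# Row 153, piece B1: survival of a level

* `survive`: `P^N (ee u) ≤ (1 - p)^N` pointwise, `p = P (gt u)` (which grows: `IsT.grow`).  Induction:
  `P^(N+1) (ee u) v = average_c (P^N (ee u)) (v + vc c)`; if `U (v + vc c) > u` the term is `0`
  (`P^N (ee u)` vanishes on `U > u`), otherwise it is `≤ (1 - p (v + vc c))^N ≤ (1 - p v)^N`; the
  proportion of the clauses with `U (v + vc c) > u` is exactly `p v`.
* `hh_surv`: with `x = p v ∈ [0,1]`: `(1-x)^N ≤ 1/(1+N x)` and `1 + N x ≥ 2 √(N x)`, so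
  `x (1-x)^N ≤ √x / (2 √N)`; and on `U v = u`, `x ≤ kap^(k+1) ≤ kap^2` (`hh_le`, `k ≥ 1`).
-/

set_option autoImplicit false

namespace Crest.Agent.R153

open Crest.ProbabilityR.RandomSAT Finset

theorem ee_le_one_sub_gt {n : ℕ} (u : ℕ) : (ee u : St n → ℝ) ≤ 1 - gt u := by
  intro v
  simp only [Pi.sub_apply, Pi.one_apply]
  unfold ee gt
  by_cases h1 : U v = u
  · simp [h1]
  · rw [if_neg h1]
    split_ifs <;> norm_num

theorem P_pow_ee_le_one_sub_gt {j n : ℕ} (h : j ≤ n) (u N : ℕ) (v : St n) :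
    (P j n ^ N) (ee u) v ≤ 1 - gt u v := by
  have h1 := ((P_isT j n).pow N).mono (ee_le_one_sub_gt (n := n) u) v
  rw [map_sub, ((P_mk h).pow N).2] at h1
  have h2 : 0 ≤ (∑ i ∈ range N, (P j n ^ i) (hh j u)) v := by
    rw [Finset.sum_apply]
    exact sum_nonneg fun i _ => ((P_isT j n).pow i).nonneg (hh_nonneg j u) v
  rw [sum_hh h] at h2
  simp only [Pi.sub_apply, Pi.one_apply] at h1 h2
  linarith

theorem survive {j n : ℕ} (h : j ≤ n) (u N : ℕ) (v : St n) :
    (P j n ^ N) (ee u) v ≤ (1 - P j n (gt u) v) ^ N := by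
  have hne := clause_nonempty h
  have hc : (0 : ℝ) < (Fintype.card (Clause j n) : ℝ) := by
    exact_mod_cast Fintype.card_pos
  induction N generalizing v with
  | zero =>
    simp only [pow_zero]
    exact ee_le_one u v
  | succ N ih =>
    rw [pow_succ', Module.End.mul_apply, P_apply]
    have hple : ∀ w, P j n (gt u) w ≤ 1 := fun w => (P_mk h).le_const (fun w => gt_le_one u w) w
    have h0 : 0 ≤ 1 - P j n (gt u) v := by have := hple v; linarith
    have hterm : ∀ c : Clause j n, (P j n ^ N) (ee u) (v + vc c)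
        ≤ (1 - gt u (v + vc c)) * (1 - P j n (gt u) v) ^ N := by
      intro c
      by_cases hk : u < U (v + vc c)
      · have h1 := P_pow_ee_le_one_sub_gt h u N (v + vc c)
        have h2 : (gt u (v + vc c) : ℝ) = 1 := by unfold gt; rw [if_pos hk]
        rw [h2] at h1 ⊢
        simpa using h1
      · have h2 : (gt u (v + vc c) : ℝ) = 0 := by unfold gt; rw [if_neg hk]
        rw [h2, sub_zero, one_mul]
        refine (ih (v + vc c)).trans ?_
        have h3 := (P_isT j n).grow (gt_grow u) v (vc c)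
        have h4 := hple (v + vc c)
        exact pow_le_pow_left₀ (by linarith) (by linarith) N
    have hsum : ∑ c : Clause j n, (P j n ^ N) (ee u) (v + vc c)
        ≤ (Fintype.card (Clause j n) : ℝ) * (1 - P j n (gt u) v) ^ (N + 1) := by
      calc ∑ c : Clause j n, (P j n ^ N) (ee u) (v + vc c)
          ≤ ∑ c : Clause j n, (1 - gt u (v + vc c)) * (1 - P j n (gt u) v) ^ N :=
            sum_le_sum fun c _ => hterm c
        _ = (∑ c : Clause j n, (1 - gt u (v + vc c))) * (1 - P j n (gt u) v) ^ N := by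
            rw [sum_mul]
        _ = ((Fintype.card (Clause j n) : ℝ) * (1 - P j n (gt u) v))
              * (1 - P j n (gt u) v) ^ N := by
            congr 1
            rw [sum_sub_distrib, sum_const, card_univ, nsmul_eq_mul, mul_one, P_apply]
            field_simp
        _ = _ := by ring
    calc (Fintype.card (Clause j n) : ℝ)⁻¹ * ∑ c : Clause j n, (P j n ^ N) (ee u) (v + vc c)
        ≤ (Fintype.card (Clause j n) : ℝ)⁻¹
          * ((Fintype.card (Clause j n) : ℝ) * (1 - P j n (gt u) v) ^ (N + 1)) :=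
          mul_le_mul_of_nonneg_left hsum (by positivity)
      _ = _ := by rw [inv_mul_cancel_left₀ hc.ne']

/-- `x (1-x)^N ≤ √x / (2√N)` in product form -/
theorem surv_real {x : ℝ} (hx0 : 0 ≤ x) (hx1 : x ≤ 1) (N : ℕ) :
    x * (1 - x) ^ N * (2 * Real.sqrt N) ≤ Real.sqrt x := by
  set y := Real.sqrt x with hy
  set z := Real.sqrt (N : ℝ) with hz
  have hy0 : 0 ≤ y := Real.sqrt_nonneg _
  have hz0 : 0 ≤ z := Real.sqrt_nonneg _
  have hy2 : y ^ 2 = x := Real.sq_sqrt hx0
  have hz2 : z ^ 2 = (N : ℝ) := Real.sq_sqrt (Nat.cast_nonneg N)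
  have hE0 : 0 ≤ (1 - x) ^ N := pow_nonneg (by linarith) N
  have h1 : (1 + (N : ℝ) * x) * (1 - x) ^ N ≤ 1 := by
    have hb := one_add_mul_le_pow (show (-2 : ℝ) ≤ x by linarith) N
    calc (1 + (N : ℝ) * x) * (1 - x) ^ N ≤ (1 + x) ^ N * (1 - x) ^ N :=
          mul_le_mul_of_nonneg_right hb hE0
      _ = (1 - x ^ 2) ^ N := by rw [← mul_pow]; ring
      _ ≤ 1 := pow_le_one₀ (by nlinarith) (by nlinarith)
  have h2 : y ^ 2 * (2 * z) ≤ y * (1 + (N : ℝ) * x) := by
    rw [← hz2, ← hy2]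
    nlinarith [mul_nonneg hy0 (sq_nonneg (1 - z * y))]
  calc x * (1 - x) ^ N * (2 * z) = (y ^ 2 * (2 * z)) * (1 - x) ^ N := by rw [← hy2]; ring
    _ ≤ (y * (1 + (N : ℝ) * x)) * (1 - x) ^ N := mul_le_mul_of_nonneg_right h2 hE0
    _ = y * ((1 + (N : ℝ) * x) * (1 - x) ^ N) := by ring
    _ ≤ y * 1 := mul_le_mul_of_nonneg_left h1 hy0
    _ = y := mul_one y

theorem hh_surv {k n : ℕ} (hk : 1 ≤ k) (h : k + 1 ≤ n) (u N : ℕ) (hN : 1 ≤ N) (v : St n) :
    hh (k + 1) u v * (P (k + 1) n ^ N) (ee u) v ≤ kap u v * ee u v / (2 * Real.sqrt N) := by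
  have hNpos : 0 < Real.sqrt (N : ℝ) := Real.sqrt_pos.mpr (by exact_mod_cast hN)
  by_cases hU : U v = u
  · have he : (ee u v : ℝ) = 1 := by unfold ee; rw [if_pos hU]
    have hhx : hh (k + 1) u v = P (k + 1) n (gt u) v := by
      unfold hh; rw [Pi.mul_apply, he, one_mul]
    have hx0 : 0 ≤ P (k + 1) n (gt u) v := (P_isT (k + 1) n).nonneg (gt_nonneg u) v
    have hx1 : P (k + 1) n (gt u) v ≤ 1 := (P_mk h).le_const (fun w => gt_le_one u w) v
    have hx2 := hh_le u h v
    rw [he, mul_one, hhx] at hx2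
    have hk0 : 0 ≤ (kap u v : ℝ) := kap_nonneg u v
    have hk1 : (kap u v : ℝ) ≤ 1 := kap_le_one u v
    have hx3 : P (k + 1) n (gt u) v ≤ (kap u v) ^ 2 :=
      hx2.trans (pow_le_pow_of_le_one hk0 hk1 (by omega))
    have hsq : Real.sqrt (P (k + 1) n (gt u) v) ≤ kap u v := by
      rw [← Real.sqrt_sq hk0]
      exact Real.sqrt_le_sqrt hx3
    have hs := survive h u N v
    have hr := surv_real hx0 hx1 N
    rw [hhx, he, mul_one, le_div_iff₀ (by positivity)]
    calc P (k + 1) n (gt u) v * (P (k + 1) n ^ N) (ee u) v * (2 * Real.sqrt N)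
        ≤ P (k + 1) n (gt u) v * (1 - P (k + 1) n (gt u) v) ^ N * (2 * Real.sqrt N) := by
          gcongr
      _ ≤ Real.sqrt (P (k + 1) n (gt u) v) := hr
      _ ≤ kap u v := hsq
  · have he : (ee u v : ℝ) = 0 := by unfold ee; rw [if_neg hU]
    have hhx : hh (k + 1) u v = 0 := by unfold hh; rw [Pi.mul_apply, he, zero_mul]
    rw [hhx, he, zero_mul, mul_zero, zero_div]

end Crest.Agent.R153
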