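import Mathlib
import Crest.Agent.R153.Defs

/-!
# Row 153, piece B2: the first `N` steps of a level

`∑_{m<A} P^m (ee (u+1)) 0 ≤ 2 N + ∑_{m<A} P^m (ee (u+1) * P^N (ee (u+1))) 0`.
The terms `m < N` are at most `1`.  For the others, `P^(m+N) e = P^m (e * P^N e) +
P^m ((1-e) * P^N e)`, and `(1-e) * P^N e ≤ P^N φ - φ` with `φ = gt u = 1[U ≥ u+1]`: on `U > u+1`,
`P^N e = 0`; on `U ≤ u`, `φ = 0` and `e ≤ φ`; on `U = u+1` the left side is `0` (and
`φ ≤ P^N φ` always).  Finally `∑_{m<M} P^m (P^N φ - φ) 0 ≤ N` (telescoping sum of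
`P^m φ 0 ∈ [0,1]`).
-/

set_option autoImplicit false

namespace Crest.Agent.R153

open Crest.ProbabilityR.RandomSAT Finset

theorem wait_le {j n : ℕ} (h : j ≤ n) (u N A : ℕ) :
    ∑ m ∈ range A, (P j n ^ m) (ee (u + 1)) 0
      ≤ 2 * N + ∑ m ∈ range A, (P j n ^ m) (ee (u + 1) * (P j n ^ N) (ee (u + 1))) 0 := by
  set e : St n → ℝ := ee (u + 1) with he
  set φ : St n → ℝ := gt u with hφ
  set T := P j n with hT
  have hTi : ∀ i, IsT (T ^ i) := fun i => (P_isT j n).pow i
  have hTm : ∀ i, Mk (T ^ i) := fun i => (P_mk h).pow i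
  -- `φ ≤ T^i φ`
  have hgrow : ∀ (w i : ℕ) (v : St n), gt w v ≤ (T ^ i) (gt w) v := by
    intro w i v
    have h2 : 0 ≤ (∑ i ∈ range i, (P j n ^ i) (hh j w)) v := by
      rw [Finset.sum_apply]
      exact sum_nonneg fun i _ => ((P_isT j n).pow i).nonneg (hh_nonneg j w) v
    rw [sum_hh h] at h2
    simp only [Pi.sub_apply] at h2
    linarith
  have he0 : 0 ≤ e := ee_nonneg (u + 1)
  have he1 : e ≤ 1 := ee_le_one (u + 1)
  have heφ : e ≤ φ := by
    intro v
    rw [he, hφ]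
    unfold ee gt
    by_cases h1 : U v = u + 1
    · simp [h1]
    · rw [if_neg h1]
      split_ifs <;> norm_num
  -- pointwise inequality
  have hpt : (1 - e) * (T ^ N) e ≤ (T ^ N) φ - φ := by
    intro v
    simp only [Pi.mul_apply, Pi.sub_apply, Pi.one_apply]
    have hTe0 : 0 ≤ (T ^ N) e v := (hTi N).nonneg he0 v
    have hTeφ : (T ^ N) e v ≤ (T ^ N) φ v := (hTi N).mono heφ v
    have hφg := hgrow u N v
    rcases lt_trichotomy (U v) (u + 1) with h1 | h1 | h1
    · have h2 : φ v = 0 := by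
        rw [hφ]; unfold gt; rw [if_neg (by omega)]
      have h3 : e v = 0 := by
        rw [he]; unfold ee; rw [if_neg (by omega)]
      rw [h2, h3]; linarith
    · have h3 : e v = 1 := by
        rw [he]; unfold ee; rw [if_pos h1]
      rw [h3]
      have : φ v ≤ (T ^ N) φ v := hφg
      linarith
    · have h3 : e v = 0 := by
        rw [he]; unfold ee; rw [if_neg (by omega)]
      have h4 : (T ^ N) e v ≤ 0 := by
        have h5 : e ≤ 1 - gt (u + 1) := by
          intro w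
          simp only [Pi.sub_apply, Pi.one_apply]
          rw [he]
          unfold ee gt
          by_cases h6 : U w = u + 1
          · simp [h6]
          · rw [if_neg h6]
            split_ifs <;> norm_num
        have h6 := (hTi N).mono h5 v
        rw [map_sub, (hTm N).2] at h6
        simp only [Pi.sub_apply, Pi.one_apply] at h6
        have h7 := hgrow (u + 1) N v
        have h8 : (gt (u + 1) v : ℝ) = 1 := by unfold gt; rw [if_pos h1]
        rw [h8] at h7
        linarith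
      rw [h3]
      have : φ v ≤ (T ^ N) φ v := hφg
      linarith
  -- terms
  have hstep : ∀ m, (T ^ (m + N)) e 0 ≤ (T ^ m) (e * (T ^ N) e) 0 + ((T ^ (m + N)) φ 0 - (T ^ m) φ 0) := by
    intro m
    have h1 : (T ^ (m + N)) e = (T ^ m) (e * (T ^ N) e) + (T ^ m) ((1 - e) * (T ^ N) e) := by
      rw [← map_add, ← add_mul, add_sub_cancel, one_mul, pow_add, Module.End.mul_apply]
    have h2 := (hTi m).mono hpt 0
    rw [map_sub, ← Module.End.mul_apply, ← pow_add] at h2
    rw [h1]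
    simp only [Pi.add_apply, Pi.sub_apply] at h2 ⊢
    linarith
  have hle1 : ∀ m, (T ^ m) e 0 ≤ 1 := fun m => (hTm m).le_const (fun w => he1 w) 0
  have hφ0 : ∀ m, 0 ≤ (T ^ m) φ 0 := fun m => (hTi m).nonneg (gt_nonneg u) 0
  have hφ1 : ∀ m, (T ^ m) φ 0 ≤ 1 := fun m => (hTm m).le_const (fun w => gt_le_one u w) 0
  have hen0 : ∀ m, 0 ≤ (T ^ m) e 0 := fun m => (hTi m).nonneg he0 0
  have hprod0 : ∀ m, 0 ≤ (T ^ m) (e * (T ^ N) e) 0 := fun m =>
    (hTi m).nonneg (mul_nonneg he0 ((hTi N).nonneg he0)) 0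
  -- the sum over `m < A` is at most the sum over `m < N + A`
  have hs1 : ∑ m ∈ range A, (T ^ m) e 0 ≤ ∑ m ∈ range (N + A), (T ^ m) e 0 :=
    sum_le_sum_of_subset_of_nonneg (range_mono (by omega)) fun m _ _ => hen0 m
  have hs2 : ∑ m ∈ range (N + A), (T ^ m) e 0
      = ∑ m ∈ range N, (T ^ m) e 0 + ∑ m ∈ range A, (T ^ (m + N)) e 0 := by
    rw [sum_range_add]
    congr 1
    exact sum_congr rfl fun m _ => by rw [add_comm]
  have hs3 : ∑ m ∈ range N, (T ^ m) e 0 ≤ N := by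
    calc _ ≤ ∑ _m ∈ range N, (1 : ℝ) := sum_le_sum fun m _ => hle1 m
      _ = N := by simp
  have htel : ∀ M : ℕ, ∑ m ∈ range A, ((T ^ (m + M)) φ 0 - (T ^ m) φ 0)
      = ∑ m ∈ range M, ((T ^ (m + A)) φ 0 - (T ^ m) φ 0) := by
    intro M
    have e1 : ∑ m ∈ range (M + A), (T ^ m) φ 0
        = ∑ m ∈ range M, (T ^ m) φ 0 + ∑ m ∈ range A, (T ^ (m + M)) φ 0 := by
      rw [sum_range_add]
      congr 1
      exact sum_congr rfl fun m _ => by rw [add_comm]
    have e2 : ∑ m ∈ range (A + M), (T ^ m) φ 0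
        = ∑ m ∈ range A, (T ^ m) φ 0 + ∑ m ∈ range M, (T ^ (m + A)) φ 0 := by
      rw [sum_range_add]
      congr 1
      exact sum_congr rfl fun m _ => by rw [add_comm]
    rw [add_comm A M] at e2
    rw [sum_sub_distrib, sum_sub_distrib]
    linarith
  have hs4 : ∑ m ∈ range A, ((T ^ (m + N)) φ 0 - (T ^ m) φ 0) ≤ N := by
    rw [htel]
    calc _ ≤ ∑ _m ∈ range N, (1 : ℝ) :=
          sum_le_sum fun m _ => by have := hφ1 (m + A); have := hφ0 m; linarith
      _ = N := by simp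
  have hs5 : ∑ m ∈ range A, (T ^ (m + N)) e 0
      ≤ ∑ m ∈ range A, (T ^ m) (e * (T ^ N) e) 0
        + ∑ m ∈ range A, ((T ^ (m + N)) φ 0 - (T ^ m) φ 0) := by
    rw [← sum_add_distrib]
    exact sum_le_sum fun m _ => hstep m
  linarith

end Crest.Agent.R153
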