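import Mathlib

/-!
# Row 153, piece NB: negative binomial sums (pure real analysis)

* `nb_weight`: `∑_i C(a+i,i) x^i ≤ (1-x)^{-(a+1)}` for `0 ≤ x < 1` (Mathlib:
  `summable_choose_mul_geometric_of_norm_lt_one`, `tsum_choose_mul_geometric_of_norm_lt_one'` or
  induction on `a`), with `x = 2θ ≤ 1/2`: `(1-θ)^a (1-2θ)^{-(a+1)} ≤ 2 (1 + θ/(1-2θ))^a ≤
  2 (1+2θ)^a ≤ 2 exp (2 a θ) ≤ 2 exp (2 L)`.
* `nb1`, `nb2`: substitute `a' = a - i` (and `b' = b - j`), exchange the sums; the coefficient of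
  `x a' t` is `∑_{t < i < A - a'} C(a'+i,i) (1-θ)^{a'} θ^i`, and `θ^i = (2θ)^i 2^{-i} ≤ (2θ)^i 2^{-t}`.
  In `nb2` the coefficient of `x a' b' t` is at most
  `2^{-t} ∑_i C(a'+i,i)(1-θ)^{a'}(2θ)^i ∑_j C(b'+j,j)(1-θ)^{b'}(2θ)^j`.
-/

set_option autoImplicit false

namespace Crest.Agent.R153

open Finset

theorem nb_weight {θ L : ℝ} (h0 : 0 ≤ θ) (h1 : θ ≤ 1 / 4) (a M : ℕ) (hL : a * θ ≤ L) :
    ∑ i ∈ range M, ((a + i).choose i : ℝ) * ((1 - θ) ^ a * (2 * θ) ^ i) ≤ 2 * Real.exp (2 * L) := by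
  have hx : ‖(2 * θ : ℝ)‖ < 1 := by
    rw [Real.norm_eq_abs, abs_of_nonneg (by linarith)]; linarith
  have hsum := summable_choose_mul_geometric_of_norm_lt_one a hx
  have htsum := tsum_choose_mul_geometric_of_norm_lt_one a hx
  have h2 : ∑ i ∈ range M, ((a + i).choose i : ℝ) * (2 * θ) ^ i ≤ 1 / (1 - 2 * θ) ^ (a + 1) := by
    rw [← htsum]
    refine le_trans (le_of_eq ?_) (hsum.sum_le_tsum (range M) fun n _ => by positivity)
    refine sum_congr rfl fun i _ => ?_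
    rw [add_comm a i, Nat.choose_symm_add]
  have h3 : 0 < 1 - 2 * θ := by linarith
  have h4 : (1 - θ) ≤ (1 + 2 * θ) * (1 - 2 * θ) := by nlinarith
  have h5 : (1 - θ) ^ a ≤ ((1 + 2 * θ) * (1 - 2 * θ)) ^ a :=
    pow_le_pow_left₀ (by linarith) h4 a
  have h6 : (1 + 2 * θ) ^ a ≤ Real.exp (2 * L) := by
    calc (1 + 2 * θ) ^ a ≤ (Real.exp (2 * θ)) ^ a := by
          have := Real.add_one_le_exp (2 * θ)
          exact pow_le_pow_left₀ (by linarith) (by linarith) a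
      _ = Real.exp (a * (2 * θ)) := by rw [← Real.exp_nat_mul]
      _ ≤ Real.exp (2 * L) := Real.exp_le_exp.2 (by nlinarith)
  calc ∑ i ∈ range M, ((a + i).choose i : ℝ) * ((1 - θ) ^ a * (2 * θ) ^ i)
      = (1 - θ) ^ a * ∑ i ∈ range M, ((a + i).choose i : ℝ) * (2 * θ) ^ i := by
        rw [mul_sum]; refine sum_congr rfl fun i _ => ?_; ring
    _ ≤ ((1 + 2 * θ) * (1 - 2 * θ)) ^ a * (1 / (1 - 2 * θ) ^ (a + 1)) := by
        refine mul_le_mul h5 h2 (sum_nonneg fun i _ => by positivity) ?_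
        have : 0 ≤ (1 + 2 * θ) * (1 - 2 * θ) := by
          refine mul_nonneg (by linarith) h3.le
        exact pow_nonneg this a
    _ = (1 + 2 * θ) ^ a * (1 / (1 - 2 * θ)) := by
        rw [mul_pow, pow_succ]
        have : (1 - 2 * θ) ^ a ≠ 0 := (pow_pos h3 a).ne'
        field_simp
    _ ≤ Real.exp (2 * L) * 2 := by
        refine mul_le_mul h6 ?_ (by positivity) (Real.exp_pos _).le
        rw [div_le_iff₀ h3]; linarith
    _ = 2 * Real.exp (2 * L) := by ring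

/-- triangular sums against square sums -/
theorem tri_le_square (A : ℕ) (G : ℕ → ℕ → ℝ) (hG : ∀ i a, 0 ≤ G i a) :
    ∑ a ∈ range A, ∑ i ∈ range (a + 1), G i (a - i) ≤ ∑ i ∈ range A, ∑ a ∈ range A, G i a := by
  have h1 : ∑ a ∈ range A, ∑ i ∈ range (a + 1), G i (a - i)
      = ∑ i ∈ range A, ∑ a ∈ Ico i A, G i (a - i) := by
    refine sum_comm' ?_
    intro a i
    simp only [mem_range, mem_Ico]
    omega
  rw [h1]
  refine sum_le_sum fun i _ => ?_
  rw [sum_Ico_eq_sum_range]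
  have h2 : ∀ k ∈ range (A - i), G i (i + k - i) = G i k := by
    intro k _
    rw [Nat.add_sub_cancel_left]
  rw [sum_congr rfl h2]
  refine sum_le_sum_of_subset_of_nonneg ?_ fun a _ _ => hG i a
  intro k hk
  rw [mem_range] at hk ⊢
  omega

theorem nb1 {θ L : ℝ} (h0 : 0 ≤ θ) (h1 : θ ≤ 1 / 4) (A : ℕ) (hL : A * θ ≤ L)
    (x : ℕ → ℕ → ℝ) (hx : ∀ a t, 0 ≤ x a t) :
    ∑ a ∈ range A, ∑ i ∈ range (a + 1), (a.choose i : ℝ) * ((1 - θ) ^ (a - i) * θ ^ i) *
        ∑ t ∈ range i, x (a - i) t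
      ≤ ∑ t ∈ range A, 2 * Real.exp (2 * L) * (1 / 2) ^ t * ∑ a ∈ range A, x a t := by
  have hθ : 0 ≤ 1 - θ := by linarith
  set G : ℕ → ℕ → ℝ := fun i a =>
    ((a + i).choose i : ℝ) * ((1 - θ) ^ a * θ ^ i) * ∑ t ∈ range i, x a t with hGd
  have hG : ∀ i a, 0 ≤ G i a := fun i a =>
    mul_nonneg (mul_nonneg (by positivity) (mul_nonneg (pow_nonneg hθ _) (pow_nonneg h0 _)))
      (sum_nonneg fun t _ => hx a t)
  have h2 : ∑ a ∈ range A, ∑ i ∈ range (a + 1), (a.choose i : ℝ) * ((1 - θ) ^ (a - i) * θ ^ i) *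
        ∑ t ∈ range i, x (a - i) t = ∑ a ∈ range A, ∑ i ∈ range (a + 1), G i (a - i) := by
    refine sum_congr rfl fun a _ => sum_congr rfl fun i hi => ?_
    rw [mem_range] at hi
    have : a - i + i = a := by omega
    simp only [hGd, this]
  rw [h2]
  refine (tri_le_square A G hG).trans ?_
  have h3 : ∀ i ∈ range A, ∀ a ∈ range A, G i a ≤
      ∑ t ∈ range A, (((a + i).choose i : ℝ) * ((1 - θ) ^ a * (2 * θ) ^ i)) * ((1 / 2) ^ t * x a t) := by
    intro i hi a _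
    rw [mem_range] at hi
    simp only [hGd]
    rw [mul_sum]
    refine le_trans (sum_le_sum (g := fun t =>
      (((a + i).choose i : ℝ) * ((1 - θ) ^ a * (2 * θ) ^ i)) * ((1 / 2) ^ t * x a t)) ?_) ?_
    · intro t ht
      rw [mem_range] at ht
      have h4 : θ ^ i ≤ (2 * θ) ^ i * (1 / 2) ^ t := by
        have h5 : θ ^ i = (2 * θ) ^ i * (1 / 2 : ℝ) ^ i := by
          rw [← mul_pow]; congr 1; ring
        rw [h5]
        have h6 : (1 / 2 : ℝ) ^ i ≤ (1 / 2) ^ t :=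
          pow_le_pow_of_le_one (by norm_num) (by norm_num) ht.le
        have h7 : (0 : ℝ) ≤ (2 * θ) ^ i := by positivity
        exact mul_le_mul_of_nonneg_left h6 h7
      have h8 : (0 : ℝ) ≤ ((a + i).choose i : ℝ) * (1 - θ) ^ a * x a t :=
        mul_nonneg (mul_nonneg (by positivity) (pow_nonneg hθ _)) (hx a t)
      calc ((a + i).choose i : ℝ) * ((1 - θ) ^ a * θ ^ i) * x a t
          = (((a + i).choose i : ℝ) * (1 - θ) ^ a * x a t) * θ ^ i := by ring
        _ ≤ (((a + i).choose i : ℝ) * (1 - θ) ^ a * x a t) * ((2 * θ) ^ i * (1 / 2) ^ t) :=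
            mul_le_mul_of_nonneg_left h4 h8
        _ = _ := by ring
    · refine sum_le_sum_of_subset_of_nonneg ?_ ?_
      · intro t ht
        rw [mem_range] at ht ⊢
        omega
      · intro t _ _
        exact mul_nonneg (mul_nonneg (by positivity) (mul_nonneg (pow_nonneg hθ _)
          (by positivity))) (mul_nonneg (by positivity) (hx a t))
  calc ∑ i ∈ range A, ∑ a ∈ range A, G i a
      ≤ ∑ i ∈ range A, ∑ a ∈ range A, ∑ t ∈ range A,
        (((a + i).choose i : ℝ) * ((1 - θ) ^ a * (2 * θ) ^ i)) * ((1 / 2) ^ t * x a t) :=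
        sum_le_sum fun i hi => sum_le_sum fun a ha => h3 i hi a ha
    _ = ∑ t ∈ range A, ∑ a ∈ range A, (∑ i ∈ range A,
        (((a + i).choose i : ℝ) * ((1 - θ) ^ a * (2 * θ) ^ i))) * ((1 / 2) ^ t * x a t) := by
        rw [sum_comm]
        have : ∀ a ∈ range A, ∑ i ∈ range A, ∑ t ∈ range A,
            (((a + i).choose i : ℝ) * ((1 - θ) ^ a * (2 * θ) ^ i)) * ((1 / 2) ^ t * x a t)
            = ∑ t ∈ range A, (∑ i ∈ range A,
            (((a + i).choose i : ℝ) * ((1 - θ) ^ a * (2 * θ) ^ i))) * ((1 / 2) ^ t * x a t) := by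
          intro a _
          rw [sum_comm]
          refine sum_congr rfl fun t _ => ?_
          rw [sum_mul]
        rw [sum_congr rfl this, sum_comm]
    _ ≤ ∑ t ∈ range A, ∑ a ∈ range A, (2 * Real.exp (2 * L)) * ((1 / 2) ^ t * x a t) := by
        refine sum_le_sum fun t _ => sum_le_sum fun a ha => ?_
        rw [mem_range] at ha
        refine mul_le_mul_of_nonneg_right ?_ (mul_nonneg (by positivity) (hx a t))
        refine nb_weight h0 h1 a A ?_
        have : (a : ℝ) ≤ A := by exact_mod_cast ha.le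
        nlinarith
    _ = ∑ t ∈ range A, 2 * Real.exp (2 * L) * (1 / 2) ^ t * ∑ a ∈ range A, x a t := by
        refine sum_congr rfl fun t _ => ?_
        rw [mul_sum]
        refine sum_congr rfl fun a _ => ?_
        ring

end Crest.Agent.R153
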