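import Mathlib
import Crest.Agent.R153.NB

/-! # Row 153, piece NB2: the double version of `nb1` (see the header of `NB`) -/

set_option autoImplicit false

namespace Crest.Agent.R153

open Finset

theorem nb2 {θ L : ℝ} (h0 : 0 ≤ θ) (h1 : θ ≤ 1 / 4) (A : ℕ) (hL : A * θ ≤ L)
    (x : ℕ → ℕ → ℕ → ℝ) (hx : ∀ a b t, 0 ≤ x a b t) :
    ∑ a ∈ range A, ∑ b ∈ range (A - a), ∑ i ∈ range (a + 1), ∑ j ∈ range (b + 1),
        (a.choose i : ℝ) * (b.choose j) * ((1 - θ) ^ (a - i + (b - j)) * θ ^ (i + j)) *
          ∑ t ∈ range (i + j), x (a - i) (b - j) t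
      ≤ ∑ t ∈ range A, (2 * Real.exp (2 * L)) ^ 2 * (1 / 2) ^ t *
          ∑ a ∈ range A, ∑ b ∈ range (A - a), x a b t := by
  have h1θ : 0 ≤ 1 - θ := by linarith
  set K : ℝ := 2 * Real.exp (2 * L) with hK
  have hK0 : 0 ≤ K := by positivity
  set w : ℕ → ℕ → ℝ := fun a i => ((a + i).choose i : ℝ) * ((1 - θ) ^ a * (2 * θ) ^ i) with hw
  have w0 : ∀ a i, 0 ≤ w a i := fun a i => by
    simp only [hw]; positivity
  set X : ℕ → ℕ → ℝ := fun a b => ∑ t ∈ range A, (1 / 2 : ℝ) ^ t * x a b t with hX
  have X0 : ∀ a b, 0 ≤ X a b := fun a b =>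
    Finset.sum_nonneg fun t _ => mul_nonneg (by positivity) (hx a b t)
  have hwK : ∀ a ∈ range A, ∑ i ∈ range A, w a i ≤ K := by
    intro a ha
    apply nb_weight h0 h1 a A
    have : (a : ℝ) ≤ A := by exact_mod_cast (mem_range.mp ha).le
    nlinarith
  -- termwise bound
  have hterm : ∀ a b i j : ℕ, i ≤ a → j ≤ b → a + b < A →
      (a.choose i : ℝ) * (b.choose j) * ((1 - θ) ^ (a - i + (b - j)) * θ ^ (i + j)) *
          ∑ t ∈ range (i + j), x (a - i) (b - j) t
        ≤ w (a - i) i * w (b - j) j * X (a - i) (b - j) := by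
    intro a b i j hi hj hab
    have e1 : a - i + i = a := Nat.sub_add_cancel hi
    have e2 : b - j + j = b := Nat.sub_add_cancel hj
    have hs : θ ^ (i + j) * ∑ t ∈ range (i + j), x (a - i) (b - j) t
        ≤ (2 * θ) ^ (i + j) * X (a - i) (b - j) := by
      have h2 : (1 / 2 : ℝ) ^ (i + j) * ∑ t ∈ range (i + j), x (a - i) (b - j) t
          ≤ X (a - i) (b - j) := by
        calc (1 / 2 : ℝ) ^ (i + j) * ∑ t ∈ range (i + j), x (a - i) (b - j) t
            = ∑ t ∈ range (i + j), (1 / 2 : ℝ) ^ (i + j) * x (a - i) (b - j) t := by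
              rw [Finset.mul_sum]
          _ ≤ ∑ t ∈ range (i + j), (1 / 2 : ℝ) ^ t * x (a - i) (b - j) t := by
              refine Finset.sum_le_sum fun t ht => ?_
              refine mul_le_mul_of_nonneg_right ?_ (hx _ _ _)
              exact pow_le_pow_of_le_one (by norm_num) (by norm_num) (mem_range.mp ht).le
          _ ≤ X (a - i) (b - j) := by
              refine Finset.sum_le_sum_of_subset_of_nonneg ?_ ?_
              · intro t ht
                rw [mem_range] at ht ⊢
                omega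
              · intro t _ _
                exact mul_nonneg (by positivity) (hx _ _ _)
      have h3 : θ ^ (i + j) = (2 * θ) ^ (i + j) * (1 / 2 : ℝ) ^ (i + j) := by
        rw [← mul_pow]; congr 1; ring
      rw [h3, mul_assoc]
      exact mul_le_mul_of_nonneg_left h2 (by positivity)
    have hc : 0 ≤ (a.choose i : ℝ) * (b.choose j) * (1 - θ) ^ (a - i + (b - j)) := by positivity
    calc (a.choose i : ℝ) * (b.choose j) * ((1 - θ) ^ (a - i + (b - j)) * θ ^ (i + j)) *
          ∑ t ∈ range (i + j), x (a - i) (b - j) t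
        = ((a.choose i : ℝ) * (b.choose j) * (1 - θ) ^ (a - i + (b - j))) *
            (θ ^ (i + j) * ∑ t ∈ range (i + j), x (a - i) (b - j) t) := by ring
      _ ≤ ((a.choose i : ℝ) * (b.choose j) * (1 - θ) ^ (a - i + (b - j))) *
            ((2 * θ) ^ (i + j) * X (a - i) (b - j)) := mul_le_mul_of_nonneg_left hs hc
      _ = w (a - i) i * w (b - j) j * X (a - i) (b - j) := by
          simp only [hw, e1, e2, pow_add]; ring
  -- step 1
  have s1 : ∑ a ∈ range A, ∑ b ∈ range (A - a), ∑ i ∈ range (a + 1), ∑ j ∈ range (b + 1),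
        (a.choose i : ℝ) * (b.choose j) * ((1 - θ) ^ (a - i + (b - j)) * θ ^ (i + j)) *
          ∑ t ∈ range (i + j), x (a - i) (b - j) t
      ≤ ∑ a ∈ range A, ∑ i ∈ range (a + 1), ∑ b ∈ range (A - a), ∑ j ∈ range (b + 1),
          w (a - i) i * w (b - j) j * X (a - i) (b - j) := by
    refine Finset.sum_le_sum fun a ha => ?_
    rw [Finset.sum_comm]
    refine Finset.sum_le_sum fun i hi => Finset.sum_le_sum fun b hb =>
      Finset.sum_le_sum fun j hj => ?_
    rw [mem_range] at ha hi hb hj
    exact hterm a b i j (by omega) (by omega) (by omega)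
  set Φ : ℕ → ℕ → ℝ := fun i a' => ∑ b ∈ range (A - (a' + i)), ∑ j ∈ range (b + 1),
    w a' i * w (b - j) j * X a' (b - j) with hΦ
  have s2 : ∑ a ∈ range A, ∑ i ∈ range (a + 1), ∑ b ∈ range (A - a), ∑ j ∈ range (b + 1),
          w (a - i) i * w (b - j) j * X (a - i) (b - j)
      = ∑ i ∈ range A, ∑ a' ∈ range (A - i), Φ i a' := by
    rw [← Finset.sum_range_diag_flip]
    refine Finset.sum_congr rfl fun a ha => Finset.sum_congr rfl fun i hi => ?_
    simp only [hΦ]
    rw [Nat.sub_add_cancel (by rw [mem_range] at hi; omega)]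
  have s3 : ∀ i a', a' < A → Φ i a' ≤ w a' i * (K * ∑ b ∈ range (A - a'), X a' b) := by
    intro i a' ha'
    have e : Φ i a' = ∑ j ∈ range (A - (a' + i)), ∑ b ∈ range (A - (a' + i) - j),
        w a' i * w b j * X a' b := by
      simp only [hΦ]
      rw [← Finset.sum_range_diag_flip (A - (a' + i)) (fun j b => w a' i * w b j * X a' b)]
    rw [e]
    calc ∑ j ∈ range (A - (a' + i)), ∑ b ∈ range (A - (a' + i) - j), w a' i * w b j * X a' b
        ≤ ∑ j ∈ range A, ∑ b ∈ range (A - a'), w a' i * w b j * X a' b := by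
          calc ∑ j ∈ range (A - (a' + i)), ∑ b ∈ range (A - (a' + i) - j), w a' i * w b j * X a' b
              ≤ ∑ j ∈ range (A - (a' + i)), ∑ b ∈ range (A - a'), w a' i * w b j * X a' b := by
                refine Finset.sum_le_sum fun j _ => ?_
                refine Finset.sum_le_sum_of_subset_of_nonneg ?_ ?_
                · intro b hb; rw [mem_range] at hb ⊢; omega
                · intro b _ _
                  exact mul_nonneg (mul_nonneg (w0 _ _) (w0 _ _)) (X0 _ _)
            _ ≤ ∑ j ∈ range A, ∑ b ∈ range (A - a'), w a' i * w b j * X a' b := by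
                refine Finset.sum_le_sum_of_subset_of_nonneg ?_ ?_
                · intro b hb; rw [mem_range] at hb ⊢; omega
                · intro b _ _
                  exact Finset.sum_nonneg fun _ _ =>
                    mul_nonneg (mul_nonneg (w0 _ _) (w0 _ _)) (X0 _ _)
      _ = w a' i * ∑ b ∈ range (A - a'), X a' b * ∑ j ∈ range A, w b j := by
          rw [Finset.sum_comm, Finset.mul_sum]
          refine Finset.sum_congr rfl fun b _ => ?_
          rw [Finset.mul_sum, Finset.mul_sum]
          refine Finset.sum_congr rfl fun j _ => ?_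
          ring
      _ ≤ w a' i * ∑ b ∈ range (A - a'), X a' b * K := by
          refine mul_le_mul_of_nonneg_left (Finset.sum_le_sum fun b hb => ?_) (w0 _ _)
          refine mul_le_mul_of_nonneg_left (hwK b ?_) (X0 _ _)
          rw [mem_range] at hb ⊢; omega
      _ = w a' i * (K * ∑ b ∈ range (A - a'), X a' b) := by
          rw [← Finset.sum_mul]; ring
  have s4 : ∑ i ∈ range A, ∑ a' ∈ range (A - i), Φ i a'
      ≤ K ^ 2 * ∑ a ∈ range A, ∑ b ∈ range (A - a), X a b := by
    calc ∑ i ∈ range A, ∑ a' ∈ range (A - i), Φ i a'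
        ≤ ∑ i ∈ range A, ∑ a' ∈ range (A - i), w a' i * (K * ∑ b ∈ range (A - a'), X a' b) := by
          refine Finset.sum_le_sum fun i _ => Finset.sum_le_sum fun a' ha' => s3 i a' ?_
          rw [mem_range] at ha'; omega
      _ ≤ ∑ i ∈ range A, ∑ a' ∈ range A, w a' i * (K * ∑ b ∈ range (A - a'), X a' b) := by
          refine Finset.sum_le_sum fun i _ => ?_
          refine Finset.sum_le_sum_of_subset_of_nonneg ?_ ?_
          · intro b hb; rw [mem_range] at hb ⊢; omega
          · intro b _ _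
            exact mul_nonneg (w0 _ _) (mul_nonneg hK0 (Finset.sum_nonneg fun _ _ => X0 _ _))
      _ = ∑ a' ∈ range A, (K * ∑ b ∈ range (A - a'), X a' b) * ∑ i ∈ range A, w a' i := by
          rw [Finset.sum_comm]
          refine Finset.sum_congr rfl fun a' _ => ?_
          rw [Finset.mul_sum _ _ (K * ∑ b ∈ range (A - a'), X a' b)]
          refine Finset.sum_congr rfl fun i _ => ?_
          ring
      _ ≤ ∑ a' ∈ range A, (K * ∑ b ∈ range (A - a'), X a' b) * K := by
          refine Finset.sum_le_sum fun a' ha' => ?_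
          exact mul_le_mul_of_nonneg_left (hwK a' ha')
            (mul_nonneg hK0 (Finset.sum_nonneg fun _ _ => X0 _ _))
      _ = K ^ 2 * ∑ a ∈ range A, ∑ b ∈ range (A - a), X a b := by
          rw [Finset.mul_sum]
          refine Finset.sum_congr rfl fun a' _ => ?_
          ring
  have s5 : K ^ 2 * ∑ a ∈ range A, ∑ b ∈ range (A - a), X a b
      = ∑ t ∈ range A, K ^ 2 * (1 / 2) ^ t * ∑ a ∈ range A, ∑ b ∈ range (A - a), x a b t := by
    have e : ∑ a ∈ range A, ∑ b ∈ range (A - a), X a b
        = ∑ t ∈ range A, (1 / 2 : ℝ) ^ t * ∑ a ∈ range A, ∑ b ∈ range (A - a), x a b t := by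
      simp only [hX, Finset.mul_sum]
      symm
      rw [Finset.sum_comm]
      refine Finset.sum_congr rfl fun a _ => ?_
      rw [Finset.sum_comm]
    rw [e, Finset.mul_sum]
    refine Finset.sum_congr rfl fun t _ => ?_
    ring
  calc _ ≤ _ := s1
    _ = _ := s2
    _ ≤ _ := s4
    _ = _ := s5

end Crest.Agent.R153
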