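import Mathlib
import Crest.Agent.R153.Defs

/-!
# Row 153, definitions for the one-step inequality (variable `0` is eliminated)

* `cube π b`: automorphism of the cube of assignments (permute the variables, flip the signs).
* `Sy g`: `g` is invariant under all relabellings.
* `gx u v = 1[U v = u and the literal (0,true) is excluded at level u]`.
* `X k n m a r b g = (P_k^r P_{k+1}^a [m * P_{k+1}^b g]) (0)`.
* `up`, `upF`, `upT`: lift a state on `n` variables to `n+1` variables (all assignments / only those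
  with variable `0` false / true); `rho w α γ = up w + upF α + upT γ`.
* `DD j n`: add a `j`-clause avoiding the variable `0`; `AF`, `AT`.
* pairs `(y, γ)`: `Yo j`, `Go j` add a `j`-clause to `y`, to `γ`; `To` the combined operator.
-/

set_option autoImplicit false

namespace Crest.Agent.R153

open Crest.ProbabilityR.RandomSAT Finset

/-- automorphisms of the cube of assignments -/
def cube {n : ℕ} (π : Equiv.Perm (Fin n)) (b : Fin n → Bool) : Asg n → Asg n :=
  fun s i => xor (s (π i)) (b i)

/-- functions invariant under relabelling -/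
def Sy {n : ℕ} (g : St n → ℝ) : Prop :=
  ∀ (π : Equiv.Perm (Fin n)) (b : Fin n → Bool) (v : St n), g (v ∘ cube π b) = g v

/-- level `u`, and the literal `(0, true)` is excluded -/
noncomputable def gx {n : ℕ} (u : ℕ) : St (n + 1) → ℝ :=
  fun v => if U v = u ∧ ((0 : Fin (n + 1)), true) ∈ Kset u v then 1 else 0

/-- the basic expectation: `r` `k`-clauses, `a` `(k+1)`-clauses, weight `m`, `b` more
`(k+1)`-clauses, then `g` -/
noncomputable def X (k n : ℕ) (m : St n → ℝ) (a r b : ℕ) (g : St n → ℝ) : ℝ :=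
  ((P k n ^ r) ((P (k + 1) n ^ a) (m * (P (k + 1) n ^ b) g))) 0

/-- lift a state to one more variable -/
def up {n : ℕ} (w : St n) : St (n + 1) := fun s => w (Fin.tail s)

/-- lift, only on the assignments with variable `0` false (the clause contains the literal
`(0,true)`) -/
def upF {n : ℕ} (w : St n) : St (n + 1) := fun s => if s 0 = true then 0 else w (Fin.tail s)

/-- lift, only on the assignments with variable `0` true -/
def upT {n : ℕ} (w : St n) : St (n + 1) := fun s => if s 0 = true then w (Fin.tail s) else 0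

/-- a state on `n+1` variables built from three states on `n` variables -/
def rho {n : ℕ} (w α γ : St n) : St (n + 1) := up w + upF α + upT γ

/-- add a uniform `j`-clause avoiding variable `0` -/
noncomputable def DD (j n : ℕ) : Module.End ℝ (St (n + 1) → ℝ) :=
  Av (fun c : Clause j n => up (vc c))

noncomputable def AF (j n : ℕ) : Module.End ℝ (St (n + 1) → ℝ) :=
  Av (fun c : Clause j n => upF (vc c))

noncomputable def AT (j n : ℕ) : Module.End ℝ (St (n + 1) → ℝ) :=
  Av (fun c : Clause j n => upT (vc c))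

/-- pair states -/
abbrev V2 (n : ℕ) : Type := St n × St n

noncomputable def Yo (j n : ℕ) : Module.End ℝ (V2 n → ℝ) :=
  Av (fun c : Clause j n => ((vc c, 0) : V2 n))

noncomputable def Go (j n : ℕ) : Module.End ℝ (V2 n → ℝ) :=
  Av (fun c : Clause j n => ((0, vc c) : V2 n))

/-- one `(k+1)`-clause on `n+1` variables seen on pairs, `θ = (k+1)/(n+1)` -/
noncomputable def To (k n : ℕ) (θ : ℝ) : Module.End ℝ (V2 n → ℝ) :=
  (1 - θ) • Yo (k + 1) n + (θ / 2) • (Yo k n + Go k n)

/-- the terminal function on pairs -/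
noncomputable def Psi {n : ℕ} (u : ℕ) : V2 n → ℝ :=
  fun z => if U z.1 = u ∧ u < U (z.1 + z.2) then 1 else 0

lemma X_nonneg {k n : ℕ} {m g : St n → ℝ} (hm : 0 ≤ m) (hg : 0 ≤ g) (a r b : ℕ) :
    0 ≤ X k n m a r b g :=
  ((P_isT k n).pow r).nonneg (((P_isT (k + 1) n).pow a).nonneg
    (mul_nonneg hm (((P_isT (k + 1) n).pow b).nonneg hg))) 0

lemma X_mono {k n : ℕ} {m g g' : St n → ℝ} (hm : 0 ≤ m) (hg : g ≤ g') (a r b : ℕ) :
    X k n m a r b g ≤ X k n m a r b g' := by
  refine ((P_isT k n).pow r).mono (((P_isT (k + 1) n).pow a).mono ?_) 0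
  intro v
  exact mul_le_mul_of_nonneg_left (((P_isT (k + 1) n).pow b).mono hg v) (hm v)

lemma X_mono_m {k n : ℕ} {m m' g : St n → ℝ} (hm : m ≤ m') (hg : 0 ≤ g) (a r b : ℕ) :
    X k n m a r b g ≤ X k n m' a r b g := by
  refine ((P_isT k n).pow r).mono (((P_isT (k + 1) n).pow a).mono ?_) 0
  intro v
  exact mul_le_mul_of_nonneg_right (hm v) (((P_isT (k + 1) n).pow b).nonneg hg v)

lemma X_add {k n : ℕ} (m g g' : St n → ℝ) (a r b : ℕ) :
    X k n m a r b (g + g') = X k n m a r b g + X k n m a r b g' := by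
  simp only [X, map_add, mul_add, Pi.add_apply]

lemma X_add_m {k n : ℕ} (m m' g : St n → ℝ) (a r b : ℕ) :
    X k n (m + m') a r b g = X k n m a r b g + X k n m' a r b g := by
  simp only [X, map_add, add_mul, Pi.add_apply]

lemma X_smul {k n : ℕ} (m g : St n → ℝ) (x : ℝ) (a r b : ℕ) :
    X k n m a r b (x • g) = x * X k n m a r b g := by
  simp only [X, map_smul, mul_smul_comm, Pi.smul_apply, smul_eq_mul]

lemma X_smul_m {k n : ℕ} (m g : St n → ℝ) (x : ℝ) (a r b : ℕ) :
    X k n (x • m) a r b g = x * X k n m a r b g := by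
  simp only [X, map_smul, smul_mul_assoc, Pi.smul_apply, smul_eq_mul]

lemma X_le_one {k n : ℕ} (hn : k + 1 ≤ n) {m g : St n → ℝ} (hm0 : 0 ≤ m) (hm : m ≤ 1)
    (hg : g ≤ 1) (a r b : ℕ) : X k n m a r b g ≤ 1 := by
  refine ((P_mk (show k ≤ n by omega)).pow r).le_const (fun v => ?_) 0
  refine ((P_mk hn).pow a).le_const (fun v => ?_) v
  have h1 : ((P (k + 1) n ^ b) g) v ≤ 1 := ((P_mk hn).pow b).le_const hg v
  calc m v * ((P (k + 1) n ^ b) g) v ≤ m v * 1 := mul_le_mul_of_nonneg_left h1 (hm0 v)
    _ ≤ 1 := by simpa using hm v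

end Crest.Agent.R153
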