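import Mathlib
import Crest.Agent.R153.SymDefs

/-!
# Row 153, piece SP: clauses on `n+1` variables, according to the variable `0`

A clause of length `i+1` on `n+1` variables either avoids the variable `0` (these are the clauses
on `Fin n`, via `Fin.succ`; `vc c = up (vc c')`) or contains it at exactly one position
`p : Fin (i+1)` with sign `x : Bool`, and the other positions (`Fin.succAbove p`) form a clause
of length `i` on `Fin n`:  `vc c = upF (vc c')` if `x = true` (the literal is violated iff
`s 0 = false`) and `vc c = upT (vc c')` if `x = false`.  This gives a bijection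
`Clause (i+1) (n+1) ≃ Clause (i+1) n ⊕ (Fin (i+1) × Bool × Clause i n)`.

For `P_split`: `card_clause` (import `KapBound`) gives the cardinalities:
`(n)_{i+1}/(n+1)_{i+1} = (n-i)/(n+1) = 1 - (i+1)/(n+1)` and
`(i+1) (n)_i 2^i / ((n+1)_{i+1} 2^{i+1}) = (i+1)/(2(n+1))`, using
`(n+1).descFactorial (i+1) = (n+1) * n.descFactorial i` (`Nat.succ_descFactorial_succ`) and
`n.descFactorial (i+1) = (n-i) * n.descFactorial i` (`Nat.descFactorial_succ`); for `n = i` there is
no clause of length `i+1` on `Fin n` and the factor is `0`.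
-/

set_option autoImplicit false

namespace Crest.Agent.R153

open Crest.ProbabilityR.RandomSAT Finset

/-- clauses avoiding the variable `0` -/
private def clA {i n : ℕ} (c : Clause (i + 1) n) : Clause (i + 1) (n + 1) :=
  (⟨fun j => (c.1.1 j).succ, fun _ _ h => c.1.2 (Fin.succ_injective _ h)⟩, c.2)

private lemma clB_inj {i n : ℕ} (p : Fin (i + 1)) (v : Fin i → Fin n) (hv : Function.Injective v) :
    Function.Injective (p.insertNth (α := fun _ => Fin (n + 1)) 0 (fun j => (v j).succ)) := by
  intro a b h
  rcases Fin.eq_self_or_eq_succAbove p a with ha | ⟨a', ha⟩ <;>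
    rcases Fin.eq_self_or_eq_succAbove p b with hb | ⟨b', hb⟩
  · rw [ha, hb]
  · subst ha; subst hb
    rw [Fin.insertNth_apply_same, Fin.insertNth_apply_succAbove] at h
    exact absurd h.symm (Fin.succ_ne_zero _)
  · subst ha; subst hb
    rw [Fin.insertNth_apply_same, Fin.insertNth_apply_succAbove] at h
    exact absurd h (Fin.succ_ne_zero _)
  · subst ha; subst hb
    rw [Fin.insertNth_apply_succAbove, Fin.insertNth_apply_succAbove] at h
    rw [hv (Fin.succ_injective _ h)]

/-- clauses with the variable `0` at position `p` with sign `x` -/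
private def clB {i n : ℕ} (z : Fin (i + 1) × Bool × Clause i n) : Clause (i + 1) (n + 1) :=
  (⟨z.1.insertNth (α := fun _ => Fin (n + 1)) 0 (fun j => (z.2.2.1.1 j).succ),
    clB_inj z.1 z.2.2.1.1 z.2.2.1.2⟩, z.1.insertNth (α := fun _ => Bool) z.2.1 z.2.2.2)

private lemma vc_clA {i n : ℕ} (c : Clause (i + 1) n) : vc (clA c) = up (vc c) := rfl

private lemma vc_clB_true {i n : ℕ} (p : Fin (i + 1)) (c : Clause i n) :
    vc (clB (p, true, c)) = upF (vc c) := by
  funext s
  have h : (∀ q, s ((clB (p, true, c)).1.1 q) ≠ (clB (p, true, c)).2 q) ↔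
      (s 0 ≠ true ∧ ∀ j, Fin.tail s (c.1.1 j) ≠ c.2 j) := by
    rw [Fin.forall_iff_succAbove p]
    simp only [clB, Fin.insertNth_apply_same, Fin.insertNth_apply_succAbove, Fin.tail]
  unfold vc upF
  beta_reduce
  by_cases h0 : s 0 = true
  · rw [if_neg (fun h' => (h.1 h').1 h0), if_pos h0]
  · rw [if_neg h0]
    by_cases h1 : ∀ j, Fin.tail s (c.1.1 j) ≠ c.2 j
    · rw [if_pos (h.2 ⟨h0, h1⟩), if_pos h1]
    · rw [if_neg (fun h' => h1 (h.1 h').2), if_neg h1]

private lemma vc_clB_false {i n : ℕ} (p : Fin (i + 1)) (c : Clause i n) :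
    vc (clB (p, false, c)) = upT (vc c) := by
  funext s
  have h : (∀ q, s ((clB (p, false, c)).1.1 q) ≠ (clB (p, false, c)).2 q) ↔
      (s 0 ≠ false ∧ ∀ j, Fin.tail s (c.1.1 j) ≠ c.2 j) := by
    rw [Fin.forall_iff_succAbove p]
    simp only [clB, Fin.insertNth_apply_same, Fin.insertNth_apply_succAbove, Fin.tail]
  unfold vc upT
  beta_reduce
  by_cases h0 : s 0 = true
  · rw [if_pos h0]
    have h0' : s 0 ≠ false := by rw [h0]; decide
    by_cases h1 : ∀ j, Fin.tail s (c.1.1 j) ≠ c.2 j
    · rw [if_pos (h.2 ⟨h0', h1⟩), if_pos h1]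
    · rw [if_neg (fun h' => h1 (h.1 h').2), if_neg h1]
  · rw [if_neg h0, if_neg (fun h' => (h.1 h').1 (by simpa using h0))]

private lemma cl_bij (i n : ℕ) : Function.Bijective
    (Sum.elim (clA : Clause (i + 1) n → Clause (i + 1) (n + 1)) clB) := by
  constructor
  · rintro (c | z) (c' | z') h
    · simp only [Sum.elim_inl, clA, Prod.mk.injEq, Subtype.mk.injEq] at h
      obtain ⟨h1, h2⟩ := h
      congr 1
      refine Prod.ext (Subtype.ext ?_) h2
      funext j
      exact Fin.succ_injective _ (congrFun h1 j)
    · simp only [Sum.elim_inl, Sum.elim_inr, clA, clB, Prod.mk.injEq, Subtype.mk.injEq] at h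
      have h1 := congrFun h.1 z'.1
      rw [Fin.insertNth_apply_same] at h1
      exact absurd h1 (Fin.succ_ne_zero _)
    · simp only [Sum.elim_inl, Sum.elim_inr, clA, clB, Prod.mk.injEq, Subtype.mk.injEq] at h
      have h1 := congrFun h.1 z.1
      rw [Fin.insertNth_apply_same] at h1
      exact absurd h1.symm (Fin.succ_ne_zero _)
    · simp only [Sum.elim_inr, clB, Prod.mk.injEq, Subtype.mk.injEq] at h
      obtain ⟨h1, h2⟩ := h
      obtain ⟨p, x, c⟩ := z
      obtain ⟨p', x', c'⟩ := z'
      simp only at h1 h2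
      have hp : p = p' := by
        rcases Fin.eq_self_or_eq_succAbove p' p with hp | ⟨q, hp⟩
        · exact hp
        · exfalso
          have h3 := congrFun h1 p
          rw [Fin.insertNth_apply_same] at h3
          rw [hp, Fin.insertNth_apply_succAbove] at h3
          exact absurd h3.symm (Fin.succ_ne_zero _)
      subst hp
      have h3 : c.1.1 = c'.1.1 := by
        funext j
        have h4 := congrFun h1 (p.succAbove j)
        rw [Fin.insertNth_apply_succAbove, Fin.insertNth_apply_succAbove] at h4
        exact Fin.succ_injective _ h4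
      have h5 : c.2 = c'.2 := by
        funext j
        have h4 := congrFun h2 (p.succAbove j)
        rwa [Fin.insertNth_apply_succAbove, Fin.insertNth_apply_succAbove] at h4
      have h6 : x = x' := by
        have h4 := congrFun h2 p
        rwa [Fin.insertNth_apply_same, Fin.insertNth_apply_same] at h4
      rw [h6, show c = c' from Prod.ext (Subtype.ext h3) h5]
  · rintro ⟨⟨v, hv⟩, b⟩
    by_cases h : ∃ p, v p = 0
    · obtain ⟨p, hp⟩ := h
      have hne : ∀ j, v (p.succAbove j) ≠ 0 := fun j h0 =>
        Fin.succAbove_ne p j (hv (h0.trans hp.symm))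
      refine ⟨Sum.inr (p, b p, (⟨fun j => (v (p.succAbove j)).pred (hne j), ?_⟩,
        fun j => b (p.succAbove j))), ?_⟩
      · intro a a' ha
        exact Fin.succAbove_right_injective (hv (Fin.pred_inj.1 ha))
      · simp only [Sum.elim_inr, clB]
        refine Prod.ext (Subtype.ext ?_) ?_
        · funext q
          rcases Fin.eq_self_or_eq_succAbove p q with hq | ⟨q', hq⟩
          · subst hq; simp only [Fin.insertNth_apply_same, hp]
          · subst hq; simp only [Fin.insertNth_apply_succAbove, Fin.succ_pred]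
        · funext q
          rcases Fin.eq_self_or_eq_succAbove p q with hq | ⟨q', hq⟩
          · subst hq; simp only [Fin.insertNth_apply_same]
          · subst hq; simp only [Fin.insertNth_apply_succAbove]
    · push Not at h
      refine ⟨Sum.inl (⟨fun j => (v j).pred (h j), ?_⟩, b), ?_⟩
      · intro a a' ha
        exact hv (Fin.pred_inj.1 ha)
      · simp only [Sum.elim_inl, clA]
        refine Prod.ext (Subtype.ext ?_) rfl
        funext q
        simp only [Fin.succ_pred]

theorem sum_split (i n : ℕ) (F : St (n + 1) → ℝ) :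
    ∑ c : Clause (i + 1) (n + 1), F (vc c)
      = ∑ c : Clause (i + 1) n, F (up (vc c))
        + (i + 1) * ∑ c : Clause i n, (F (upF (vc c)) + F (upT (vc c))) := by
  rw [← (Equiv.ofBijective _ (cl_bij i n)).sum_comp (fun c => F (vc c)), Fintype.sum_sum_type]
  congr 1
  rw [Fintype.sum_prod_type]
  have h : ∀ p : Fin (i + 1), ∑ y : Bool × Clause i n,
      F (vc ((Equiv.ofBijective _ (cl_bij i n)) (Sum.inr (p, y)))) =
      ∑ c : Clause i n, (F (upF (vc c)) + F (upT (vc c))) := by
    intro p
    rw [Fintype.sum_prod_type, Fintype.sum_bool, ← sum_add_distrib]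
    refine sum_congr rfl fun c _ => ?_
    have h1 : vc ((Equiv.ofBijective _ (cl_bij i n)) (Sum.inr (p, (true, c)))) = upF (vc c) :=
      vc_clB_true p c
    have h2 : vc ((Equiv.ofBijective _ (cl_bij i n)) (Sum.inr (p, (false, c)))) = upT (vc c) :=
      vc_clB_false p c
    rw [h1, h2]
  rw [sum_congr rfl fun p _ => h p, sum_const, card_univ, Fintype.card_fin, nsmul_eq_mul]
  push_cast
  ring

end Crest.Agent.R153
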