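import Mathlib
import Crest.Agent.R153.Split
import Crest.Agent.R153.KapBound

/-!
# Row 153, piece SP2: the operator form of `sum_split` (see the header of `Split`).
-/

set_option autoImplicit false

namespace Crest.Agent.R153

open Crest.ProbabilityR.RandomSAT Finset

theorem P_split (i n : ℕ) (h : i ≤ n) :
    P (i + 1) (n + 1)
      = (1 - (i + 1 : ℝ) / (n + 1)) • DD (i + 1) n
        + ((i + 1 : ℝ) / (n + 1) / 2) • (AF i n + AT i n) := by
  ext g v
  simp only [P, DD, AF, AT, LinearMap.add_apply, LinearMap.smul_apply, Pi.add_apply, Pi.smul_apply,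
    smul_eq_mul, Av_apply]
  rw [sum_split i n (fun w => g (v + w)), sum_add_distrib]
  have hn0 : (0 : ℝ) < (n : ℝ) + 1 := by positivity
  have hD : (0 : ℝ) < n.descFactorial i := by
    have : 0 < n.descFactorial i := Nat.descFactorial_pos.2 h
    exact_mod_cast this
  have hc1 : (Fintype.card (Clause (i + 1) (n + 1)) : ℝ) =
      (n + 1) * n.descFactorial i * (2 ^ i * 2) := by
    rw [card_clause, Nat.succ_descFactorial_succ, pow_succ]
    push_cast
    ring
  have hc2 : (Fintype.card (Clause i n) : ℝ) = n.descFactorial i * 2 ^ i := by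
    rw [card_clause]
    push_cast
    ring
  have e2 : (Fintype.card (Clause (i + 1) (n + 1)) : ℝ)⁻¹ * (i + 1) =
      ((i + 1 : ℝ) / (n + 1) / 2) * (Fintype.card (Clause i n) : ℝ)⁻¹ := by
    rw [hc1, hc2]
    field_simp
  have e1 : (Fintype.card (Clause (i + 1) (n + 1)) : ℝ)⁻¹ *
      ∑ c : Clause (i + 1) n, g (v + up (vc c)) =
      (1 - (i + 1 : ℝ) / (n + 1)) * ((Fintype.card (Clause (i + 1) n) : ℝ)⁻¹ *
        ∑ c : Clause (i + 1) n, g (v + up (vc c))) := by
    rcases Nat.lt_or_ge i n with hin | hin
    · have hni : (0 : ℝ) < (n : ℝ) - i := by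
        have : (i : ℝ) < n := by exact_mod_cast hin
        linarith
      have hc3 : (Fintype.card (Clause (i + 1) n) : ℝ) =
          ((n : ℝ) - i) * n.descFactorial i * (2 ^ i * 2) := by
        rw [card_clause, Nat.descFactorial_succ, pow_succ]
        push_cast
        rw [Nat.cast_sub h]
      rw [← mul_assoc]
      congr 1
      rw [hc1, hc3]
      have h2 : (2 : ℝ) ^ i ≠ 0 := by positivity
      field_simp
      ring
    · have : IsEmpty (Clause (i + 1) n) := by
        refine ⟨fun c => ?_⟩
        have := Fintype.card_le_of_injective _ c.1.2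
        simp only [Fintype.card_fin] at this
        omega
      simp
  rw [mul_add, e1, ← mul_assoc (Fintype.card (Clause (i + 1) (n + 1)) : ℝ)⁻¹ (i + 1 : ℝ), e2]
  ring

end Crest.Agent.R153
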