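import Mathlib
import Crest.Agent.R153.SymDefs

/-!
# Row 153, piece SY1: relabelling invariance

`vc c ∘ cube π b = vc c'` with `c'.1 = π ∘ c.1`, `c'.2 i = xor (c.2 i) (b (c.1 i))`:
`xor (s (π (c.1 i))) (b (c.1 i)) ≠ c.2 i ↔ s (π (c.1 i)) ≠ xor (c.2 i) (b (c.1 i))`; and `c ↦ c'` is
a bijection of clauses.  `cube π b` is a bijection of assignments (so `U (v ∘ cube π b) = U v`),
and maps the literal set: `l ∈ Kset u (v ∘ cube π b) ↔ l' ∈ Kset u v` for a bijection `l ↦ l'` of
literals: with `s' = cube π b s` we have `s' i = xor (s (π i)) (b i)`; the condition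
`∀ s, s l.1 = l.2 → u < v (cube π b s)` becomes `∀ s', (s' i = xor l.2 (b i)) → u < v s'` with
`i = π⁻¹ l.1`.  So `l' = (π⁻¹ l.1, xor l.2 (b (π⁻¹ l.1)))`.
-/

set_option autoImplicit false

namespace Crest.Agent.R153

open Crest.ProbabilityR.RandomSAT Finset

/-- relabelled clause -/
def cubeClause {j n : ℕ} (π : Equiv.Perm (Fin n)) (b : Fin n → Bool) :
    Clause j n ≃ Clause j n where
  toFun c := (⟨fun i => π (c.1.1 i), π.injective.comp c.1.2⟩, fun i => xor (c.2 i) (b (c.1.1 i)))
  invFun c := (⟨fun i => π.symm (c.1.1 i), π.symm.injective.comp c.1.2⟩,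
    fun i => xor (c.2 i) (b (π.symm (c.1.1 i))))
  left_inv c := by
    refine Prod.ext (Subtype.ext ?_) ?_
    · funext i; simp
    · funext i; simp
  right_inv c := by
    refine Prod.ext (Subtype.ext ?_) ?_
    · funext i; simp
    · funext i; simp

theorem vc_cube {j n : ℕ} (π : Equiv.Perm (Fin n)) (b : Fin n → Bool) (c : Clause j n) :
    vc c ∘ cube π b = vc (cubeClause π b c) := by
  funext s
  simp only [vc, Function.comp, cube, cubeClause, Equiv.coe_fn_mk]
  refine if_congr (forall_congr' fun i => ?_) rfl rfl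
  cases s (π (c.1.1 i)) <;> cases b (c.1.1 i) <;> cases c.2 i <;> simp

theorem P_cube {n : ℕ} (j : ℕ) (g : St n → ℝ) (π : Equiv.Perm (Fin n)) (b : Fin n → Bool)
    (v : St n) : P j n (fun w => g (w ∘ cube π b)) v = P j n g (v ∘ cube π b) := by
  rw [P_apply, P_apply]
  congr 1
  refine Fintype.sum_equiv (cubeClause π b) _ _ fun c => ?_
  rw [← vc_cube]
  rfl

/-- the inverse map of the cube -/
def cubeInv {n : ℕ} (π : Equiv.Perm (Fin n)) (b : Fin n → Bool) (s : Asg n) : Asg n :=
  fun i => xor (s (π.symm i)) (b (π.symm i))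

theorem cube_cubeInv {n : ℕ} (π : Equiv.Perm (Fin n)) (b : Fin n → Bool) (s : Asg n) :
    cube π b (cubeInv π b s) = s := by
  funext i
  simp [cube, cubeInv]

theorem U_cube {n : ℕ} (π : Equiv.Perm (Fin n)) (b : Fin n → Bool) (v : St n) :
    U (v ∘ cube π b) = U v := by
  apply le_antisymm
  · obtain ⟨s, hs⟩ := exists_U v
    have h := U_le (v ∘ cube π b) (cubeInv π b s)
    rw [Function.comp_apply, cube_cubeInv, hs] at h
    exact h
  · obtain ⟨s, hs⟩ := exists_U (v ∘ cube π b)
    rw [← hs]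
    exact U_le v _

/-- transport of excluded literals -/
theorem Kset_cube {n : ℕ} (u : ℕ) (π : Equiv.Perm (Fin n)) (b : Fin n → Bool) (v : St n)
    (i : Fin n) (x : Bool) :
    (π i, x) ∈ Kset u (v ∘ cube π b) ↔ (i, xor x (b i)) ∈ Kset u v := by
  rw [mem_Kset, mem_Kset]
  constructor
  · intro h s hs
    have h1 := h (cubeInv π b s) (by
      simp only at hs
      simp [cubeInv, hs])
    rwa [Function.comp_apply, cube_cubeInv] at h1
  · intro h s hs
    exact h (cube π b s) (by
      simp only at hs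
      simp [cube, hs])

theorem Sy_ee {n : ℕ} (u : ℕ) : Sy (ee u : St n → ℝ) := by
  intro π b v
  unfold ee
  rw [U_cube]

theorem Sy_kap {n : ℕ} (u : ℕ) : Sy (kap u : St n → ℝ) := by
  intro π b v
  have h : (Kset u (v ∘ cube π b)).card = (Kset u v).card := by
    refine card_bij' (fun l _ => (π.symm l.1, xor l.2 (b (π.symm l.1))))
      (fun l _ => (π l.1, xor l.2 (b l.1))) ?_ ?_ ?_ ?_
    · intro l hl
      rw [← Kset_cube u π b v]
      simpa using hl
    · intro l hl
      rw [Kset_cube]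
      simpa using hl
    · intro l _
      refine Prod.ext ?_ ?_ <;> simp
    · intro l _
      refine Prod.ext ?_ ?_ <;> simp
  unfold kap
  rw [h]

theorem Sy_one {n : ℕ} : Sy (1 : St n → ℝ) := by
  intro π b v
  rfl

theorem Sy.mul {n : ℕ} {g g' : St n → ℝ} (h : Sy g) (h' : Sy g') : Sy (g * g') := by
  intro π b v
  simp only [Pi.mul_apply]
  rw [h, h']

theorem Sy.P {n : ℕ} {g : St n → ℝ} (h : Sy g) (j : ℕ) : Sy (P j n g) := by
  intro π b v
  rw [← P_cube]
  have : (fun w => g (w ∘ cube π b)) = g := funext fun w => h π b w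
  rw [this]

theorem Sy.P_pow {n : ℕ} {g : St n → ℝ} (h : Sy g) (j a : ℕ) : Sy ((R153.P j n ^ a) g) := by
  induction a with
  | zero => simpa using h
  | succ a ih =>
    rw [pow_succ', Module.End.mul_apply]
    exact Sy.P ih j

end Crest.Agent.R153
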