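import Mathlib
import Crest.Agent.R153.Sym

/-!
# Row 153, piece SV: one-clause states

* `Sy.vc_eq`: any two `j`-clauses are related by some `cube π b`: for injections `i, i' : Fin j → Fin n`
  there is a permutation `π` of `Fin n` with `i' = π ∘ i` (e.g. `Function.Embedding` /
  `Equiv.extendSubtype`, `Equiv.Perm.exists_extending_pair`...), and choose `b` on the image to
  match the signs (`vc c ∘ cube π b = vc c'` with `c'.1 = π ∘ c.1`,
  `c'.2 i = xor (c.2 i) (b (c.1 i))`).
* `exists_upF`, `exists_upT`: put `(0, true)` resp. `(0, false)` in front (`Fin.cons`).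
-/

set_option autoImplicit false

namespace Crest.Agent.R153

open Crest.ProbabilityR.RandomSAT Finset

/-- symmetric functions take the same value at all one-clause states -/
theorem Sy.vc_eq {j n : ℕ} {G : St n → ℝ} (hG : Sy G) (c c' : Clause j n) :
    G (vc c) = G (vc c') := by
  classical
  let e1 := Equiv.ofInjective c.1.1 c.1.2
  let e2 := Equiv.ofInjective c'.1.1 c'.1.2
  let π : Equiv.Perm (Fin n) := Equiv.extendSubtype (e1.symm.trans e2)
  have hπ : ∀ i, π (c.1.1 i) = c'.1.1 i := by
    intro i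
    have h1 : c.1.1 i ∈ Set.range c.1.1 := ⟨i, rfl⟩
    have h2 := Equiv.extendSubtype_apply_of_mem (e1.symm.trans e2) (c.1.1 i) h1
    have h3 : e1.symm ⟨c.1.1 i, h1⟩ = i := by
      rw [Equiv.symm_apply_eq]
      rfl
    rw [Equiv.trans_apply, h3] at h2
    exact h2
  let b : Fin n → Bool := Function.extend c.1.1 (fun i => xor (c.2 i) (c'.2 i)) (fun _ => false)
  have hb : ∀ i, b (c.1.1 i) = xor (c.2 i) (c'.2 i) := fun i => c.1.2.extend_apply _ _ i
  have hc : cubeClause π b c = c' := by
    refine Prod.ext (Subtype.ext ?_) ?_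
    · funext i
      exact hπ i
    · funext i
      show xor (c.2 i) (b (c.1.1 i)) = c'.2 i
      rw [hb]
      cases c.2 i <;> cases c'.2 i <;> rfl
  rw [← hG π b (vc c), vc_cube, hc]

theorem consInj {j n : ℕ} (c : Clause j n) :
    Function.Injective (Fin.cons (α := fun _ => Fin (n + 1)) 0 (fun i => (c.1.1 i).succ)) := by
  rw [Fin.cons_injective_iff]
  refine ⟨?_, fun i i' h => c.1.2 (Fin.succ_injective _ h)⟩
  rintro ⟨i, hi⟩
  exact Fin.succ_ne_zero _ hi

/-- a clause with the literal `(0, true)` in front -/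
theorem exists_upF {j n : ℕ} (c : Clause j n) :
    ∃ c' : Clause (j + 1) (n + 1), vc c' = upF (vc c) := by
  refine ⟨(⟨Fin.cons 0 (fun i => (c.1.1 i).succ), consInj c⟩, Fin.cons true c.2), ?_⟩
  funext s
  unfold vc upF
  by_cases h : s 0 = true
  · rw [if_pos h, if_neg]
    intro hcon
    exact hcon 0 h
  · rw [if_neg h]
    refine if_congr ?_ rfl rfl
    rw [Fin.forall_fin_succ]
    simp only [Fin.cons_zero, Fin.cons_succ]
    exact ⟨fun hh => hh.2, fun hh => ⟨h, hh⟩⟩

/-- a clause with the literal `(0, false)` in front -/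
theorem exists_upT {j n : ℕ} (c : Clause j n) :
    ∃ c' : Clause (j + 1) (n + 1), vc c' = upT (vc c) := by
  refine ⟨(⟨Fin.cons 0 (fun i => (c.1.1 i).succ), consInj c⟩, Fin.cons false c.2), ?_⟩
  funext s
  unfold vc upT
  by_cases h : s 0 = true
  · rw [if_pos h]
    refine if_congr ?_ rfl rfl
    rw [Fin.forall_fin_succ]
    simp only [Fin.cons_zero, Fin.cons_succ]
    exact ⟨fun hh => hh.2, fun hh => ⟨by rw [h]; decide, hh⟩⟩
  · rw [if_neg h, if_neg]
    intro hcon
    exact hcon 0 (by simpa using h)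

end Crest.Agent.R153
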