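import Mathlib
import Crest.Agent.R153.SymVc
import Crest.Agent.R153.PSplit

/-!
# Row 153, piece BG: background clauses containing the variable `0`

Let `W = P k (n+1)`, `k ≥ 1`; by `P_split`, `W = q' • DD k n + B`, `q' = 1 - k/(n+1) ∈ [0,1]`,
`B = (k/(n+1)/2) • (AF (k-1) n + AT (k-1) n)`; all operators are in the cone `IsT` (so they
commute, positive).  By induction on `r` on functions `F ≥ 0`:
`W^r F ≤ DD^r F + r • B W^(r-1) F` (or use `W^r - (q'DD)^r = B ∑_{i<r} (q'DD)^i W^(r-1-i)` and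
`q' DD G ≤ W G`, `q' DD G ≤ DD G` for `G ≥ 0`).
Let `Fs` be symmetric and `F ≤ Fs`, then `G = W^(r-1) Fs` is symmetric, hence `G (vc c)` does not
depend on the `k`-clause `c`, `G (vc c) = W G 0` (any two `k`-clauses are related by some
`cube π b`: extend the injection to a permutation, `Equiv.Perm` / `Function.Injective` ...), and
`B G 0 = (k/(n+1)) * average of G (vc c) over the clauses containing 0 = (k/(n+1)) * W G 0`.
For the last step one may use: `upF (vc c')`, `upT (vc c')` are `vc` of a clause (put `0` in front).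
-/

set_option autoImplicit false

namespace Crest.Agent.R153

open Crest.ProbabilityR.RandomSAT Finset

section abstract

variable {V : Type*} [AddCommMonoid V]

/-- `(D + B)^(r+1) G ≤ D^(r+1) G + (r+1) B (D+B)^r G` -/
private theorem bg_ineq {D B : Module.End ℝ (V → ℝ)} (hD : IsT D) (hB : IsT B) {G : V → ℝ}
    (hG : 0 ≤ G) (r : ℕ) :
    ((D + B) ^ (r + 1)) G ≤ (D ^ (r + 1)) G + ((r + 1 : ℕ) : ℝ) • B (((D + B) ^ r) G) := by
  induction r with
  | zero =>
    simp
  | succ r ih =>
    have hW : IsT (D + B) := hD.add hB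
    have hWG : 0 ≤ ((D + B) ^ r) G := (hW.pow r).nonneg hG
    have h1 : ((D + B) ^ (r + 1 + 1)) G = D (((D + B) ^ (r + 1)) G) + B (((D + B) ^ (r + 1)) G) := by
      rw [pow_succ', Module.End.mul_apply, LinearMap.add_apply]
    have h2 : D (((D + B) ^ (r + 1)) G) ≤
        D ((D ^ (r + 1)) G + ((r + 1 : ℕ) : ℝ) • B (((D + B) ^ r) G)) := hD.mono ih
    have h3 : D ((D ^ (r + 1)) G + ((r + 1 : ℕ) : ℝ) • B (((D + B) ^ r) G)) =
        (D ^ (r + 1 + 1)) G + ((r + 1 : ℕ) : ℝ) • B (D (((D + B) ^ r) G)) := by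
      rw [map_add, map_smul, pow_succ' D (r + 1), Module.End.mul_apply]
      have hc : D (B (((D + B) ^ r) G)) = B (D (((D + B) ^ r) G)) := by
        have := congrArg (fun S : Module.End ℝ (V → ℝ) => S (((D + B) ^ r) G)) (hD.commute hB).eq
        simpa [Module.End.mul_apply] using this
      rw [hc]
    have h4 : B (D (((D + B) ^ r) G)) ≤ B (((D + B) ^ (r + 1)) G) := by
      refine hB.mono ?_
      rw [pow_succ', Module.End.mul_apply, LinearMap.add_apply]
      have := hB.nonneg hWG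
      intro v
      have := this v
      simp only [Pi.add_apply, Pi.zero_apply] at this ⊢
      linarith
    intro v
    have e2 := h2 v
    rw [h3] at e2
    have e4 := h4 v
    rw [h1]
    simp only [Pi.add_apply, Pi.smul_apply, smul_eq_mul] at e2 e4 ⊢
    push_cast at e2 ⊢
    have h5 : (0 : ℝ) ≤ (r : ℝ) + 1 := by positivity
    nlinarith [mul_le_mul_of_nonneg_left e4 h5]

/-- `(q D)^r G ≤ D^r G` for `0 ≤ q ≤ 1` -/
private theorem bg_smul_pow {D : Module.End ℝ (V → ℝ)} (hD : IsT D) {G : V → ℝ} (hG : 0 ≤ G)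
    {q : ℝ} (h0 : 0 ≤ q) (h1 : q ≤ 1) (r : ℕ) : ((q • D) ^ r) G ≤ (D ^ r) G := by
  have h : ((q • D) ^ r) G = q ^ r • (D ^ r) G := by
    rw [smul_pow, LinearMap.smul_apply]
  rw [h]
  intro v
  have hn := (hD.pow r).nonneg hG v
  simp only [Pi.smul_apply, smul_eq_mul, Pi.zero_apply] at hn ⊢
  exact mul_le_of_le_one_left hn (pow_le_one₀ h0 h1)

end abstract

private theorem bg_av_const {V ι : Type*} [AddCommMonoid V] [Fintype ι] [Nonempty ι] (w : ι → V)
    (g : V → ℝ) (a : ℝ) (h : ∀ i, g (w i) = a) : Av w g 0 = a := by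
  rw [Av_apply]
  have : ∀ i, g (0 + w i) = a := fun i => by rw [zero_add]; exact h i
  rw [sum_congr rfl fun i _ => this i, sum_const, card_univ, nsmul_eq_mul, ← mul_assoc,
    inv_mul_cancel₀ (by exact_mod_cast Fintype.card_ne_zero), one_mul]

theorem background {k n : ℕ} (hk : 1 ≤ k) (hn : k ≤ n) (r : ℕ) {F Fs : St (n + 1) → ℝ}
    (h0 : 0 ≤ F) (h1 : F ≤ Fs) (hs : Sy Fs) :
    (P k (n + 1) ^ r) F 0
      ≤ (DD k n ^ r) F 0 + r * ((k : ℝ) / (n + 1)) * (P k (n + 1) ^ r) Fs 0 := by
  obtain ⟨i, rfl⟩ : ∃ i, k = i + 1 := ⟨k - 1, by omega⟩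
  cases r with
  | zero => simp
  | succ r =>
    have hin : i ≤ n := by omega
    have hsplit := P_split i n hin
    set q : ℝ := 1 - (i + 1 : ℝ) / (n + 1) with hq
    set b : ℝ := (i + 1 : ℝ) / (n + 1) / 2 with hb
    have hn1 : (0 : ℝ) < n + 1 := by positivity
    have hle : ((i : ℝ) + 1) / (n + 1) ≤ 1 := by
      rw [div_le_one hn1]
      have : ((i + 1 : ℕ) : ℝ) ≤ n := by exact_mod_cast hn
      push_cast at this
      linarith
    have hq0 : 0 ≤ q := by rw [hq]; linarith
    have hq1 : q ≤ 1 := by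
      rw [hq]
      have : 0 ≤ ((i : ℝ) + 1) / (n + 1) := by positivity
      linarith
    have hb0 : 0 ≤ b := by rw [hb]; positivity
    have hDD : IsT (DD (i + 1) n) := IsT.av _
    have hD : IsT (q • DD (i + 1) n) := hDD.smul hq0
    have hBT : IsT (b • (AF i n + AT i n)) := ((IsT.av _).add (IsT.av _)).smul hb0
    have hFs : 0 ≤ Fs := h0.trans h1
    -- main inequality
    have key := bg_ineq hD hBT h0 r 0
    rw [← hsplit] at key
    have key2 := bg_smul_pow hDD h0 hq0 hq1 (r + 1) 0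
    -- the `B` term
    have hmono : (b • (AF i n + AT i n)) ((P (i + 1) (n + 1) ^ r) F) 0 ≤
        (b • (AF i n + AT i n)) ((P (i + 1) (n + 1) ^ r) Fs) 0 :=
      hBT.mono (((P_isT (i + 1) (n + 1)).pow r).mono h1) 0
    have hG : Sy ((P (i + 1) (n + 1) ^ r) Fs) := hs.P_pow (i + 1) r
    set G := (P (i + 1) (n + 1) ^ r) Fs with hGdef
    have hne1 : Nonempty (Clause (i + 1) (n + 1)) := clause_nonempty (by omega)
    have hne2 : Nonempty (Clause i n) := clause_nonempty hin
    obtain ⟨c0⟩ : Nonempty (Clause (i + 1) (n + 1)) := inferInstance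
    have hPG : P (i + 1) (n + 1) G 0 = G (vc c0) :=
      bg_av_const _ G _ (fun c => hG.vc_eq c c0)
    have hAF : AF i n G 0 = G (vc c0) := by
      refine bg_av_const _ G _ (fun c => ?_)
      obtain ⟨c', hc'⟩ := exists_upF c
      rw [← hc']
      exact hG.vc_eq c' c0
    have hAT : AT i n G 0 = G (vc c0) := by
      refine bg_av_const _ G _ (fun c => ?_)
      obtain ⟨c', hc'⟩ := exists_upT c
      rw [← hc']
      exact hG.vc_eq c' c0
    have hBG : (b • (AF i n + AT i n)) G 0 =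
        ((i : ℝ) + 1) / (n + 1) * (P (i + 1) (n + 1) ^ (r + 1)) Fs 0 := by
      rw [pow_succ', Module.End.mul_apply, ← hGdef, hPG]
      simp only [LinearMap.smul_apply, LinearMap.add_apply, Pi.smul_apply, Pi.add_apply,
        smul_eq_mul, hAF, hAT, hb]
      ring
    simp only [Pi.add_apply, Pi.smul_apply, smul_eq_mul] at key
    have hr : (0 : ℝ) ≤ ((r + 1 : ℕ) : ℝ) := by positivity
    have h3 := mul_le_mul_of_nonneg_left hmono hr
    rw [hBG] at h3
    push_cast at key h3 ⊢
    linarith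

end Crest.Agent.R153
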