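import Mathlib
import Crest.Agent.R153.PSplit

/-!
# Row 153, piece EL: elimination of the variable `0`

`Dom F Φ`: `F (rho w α γ) ≤ Φ (w + α, γ)` for all `w, α, γ`.

* `dom_gx`: if `U (rho w α γ) = u` and `(0,true)` is excluded then `u < (w+γ) s` for all `s` (take
  `Fin.cons true s`), so `U (w+α+γ) > u`, and the minimum `u` is attained at an assignment with
  variable `0` false, where the value is `(w+α) s'`; `w + α ≥ u` everywhere (take `Fin.cons false s`).
* `dom_P`: `P_split`, and `rho w α γ + up x = rho (w+x) α γ`, `+ upF x = rho w (α+x) γ`,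
  `+ upT x = rho w α (γ+x)`.
* `dom_kap`: `kap u (rho w α γ) ≤ kap u (w+α) + 1/(n+1)`: a literal `(i.succ, x)` excluded for
  `rho w α γ` is excluded for `w + α` (use assignments with variable `0` false), and there are only
  two literals of the variable `0`; `(f+2)/(2(n+1)) ≤ f/(2n) + 1/(n+1)`.
-/

set_option autoImplicit false

namespace Crest.Agent.R153

open Crest.ProbabilityR.RandomSAT Finset

/-- domination of a function of the state on `n+1` variables by a function of pairs -/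
def Dom {n : ℕ} (F : St (n + 1) → ℝ) (Φ : V2 n → ℝ) : Prop :=
  ∀ w α γ : St n, F (rho w α γ) ≤ Φ (w + α, γ)

namespace ElimAux

lemma rho_true {n : ℕ} (w α γ : St n) (s : Asg n) :
    rho w α γ (Fin.cons true s : Asg (n + 1)) = w s + γ s := by
  simp [rho, up, upF, upT]

lemma rho_false {n : ℕ} (w α γ : St n) (s : Asg n) :
    rho w α γ (Fin.cons false s : Asg (n + 1)) = w s + α s := by
  simp [rho, up, upF, upT]

lemma rho_up {n : ℕ} (w α γ x : St n) : rho w α γ + up x = rho (w + x) α γ := by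
  ext s
  simp only [rho, up, upF, upT, Pi.add_apply]
  split_ifs <;> ring

lemma rho_upF {n : ℕ} (w α γ x : St n) : rho w α γ + upF x = rho w (α + x) γ := by
  ext s
  simp only [rho, up, upF, upT, Pi.add_apply]
  split_ifs <;> ring

lemma rho_upT {n : ℕ} (w α γ x : St n) : rho w α γ + upT x = rho w α (γ + x) := by
  ext s
  simp only [rho, up, upF, upT, Pi.add_apply]
  split_ifs <;> ring

lemma rho_zero {n : ℕ} : rho (0 : St n) 0 0 = 0 := by
  ext s
  simp [rho, up, upF, upT]

lemma av_dom {n : ℕ} {ι : Type*} [Fintype ι] {x : ι → St (n + 1)} {y : ι → V2 n}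
    {F : St (n + 1) → ℝ} {Φ : V2 n → ℝ}
    (h : ∀ (w α γ : St n) (i : ι), F (rho w α γ + x i) ≤ Φ ((w + α, γ) + y i)) :
    Dom (Av x F) (Av y Φ) := by
  intro w α γ
  rw [Av_apply, Av_apply]
  refine mul_le_mul_of_nonneg_left (sum_le_sum fun i _ => h w α γ i) (by positivity)

lemma dom_AF {k n : ℕ} {F : St (n + 1) → ℝ} {Φ : V2 n → ℝ} (hD : Dom F Φ) :
    Dom (AF k n F) (Yo k n Φ) := by
  refine av_dom fun w α γ c => ?_
  rw [rho_upF]
  have := hD w (α + vc c) γ
  rwa [← add_assoc] at this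

lemma dom_AT {k n : ℕ} {F : St (n + 1) → ℝ} {Φ : V2 n → ℝ} (hD : Dom F Φ) :
    Dom (AT k n F) (Go k n Φ) := by
  refine av_dom fun w α γ c => ?_
  rw [rho_upT]
  exact hD w α (γ + vc c)

lemma dom_pow {n : ℕ} {S : Module.End ℝ (St (n + 1) → ℝ)} {T : Module.End ℝ (V2 n → ℝ)}
    (h : ∀ (F : St (n + 1) → ℝ) (Φ : V2 n → ℝ), Dom F Φ → Dom (S F) (T Φ)) (r : ℕ) :
    ∀ (F : St (n + 1) → ℝ) (Φ : V2 n → ℝ), Dom F Φ → Dom ((S ^ r) F) ((T ^ r) Φ) := by
  induction r with
  | zero => intro F Φ hD; simpa using hD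
  | succ r ih =>
    intro F Φ hD
    rw [pow_succ, pow_succ, Module.End.mul_apply, Module.End.mul_apply]
    exact ih _ _ (h F Φ hD)

lemma theta_nonneg (k n : ℕ) : (0 : ℝ) ≤ (k + 1 : ℝ) / (n + 1) := by positivity

lemma theta_le {k n : ℕ} (h : k ≤ n) : ((k + 1 : ℝ) / (n + 1)) ≤ 1 := by
  have : (k : ℝ) ≤ n := by exact_mod_cast h
  rw [div_le_one (by positivity)]
  linarith

lemma To_isT {k n : ℕ} (h : k ≤ n) : IsT (To k n ((k + 1 : ℝ) / (n + 1))) :=
  ((IsT.av _).smul (sub_nonneg.2 (theta_le h))).add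
    (((IsT.av _).add (IsT.av _)).smul (div_nonneg (theta_nonneg k n) zero_le_two))

end ElimAux

open ElimAux

theorem dom_gx {n : ℕ} (u : ℕ) : Dom (gx u : St (n + 1) → ℝ) (Psi u) := by
  intro w α γ
  by_cases hc : U (rho w α γ) = u ∧ ((0 : Fin (n + 1)), true) ∈ Kset u (rho w α γ)
  · obtain ⟨h1, h2⟩ := hc
    rw [mem_Kset] at h2
    have h3 : ∀ s : Asg n, u < w s + γ s := by
      intro s
      have := h2 (Fin.cons true s : Asg (n + 1)) (by simp)
      rwa [rho_true] at this
    have h4 : U (w + α) = u := by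
      apply le_antisymm
      · obtain ⟨s, hs⟩ := exists_U (rho w α γ)
        rw [h1] at hs
        cases hb : s 0 with
        | true =>
          have := h2 s hb
          omega
        | false =>
          have e : s = (Fin.cons false (Fin.tail s) : Asg (n + 1)) := by
            rw [← hb, Fin.cons_self_tail]
          rw [e, rho_false] at hs
          have := U_le (w + α) (Fin.tail s)
          rw [Pi.add_apply] at this
          omega
      · rw [le_U]
        intro s
        have := U_le (rho w α γ) (Fin.cons false s : Asg (n + 1))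
        rw [rho_false, h1] at this
        exact this
    have h5 : u < U (w + α + γ) := by
      rw [lt_U]
      intro s
      have := h3 s
      simp only [Pi.add_apply]
      omega
    have e1 : Psi u (w + α, γ) = 1 := by
      unfold Psi
      rw [if_pos ⟨h4, h5⟩]
    rw [e1]
    unfold gx
    split_ifs <;> norm_num
  · have e1 : gx u (rho w α γ) = 0 := by
      unfold gx
      rw [if_neg hc]
    rw [e1]
    unfold Psi
    split_ifs <;> norm_num

theorem dom_DD {k n : ℕ} {F : St (n + 1) → ℝ} {Φ : V2 n → ℝ} (hD : Dom F Φ) :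
    Dom (DD k n F) (Yo k n Φ) := by
  refine av_dom fun w α γ c => ?_
  rw [rho_up]
  have := hD (w + vc c) α γ
  rwa [add_right_comm] at this

theorem dom_P {k n : ℕ} (h : k ≤ n) {F : St (n + 1) → ℝ} {Φ : V2 n → ℝ} (hD : Dom F Φ) :
    Dom (P (k + 1) (n + 1) F) (To k n ((k + 1 : ℝ) / (n + 1)) Φ) := by
  intro w α γ
  rw [P_split k n h]
  have h1 := dom_DD (k := k + 1) hD w α γ
  have h2 := dom_AF (k := k) hD w α γ
  have h3 := dom_AT (k := k) hD w α γ
  have t0 := theta_nonneg k n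
  have t1 := theta_le h
  simp only [To, LinearMap.add_apply, LinearMap.smul_apply, Pi.add_apply, Pi.smul_apply, smul_eq_mul]
  have a1 := mul_le_mul_of_nonneg_left h1 (sub_nonneg.2 t1)
  have a2 := mul_le_mul_of_nonneg_left (add_le_add h2 h3) (div_nonneg t0 (zero_le_two (α := ℝ)))
  exact add_le_add a1 a2

theorem kap_rho {n : ℕ} (hn : 1 ≤ n) (u : ℕ) (w α γ : St n) :
    kap u (rho w α γ) ≤ kap u (w + α) + 1 / (n + 1) := by
  classical
  have hsub : Kset u (rho w α γ) ⊆ {((0 : Fin (n + 1)), true), ((0 : Fin (n + 1)), false)} ∪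
      (Kset u (w + α)).image (fun l => (l.1.succ, l.2)) := by
    rintro ⟨i, x⟩ hl
    rw [mem_Kset] at hl
    rw [mem_union]
    induction i using Fin.cases with
    | zero => left; cases x <;> simp
    | succ i =>
      right
      rw [mem_image]
      refine ⟨(i, x), ?_, rfl⟩
      rw [mem_Kset]
      intro s hs
      have := hl (Fin.cons false s : Asg (n + 1)) (by simpa using hs)
      rw [rho_false] at this
      exact this
  have hcard : (Kset u (rho w α γ)).card ≤ 2 + (Kset u (w + α)).card := by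
    refine (card_le_card hsub).trans ((card_union_le _ _).trans ?_)
    exact add_le_add card_le_two card_image_le
  have hcard' : ((Kset u (rho w α γ)).card : ℝ) ≤ 2 + (Kset u (w + α)).card := by exact_mod_cast hcard
  have hn0 : (0 : ℝ) < n := by exact_mod_cast hn
  unfold kap
  push_cast
  have h1 : ((Kset u (rho w α γ)).card : ℝ) / (2 * ((n : ℝ) + 1)) ≤
      (2 + (Kset u (w + α)).card) / (2 * ((n : ℝ) + 1)) := by gcongr
  have h2 : ((Kset u (w + α)).card : ℝ) / (2 * ((n : ℝ) + 1)) ≤ (Kset u (w + α)).card / (2 * (n : ℝ)) := by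
    gcongr
    linarith
  have h3 : (2 + ((Kset u (w + α)).card : ℝ)) / (2 * ((n : ℝ) + 1)) =
      (Kset u (w + α)).card / (2 * ((n : ℝ) + 1)) + 1 / ((n : ℝ) + 1) := by
    field_simp
    ring
  linarith

theorem dom_mul {n : ℕ} {m : St (n + 1) → ℝ} {m' : St n → ℝ} (hm0 : 0 ≤ m)
    (hm : ∀ w α γ : St n, m (rho w α γ) ≤ m' (w + α)) {F : St (n + 1) → ℝ} {Φ : V2 n → ℝ}
    (hΦ : 0 ≤ Φ) (hD : Dom F Φ) : Dom (m * F) ((fun z => m' z.1) * Φ) := by
  intro w α γ
  show m (rho w α γ) * F (rho w α γ) ≤ m' (w + α) * Φ (w + α, γ)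
  calc m (rho w α γ) * F (rho w α γ) ≤ m (rho w α γ) * Φ (w + α, γ) :=
        mul_le_mul_of_nonneg_left (hD w α γ) (hm0 _)
    _ ≤ m' (w + α) * Φ (w + α, γ) := mul_le_mul_of_nonneg_right (hm w α γ) (hΦ _)

/-- the eliminated form of the main term -/
theorem elim {k n : ℕ} (h : k ≤ n) {m : St (n + 1) → ℝ} {m' : St n → ℝ} (hm0 : 0 ≤ m)
    (hm : ∀ w α γ : St n, m (rho w α γ) ≤ m' (w + α)) (u a r b : ℕ) :
    (DD k n ^ r) ((P (k + 1) (n + 1) ^ a) (m * (P (k + 1) (n + 1) ^ b) (gx u))) 0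
      ≤ (Yo k n ^ r) ((To k n ((k + 1 : ℝ) / (n + 1)) ^ a)
          ((fun z => m' z.1) * (To k n ((k + 1 : ℝ) / (n + 1)) ^ b) (Psi u))) 0 := by
  have hPsi : 0 ≤ (Psi u : V2 n → ℝ) := by
    intro z
    unfold Psi
    dsimp
    split_ifs <;> norm_num
  have hD1 : Dom ((P (k + 1) (n + 1) ^ b) (gx u)) ((To k n ((k + 1 : ℝ) / (n + 1)) ^ b) (Psi u)) :=
    dom_pow (fun F Φ hD => dom_P h hD) b _ _ (dom_gx u)
  have hD2 := dom_mul hm0 hm (((To_isT h).pow b).nonneg hPsi) hD1
  have hD3 := dom_pow (fun F Φ hD => dom_P h hD) a _ _ hD2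
  have hD4 := dom_pow (fun F Φ hD => dom_DD (k := k) hD) r _ _ hD3
  have := hD4 0 0 0
  rw [rho_zero, add_zero] at this
  exact this

end Crest.Agent.R153
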