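import Mathlib
import Crest.Agent.R153.SymDefs

/-!
# Row 153, piece PA1: the operator `R = Yo k + Go k` on pairs

* `Yo_apply_pow`: `Yo` acts on the first component only.
* `Go_pow_Psi`: `(Go k n ^ i) Psi (y, γ) = ee u y * (P k n ^ i) (gt u) (y + γ)`; at `γ = 0`, if
  `U y = u` then `gt u y = 0` and `sum_hh` gives `∑_{t<i} P^t (hh k u) y`; otherwise `0`.
* `R_bound`: expand both powers of `R` by `Commute.add_pow` (`Yo`, `Go` commute, all are `IsT`):
  `R^i [m (Yo (k+1)^c) R^j Psi] = ∑_{p≤i} ∑_{q≤j} C(i,p) C(j,q) Yo^{i-p} [m Yo(k+1)^c Yo^{j-q}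
  Go^{p+q} Psi]` (`Go` commutes with multiplication by the function `m` of the first component),
  then `Go_pow_Psi` (for every `y`), `m * Yo^(j-q) G ≤ Yo^(j-q) (m * G)` (`IsT.mul_le`), and
  `m * P^t G ≤ P^t (m * G)`, so every term is at most
  `∑_{t<p+q} (P k)^(i-p+j-q+t) [m (P (k+1))^c hh] ≤ ∑_{t<i+j} (P k)^t [m (P (k+1))^c hh]`
  (all terms nonnegative), and `∑ C(i,p) C(j,q) = 2^(i+j)`.
-/

set_option autoImplicit false

namespace Crest.Agent.R153

open Crest.ProbabilityR.RandomSAT Finset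

theorem Yo_pow_apply {n : ℕ} (j i : ℕ) (Φ : V2 n → ℝ) (y γ : St n) :
    (Yo j n ^ i) Φ (y, γ) = (P j n ^ i) (fun y' => Φ (y', γ)) y := by
  induction i generalizing Φ y with
  | zero => simp
  | succ i ih =>
    rw [pow_succ, pow_succ, Module.End.mul_apply, Module.End.mul_apply, ih]
    refine congrArg (fun f => (P j n ^ i) f y) ?_
    funext y'
    rw [P_apply]
    unfold Yo
    rw [Av_apply]
    congr 1

theorem Go_pow_apply {n : ℕ} (j i : ℕ) (Φ : V2 n → ℝ) (y γ : St n) :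
    (Go j n ^ i) Φ (y, γ) = (P j n ^ i) (fun γ' => Φ (y, γ')) γ := by
  induction i generalizing Φ γ with
  | zero => simp
  | succ i ih =>
    rw [pow_succ, pow_succ, Module.End.mul_apply, Module.End.mul_apply, ih]
    refine congrArg (fun f => (P j n ^ i) f γ) ?_
    funext γ'
    rw [P_apply]
    unfold Go
    rw [Av_apply]
    congr 1

/-- operators in the cone commute with translations -/
lemma PRaux_shift {n : ℕ} {T : Module.End ℝ (St n → ℝ)} (hT : IsT T) (g : St n → ℝ)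
    (y γ : St n) : T (fun γ' => g (y + γ')) γ = T g (y + γ) := by
  have h1 : (fun γ' => g (y + γ')) = tau y g := by
    funext γ'
    rw [tau_apply, add_comm]
  rw [h1]
  have h2 := (hT.commute (IsT.tau y)).eq
  have h3 := congrArg (fun S : Module.End ℝ (St n → ℝ) => S g γ) h2
  simp only [Module.End.mul_apply, tau_apply] at h3
  rw [h3, add_comm]

theorem Go_pow_Psi {k n : ℕ} (hn : k ≤ n) (u i : ℕ) (y : St n) :
    (Go k n ^ i) (Psi u) (y, 0) ≤ (∑ t ∈ range i, (P k n ^ t) (hh k u)) y := by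
  rw [Go_pow_apply]
  by_cases h : U y = u
  · have h1 : (fun γ' : St n => (Psi u : V2 n → ℝ) (y, γ')) = fun γ' => gt u (y + γ') := by
      funext γ'
      simp only [Psi, gt, h, true_and]
    rw [h1, PRaux_shift ((P_isT k n).pow i), add_zero, sum_hh hn]
    have h2 : gt u y = 0 := by simp [gt, h]
    rw [Pi.sub_apply, h2, sub_zero]
  · have h1 : (fun γ' : St n => (Psi u : V2 n → ℝ) (y, γ')) = 0 := by
      funext γ'
      simp [Psi, h]
    rw [h1, map_zero]
    have h2 : 0 ≤ (∑ t ∈ range i, (P k n ^ t) (hh k u) : St n → ℝ) :=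
      Finset.sum_nonneg fun t _ => ((P_isT k n).pow t).nonneg (hh_nonneg k u)
    exact h2 y

/-- `Go` commutes with multiplication by functions of the first component -/
theorem Go_mul {n : ℕ} (j i : ℕ) (m : St n → ℝ) (Φ : V2 n → ℝ) :
    (Go j n ^ i) ((fun z => m z.1) * Φ) = (fun z => m z.1) * (Go j n ^ i) Φ := by
  funext z
  obtain ⟨y, γ⟩ := z
  rw [Pi.mul_apply, Go_pow_apply, Go_pow_apply]
  have h1 : (fun γ' : St n => (((fun z => m z.1) * Φ : V2 n → ℝ)) (y, γ')) =
      m y • fun γ' => Φ (y, γ') := by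
    funext γ'
    simp
  rw [h1, map_smul, Pi.smul_apply, smul_eq_mul]

lemma PRaux_add_pow {V : Type*} {A B : Module.End ℝ (V → ℝ)} (hAB : Commute A B) (n : ℕ)
    (v : V → ℝ) :
    ((A + B) ^ n) v = ∑ m ∈ range (n + 1), (n.choose m : ℝ) • (A ^ m) ((B ^ (n - m)) v) := by
  rw [hAB.add_pow, LinearMap.sum_apply]
  refine Finset.sum_congr rfl fun m _ => ?_
  rw [← nsmul_eq_mul', LinearMap.smul_apply, Module.End.mul_apply]
  exact (Nat.cast_smul_eq_nsmul ℝ _ _).symm

/-- one term of the expansion -/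
lemma PRaux_term {k n : ℕ} (hn : k ≤ n) (u : ℕ) {m : St n → ℝ} (hm0 : 0 ≤ m)
    (hm : ∀ v w, m v ≤ m (v + w)) (p q t c : ℕ) (y : St n) :
    (Yo k n ^ p) ((fun z => m z.1) *
        (Yo (k + 1) n ^ c) ((Yo k n ^ q) ((Go k n ^ t) (Psi u)))) (y, 0)
      ≤ (∑ r ∈ range (p + q + t), (P k n ^ r) (m * (P (k + 1) n ^ c) (hh k u))) y := by
  set H : St n → ℝ := m * (P (k + 1) n ^ c) (hh k u) with hH
  have hH0 : 0 ≤ H := mul_nonneg hm0 (((P_isT (k + 1) n).pow c).nonneg (hh_nonneg k u))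
  rw [Yo_pow_apply]
  have h1 : (fun y' : St n => (((fun z => m z.1) *
      (Yo (k + 1) n ^ c) ((Yo k n ^ q) ((Go k n ^ t) (Psi u))) : V2 n → ℝ)) (y', 0)) =
      m * (P (k + 1) n ^ c) ((P k n ^ q) (fun y' => (Go k n ^ t) (Psi u) (y', 0))) := by
    funext y'
    rw [Pi.mul_apply, Pi.mul_apply, Yo_pow_apply]
    refine congrArg (fun f => m y' * (P (k + 1) n ^ c) f y') ?_
    funext y''
    rw [Yo_pow_apply]
  rw [h1]
  have hG : (fun y' : St n => (Go k n ^ t) (Psi u) (y', 0)) ≤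
      ∑ s ∈ range t, (P k n ^ s) (hh k u) := fun y' => Go_pow_Psi hn u t y'
  have hcq := ((P_isT (k + 1) n).pow c)
  have hq := ((P_isT k n).pow q)
  have h2 : m * (P (k + 1) n ^ c) ((P k n ^ q) (fun y' => (Go k n ^ t) (Psi u) (y', 0))) ≤
      ∑ s ∈ range t, (P k n ^ (q + s)) H := by
    calc m * (P (k + 1) n ^ c) ((P k n ^ q) (fun y' => (Go k n ^ t) (Psi u) (y', 0)))
        ≤ m * (P (k + 1) n ^ c) ((P k n ^ q) (∑ s ∈ range t, (P k n ^ s) (hh k u))) := by
          intro v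
          exact mul_le_mul_of_nonneg_left (hcq.mono (hq.mono hG) v) (hm0 v)
      _ = ∑ s ∈ range t, m * (P k n ^ (q + s)) ((P (k + 1) n ^ c) (hh k u)) := by
          rw [map_sum, map_sum, Finset.mul_sum]
          refine Finset.sum_congr rfl fun s _ => ?_
          congr 1
          rw [← Module.End.mul_apply (P k n ^ q), ← pow_add, ← Module.End.mul_apply, P_comm,
            Module.End.mul_apply]
      _ ≤ ∑ s ∈ range t, (P k n ^ (q + s)) H := by
          refine Finset.sum_le_sum fun s _ => ?_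
          exact ((P_isT k n).pow (q + s)).mul_le hm (hcq.nonneg (hh_nonneg k u))
  have h3 := ((P_isT k n).pow p).mono h2 y
  refine h3.trans ?_
  rw [map_sum]
  have h4 : ∀ s, (P k n ^ p) ((P k n ^ (q + s)) H) = (P k n ^ (p + q + s)) H := by
    intro s
    rw [← Module.End.mul_apply, ← pow_add, add_assoc]
  simp only [h4]
  rw [Finset.sum_range_add (fun r => (P k n ^ r) H) (p + q) t]
  have h5 : 0 ≤ (∑ r ∈ range (p + q), (P k n ^ r) H : St n → ℝ) :=
    Finset.sum_nonneg fun r _ => ((P_isT k n).pow r).nonneg hH0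
  rw [Pi.add_apply]
  have := h5 y
  rw [Pi.zero_apply] at this
  linarith

theorem R_bound {k n : ℕ} (hn : k ≤ n) (u : ℕ) {m : St n → ℝ} (hm0 : 0 ≤ m)
    (hm : ∀ v w, m v ≤ m (v + w)) (i j c : ℕ) (y : St n) :
    ((Yo k n + Go k n) ^ i) ((fun z => m z.1) *
        (Yo (k + 1) n ^ c) (((Yo k n + Go k n) ^ j) (Psi u))) (y, 0)
      ≤ 2 ^ (i + j) * (∑ t ∈ range (i + j),
          (P k n ^ t) (m * (P (k + 1) n ^ c) (hh k u))) y := by
  have hA : IsT (Yo k n) := IsT.av _
  have hB : IsT (Go k n) := IsT.av _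
  have hA' : IsT (Yo (k + 1) n) := IsT.av _
  have hAB : Commute (Yo k n) (Go k n) := hA.commute hB
  set S : ℝ := (∑ t ∈ range (i + j), (P k n ^ t) (m * (P (k + 1) n ^ c) (hh k u))) y with hS
  have hexp : ((Yo k n + Go k n) ^ i) ((fun z => m z.1) *
        (Yo (k + 1) n ^ c) (((Yo k n + Go k n) ^ j) (Psi u))) =
      ∑ p ∈ range (i + 1), ∑ q ∈ range (j + 1), ((i.choose p : ℝ) * (j.choose q : ℝ)) •
        (Yo k n ^ p) ((fun z => m z.1) * (Yo (k + 1) n ^ c) ((Yo k n ^ q)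
          ((Go k n ^ ((i - p) + (j - q))) (Psi u)))) := by
    rw [PRaux_add_pow hAB i]
    refine Finset.sum_congr rfl fun p _ => ?_
    rw [Go_mul, PRaux_add_pow hAB j, map_sum, map_sum, Finset.mul_sum, map_sum, Finset.smul_sum]
    refine Finset.sum_congr rfl fun q _ => ?_
    rw [map_smul, map_smul, mul_smul_comm, map_smul, smul_smul]
    congr 3
    have e1 : Commute (Go k n ^ (i - p)) (Yo (k + 1) n ^ c) := (hB.pow _).commute (hA'.pow _)
    have e2 : Commute (Go k n ^ (i - p)) (Yo k n ^ q) := (hB.pow _).commute (hA.pow _)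
    rw [← Module.End.mul_apply, e1.eq, Module.End.mul_apply, ← Module.End.mul_apply (Go k n ^ _),
      e2.eq, Module.End.mul_apply, ← Module.End.mul_apply (Go k n ^ _), ← pow_add]
  rw [hexp, Finset.sum_apply]
  have hterm : ∀ p ∈ range (i + 1), (∑ q ∈ range (j + 1), ((i.choose p : ℝ) * (j.choose q : ℝ)) •
        (Yo k n ^ p) ((fun z => m z.1) * (Yo (k + 1) n ^ c) ((Yo k n ^ q)
          ((Go k n ^ ((i - p) + (j - q))) (Psi u))))) (y, 0) ≤
      ∑ q ∈ range (j + 1), ((i.choose p : ℝ) * (j.choose q : ℝ)) * S := by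
    intro p hp
    rw [Finset.sum_apply]
    refine Finset.sum_le_sum fun q hq => ?_
    rw [Pi.smul_apply, smul_eq_mul]
    refine mul_le_mul_of_nonneg_left ?_ (by positivity)
    refine (PRaux_term hn u hm0 hm p q _ c y).trans (le_of_eq ?_)
    have hp' : p ≤ i := Nat.lt_succ_iff.1 (Finset.mem_range.1 hp)
    have hq' : q ≤ j := Nat.lt_succ_iff.1 (Finset.mem_range.1 hq)
    have e : p + q + ((i - p) + (j - q)) = i + j := by omega
    rw [e]
  refine (Finset.sum_le_sum hterm).trans (le_of_eq ?_)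
  have e1 : ∀ a : ℕ, ∑ p ∈ range (a + 1), (a.choose p : ℝ) = 2 ^ a := by
    intro a
    exact_mod_cast Nat.sum_range_choose a
  simp only [← Finset.sum_mul, ← Finset.mul_sum, e1]
  rw [pow_add]

end Crest.Agent.R153
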