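import Mathlib
import Crest.Agent.R153.PairR

/-!
# Row 153, piece PA2: binomial expansion on pairs

`To = (1-θ) Yo (k+1) + (θ/2) R`, `R = Yo k + Go k`.  Expand both powers of `To`
(`Commute.add_pow`, operators in `IsT` commute; `smul_pow`):
`Yo k^r To^a [m To^b Psi] = ∑_{i≤a} ∑_{j≤b} C(a,i) C(b,j) (1-θ)^{a-i+b-j} (θ/2)^{i+j}
 Yo k^r Yo (k+1)^{a-i} ( R^i [m Yo (k+1)^{b-j} R^j Psi] )`, and the outer operators act only on the
first component (`Yo_pow_apply`), so `R_bound` may be applied for every `y` at `γ = 0`; finally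
`(θ/2)^{i+j} 2^{i+j} = θ^{i+j}`.
-/

set_option autoImplicit false

namespace Crest.Agent.R153

open Crest.ProbabilityR.RandomSAT Finset

theorem To_pow (k n : ℕ) (θ : ℝ) (a : ℕ) :
    To k n θ ^ a = ∑ i ∈ range (a + 1), ((a.choose i : ℝ) * ((1 - θ) ^ (a - i) * (θ / 2) ^ i)) •
      (Yo (k + 1) n ^ (a - i) * (Yo k n + Go k n) ^ i) := by
  have hR : IsT (Yo k n + Go k n) := (IsT.av _).add (IsT.av _)
  have hA : IsT (Yo (k + 1) n) := IsT.av _
  have hc : Commute ((θ / 2) • (Yo k n + Go k n)) ((1 - θ) • Yo (k + 1) n) :=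
    ((hR.commute hA).smul_left _).smul_right _
  rw [To, add_comm, hc.add_pow]
  refine sum_congr rfl fun i _ => ?_
  rw [smul_pow, smul_pow, smul_mul_smul_comm, ((hR.commute hA).pow_pow i (a - i)).eq,
    ← nsmul_eq_mul', ← Nat.cast_smul_eq_nsmul ℝ, smul_smul]
  congr 1
  ring

/-- one term of the expansion -/
theorem pair_term {k n : ℕ} (hn : k ≤ n) (u : ℕ)
    {m : St n → ℝ} (hm0 : 0 ≤ m) (hm : ∀ v w, m v ≤ m (v + w)) (a i r j b : ℕ) :
    ((Yo k n ^ r) ((Yo (k + 1) n ^ a) (((Yo k n + Go k n) ^ i) ((fun z => m z.1) *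
        (Yo (k + 1) n ^ b) (((Yo k n + Go k n) ^ j) (Psi u)))))) 0 ≤
      2 ^ (i + j) * ∑ t ∈ range (i + j), X k n m a (r + t) b (hh k u) := by
  set Φ : V2 n → ℝ := ((Yo k n + Go k n) ^ i) ((fun z => m z.1) *
        (Yo (k + 1) n ^ b) (((Yo k n + Go k n) ^ j) (Psi u))) with hΦ
  have h1 : (fun y => Φ (y, 0)) ≤ ((2 : ℝ) ^ (i + j)) • (∑ t ∈ range (i + j),
          (P k n ^ t) (m * (P (k + 1) n ^ b) (hh k u))) := by
    intro y
    exact R_bound hn u hm0 hm i j b y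
  have h2 : ((Yo k n ^ r) ((Yo (k + 1) n ^ a) Φ)) 0 =
      ((P k n ^ r) ((P (k + 1) n ^ a) (fun y => Φ (y, 0)))) 0 := by
    have e0 : (0 : V2 n) = ((0 : St n), (0 : St n)) := rfl
    have e1 : (fun y' => ((Yo (k + 1) n ^ a) Φ) (y', 0)) =
        (P (k + 1) n ^ a) (fun y => Φ (y, 0)) := by
      funext y'
      rw [Yo_pow_apply]
    rw [e0, Yo_pow_apply, e1]
  rw [h2]
  have h3 := ((P_isT k n).pow r).mono (((P_isT (k + 1) n).pow a).mono h1) 0
  refine h3.trans (le_of_eq ?_)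
  rw [map_smul, map_smul, map_sum, map_sum, Pi.smul_apply, Finset.sum_apply, smul_eq_mul]
  congr 1
  refine sum_congr rfl fun t _ => ?_
  unfold X
  have h4 : (P (k + 1) n ^ a) ((P k n ^ t) (m * (P (k + 1) n ^ b) (hh k u))) =
      (P k n ^ t) ((P (k + 1) n ^ a) (m * (P (k + 1) n ^ b) (hh k u))) := by
    rw [← Module.End.mul_apply, ← Module.End.mul_apply, P_comm]
  rw [h4, ← Module.End.mul_apply, ← pow_add]

theorem pair_bound {k n : ℕ} (hn : k ≤ n) {θ : ℝ} (hθ0 : 0 ≤ θ) (hθ1 : θ ≤ 1) (u : ℕ)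
    {m : St n → ℝ} (hm0 : 0 ≤ m) (hm : ∀ v w, m v ≤ m (v + w)) (a r b : ℕ) :
    (Yo k n ^ r) ((To k n θ ^ a) ((fun z => m z.1) * (To k n θ ^ b) (Psi u))) 0
      ≤ ∑ i ∈ range (a + 1), ∑ j ∈ range (b + 1),
          (a.choose i : ℝ) * (b.choose j) * ((1 - θ) ^ (a - i + (b - j)) * θ ^ (i + j)) *
            ∑ t ∈ range (i + j), X k n m (a - i) (r + t) (b - j) (hh k u) := by
  rw [To_pow, To_pow]
  simp only [LinearMap.sum_apply, LinearMap.smul_apply, Module.End.mul_apply, Finset.mul_sum,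
    mul_smul_comm, map_sum, map_smul, Finset.sum_apply, Pi.smul_apply, smul_eq_mul]
  rw [Finset.sum_comm]
  refine sum_le_sum fun i _ => ?_
  refine sum_le_sum fun j _ => ?_
  have h := pair_term hn u hm0 hm (a - i) i r j (b - j)
  rw [← Finset.mul_sum]
  have hθ' : 0 ≤ 1 - θ := by linarith
  have hc : 0 ≤ ((a.choose i : ℝ) * ((1 - θ) ^ (a - i) * (θ / 2) ^ i)) *
      ((b.choose j : ℝ) * ((1 - θ) ^ (b - j) * (θ / 2) ^ j)) := by positivity
  have h2 := mul_le_mul_of_nonneg_left h hc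
  refine le_trans (le_of_eq ?_) (h2.trans (le_of_eq ?_))
  · ring
  · rw [pow_add θ, pow_add (1 - θ), div_pow, div_pow, pow_add (2 : ℝ)]
    have h3 : (2 : ℝ) ^ i ≠ 0 := by positivity
    have h4 : (2 : ℝ) ^ j ≠ 0 := by positivity
    field_simp

end Crest.Agent.R153
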