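import Mathlib
import Crest.Agent.R153.Sym

/-!
# Row 153, piece SY2: all literals are equivalent

`kap u * ee u = (1/(2(n+1))) ∑_l 1[U = u] 1[l ∈ Kset u]`.  For every literal `l` choose `π, b` with
`1[U v' = u, l ∈ Kset u v'] = gx u v`, `v' = v ∘ cube π b`, e.g. `π = swap 0 l.1`, `b = const (!l.2)`
or so (`Kset_cube`).  `X` is invariant under `g ↦ g (· ∘ cube π b)` if `m` is symmetric (apply
`P_cube` repeatedly, `(m * G) (v ∘ cube π b) = m v * G (v ∘ cube π b)`, and
`0 ∘ cube π b = 0` at the end).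
-/

set_option autoImplicit false

namespace Crest.Agent.R153

open Crest.ProbabilityR.RandomSAT Finset

theorem P_pow_cube {n : ℕ} (j a : ℕ) (g : St n → ℝ) (π : Equiv.Perm (Fin n)) (b : Fin n → Bool) :
    (P j n ^ a) (fun w => g (w ∘ cube π b)) = fun v => (P j n ^ a) g (v ∘ cube π b) := by
  induction a with
  | zero => simp
  | succ a ih =>
    rw [pow_succ', Module.End.mul_apply, ih, Module.End.mul_apply]
    funext v
    exact P_cube j ((P j n ^ a) g) π b v

theorem X_cube {k n : ℕ} {m : St n → ℝ} (hm : Sy m) (g : St n → ℝ) (a r b : ℕ)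
    (π : Equiv.Perm (Fin n)) (β : Fin n → Bool) :
    X k n m a r b (fun v => g (v ∘ cube π β)) = X k n m a r b g := by
  unfold X
  rw [P_pow_cube]
  have h1 : (m * fun v => (P (k + 1) n ^ b) g (v ∘ cube π β))
      = fun v => (m * (P (k + 1) n ^ b) g) (v ∘ cube π β) := by
    funext v
    simp only [Pi.mul_apply]
    rw [hm π β v]
  rw [h1, P_pow_cube, P_pow_cube]
  rfl

theorem X_sum {k n : ℕ} {ι : Type*} (s : Finset ι) (m : St n → ℝ) (g : ι → St n → ℝ) (a r b : ℕ) :
    X k n m a r b (∑ i ∈ s, g i) = ∑ i ∈ s, X k n m a r b (g i) := by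
  simp only [X, map_sum, Finset.mul_sum, Finset.sum_apply]

/-- the indicator of `U = u` and `l` excluded -/
noncomputable def fl {n : ℕ} (u : ℕ) (l : Fin n × Bool) : St n → ℝ :=
  fun v => if U v = u ∧ l ∈ Kset u v then 1 else 0

theorem kap_ee_eq {n : ℕ} (u : ℕ) :
    (kap u * ee u : St (n + 1) → ℝ) = ((2 * ((n + 1 : ℕ) : ℝ))⁻¹) • ∑ l, fl u l := by
  funext v
  simp only [Pi.mul_apply, Pi.smul_apply, Finset.sum_apply, smul_eq_mul]
  unfold kap ee fl
  by_cases h : U v = u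
  · simp only [h, if_true, mul_one, true_and]
    rw [Finset.sum_ite_mem, Finset.univ_inter, Finset.sum_const, nsmul_eq_mul, mul_one, div_eq_inv_mul]
  · simp [h]

theorem fl_cube {n : ℕ} (u : ℕ) (l : Fin (n + 1) × Bool) :
    (fun v => fl u l (v ∘ cube (Equiv.swap 0 l.1) (fun _ => !l.2)) : St (n + 1) → ℝ) = gx u := by
  funext v
  unfold fl gx
  rw [U_cube]
  have h1 := Kset_cube u (Equiv.swap (0 : Fin (n + 1)) l.1) (fun _ => !l.2) v 0 l.2
  rw [Equiv.swap_apply_left] at h1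
  have h2 : (l.1, l.2) = l := rfl
  have h3 : (l.2 ^^ !l.2) = true := by cases l.2 <;> rfl
  rw [h2, h3] at h1
  simp only [h1]

theorem X_kap_eq {k n : ℕ} {m : St (n + 1) → ℝ} (hm : Sy m) (u a r b : ℕ) :
    X k (n + 1) m a r b (kap u * ee u) = X k (n + 1) m a r b (gx u) := by
  rw [kap_ee_eq, X_smul, X_sum]
  have h : ∀ l : Fin (n + 1) × Bool, X k (n + 1) m a r b (fl u l) = X k (n + 1) m a r b (gx u) := by
    intro l
    rw [← fl_cube u l]
    exact (X_cube hm (fl u l) a r b _ _).symm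
  rw [sum_congr rfl fun l _ => h l, sum_const, card_univ, nsmul_eq_mul]
  have hc : (Fintype.card (Fin (n + 1) × Bool) : ℝ) = 2 * ((n + 1 : ℕ) : ℝ) := by
    rw [Fintype.card_prod, Fintype.card_fin, Fintype.card_bool]
    push_cast
    ring
  rw [hc]
  have hpos : (2 * ((n + 1 : ℕ) : ℝ)) ≠ 0 := by positivity
  rw [inv_mul_cancel_left₀ hpos]

end Crest.Agent.R153
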