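import Mathlib
import Crest.Agent.R153.SymLit
import Crest.Agent.R153.Background
import Crest.Agent.R153.Elim
import Crest.Agent.R153.Pair

/-!
# Row 153, piece OS: the one-step inequality (assembly)

`X_kap_eq` (replace `kap u * ee u` by `gx u`), `background` with
`F = P^a (m * P^b (gx u))`, `Fs = P^a (m * P^b (ee u))` (`gx u ≤ ee u`; symmetric by `Sy.mul`,
`Sy.P_pow`, `Sy_ee`), `elim`, `pair_bound` with `θ = (k+1)/(n+1)`.
-/

set_option autoImplicit false

namespace Crest.Agent.R153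

open Crest.ProbabilityR.RandomSAT Finset

theorem one_step {k n : ℕ} (hk : 1 ≤ k) (hn : k ≤ n) {m : St (n + 1) → ℝ} {m' : St n → ℝ}
    (hm0 : 0 ≤ m) (hms : Sy m) (hm0' : 0 ≤ m') (hmg : ∀ v w, m' v ≤ m' (v + w))
    (hm : ∀ w α γ : St n, m (rho w α γ) ≤ m' (w + α)) (u a r b : ℕ) :
    X k (n + 1) m a r b (kap u * ee u)
      ≤ (∑ i ∈ range (a + 1), ∑ j ∈ range (b + 1),
          (a.choose i : ℝ) * (b.choose j) *
            ((1 - (k + 1 : ℝ) / (n + 1)) ^ (a - i + (b - j)) * ((k + 1 : ℝ) / (n + 1)) ^ (i + j)) *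
            ∑ t ∈ range (i + j), X k n m' (a - i) (r + t) (b - j) (hh k u))
        + r * ((k : ℝ) / (n + 1)) * X k (n + 1) m a r b (ee u) := by
  rw [X_kap_eq hms]
  have hn1 : (0 : ℝ) < (n : ℝ) + 1 := by positivity
  have hθ0 : (0 : ℝ) ≤ ((k : ℝ) + 1) / (n + 1) := by positivity
  have hθ1 : ((k : ℝ) + 1) / (n + 1) ≤ 1 := by
    rw [div_le_one hn1]
    have : (k : ℝ) ≤ n := by exact_mod_cast hn
    linarith
  have hT := P_isT (k + 1) (n + 1)
  have hgx0 : 0 ≤ (gx u : St (n + 1) → ℝ) := by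
    intro v; unfold gx; dsimp; split_ifs <;> norm_num
  have hgxe : (gx u : St (n + 1) → ℝ) ≤ ee u := by
    intro v
    unfold gx ee
    dsimp
    split_ifs with h1 h2 h2
    · exact le_rfl
    · exact absurd h1.1 h2
    · norm_num
    · exact le_rfl
  have h0 : 0 ≤ (P (k + 1) (n + 1) ^ a) (m * (P (k + 1) (n + 1) ^ b) (gx u)) :=
    (hT.pow a).nonneg (mul_nonneg hm0 ((hT.pow b).nonneg hgx0))
  have h1 : (P (k + 1) (n + 1) ^ a) (m * (P (k + 1) (n + 1) ^ b) (gx u)) ≤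
      (P (k + 1) (n + 1) ^ a) (m * (P (k + 1) (n + 1) ^ b) (ee u)) := by
    refine (hT.pow a).mono ?_
    intro v
    exact mul_le_mul_of_nonneg_left ((hT.pow b).mono hgxe v) (hm0 v)
  have hs : Sy ((P (k + 1) (n + 1) ^ a) (m * (P (k + 1) (n + 1) ^ b) (ee u))) :=
    (hms.mul ((Sy_ee u).P_pow (k + 1) b)).P_pow (k + 1) a
  have h2 := background hk hn r h0 h1 hs
  have h3 := elim hn hm0 hm u a r b
  have h4 := pair_bound hn hθ0 hθ1 u hm0' hmg a r b
  exact h2.trans (add_le_add (h3.trans h4) le_rfl)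

end Crest.Agent.R153
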