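import Mathlib

/-!
# Row 153, piece REC: the abstract recursion (pure real analysis)

`c_p = ∑_t (1/2)^t (1+t)^p < ∞`.  Since `1 + r + t ≤ (1+r)(1+t)`,
`∑_t (1/2)^t (1+r+t)^p ≤ c_p (1+r)^p`.  Take `η = min 1 (1/(2 c_p Cw))`.  Induction on `n` from
`n0` to `N`: `Z n r ≤ (2 C + B / 2^(n-n0)) (1+r)^p`.
-/

set_option autoImplicit false

namespace Crest.Agent.R153

open Finset

private lemma geom_aux (p : ℕ) : ∃ c : ℝ, 0 < c ∧ ∀ r A : ℕ,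
    ∑ t ∈ range A, (1 / 2 : ℝ) ^ t * (1 + ((r + t : ℕ) : ℝ)) ^ p ≤ c * (1 + r) ^ p := by
  have hs0 : Summable (fun n : ℕ => (n : ℝ) ^ p * (1 / 2 : ℝ) ^ n) :=
    summable_pow_mul_geometric_of_norm_lt_one p (by norm_num)
  have hs1 : Summable (fun n : ℕ => ((n + 1 : ℕ) : ℝ) ^ p * (1 / 2 : ℝ) ^ (n + 1)) :=
    (summable_nat_add_iff 1).2 hs0
  have hs : Summable (fun n : ℕ => (1 / 2 : ℝ) ^ n * (1 + (n : ℝ)) ^ p) := by
    refine (hs1.mul_left 2).congr ?_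
    intro n
    push_cast
    rw [pow_succ, add_comm (n : ℝ) 1]
    ring
  refine ⟨(∑' n : ℕ, (1 / 2 : ℝ) ^ n * (1 + (n : ℝ)) ^ p) + 1, ?_, ?_⟩
  · have : 0 ≤ ∑' n : ℕ, (1 / 2 : ℝ) ^ n * (1 + (n : ℝ)) ^ p :=
      tsum_nonneg fun n => by positivity
    linarith
  · intro r A
    have h1 : ∑ t ∈ range A, (1 / 2 : ℝ) ^ t * (1 + ((r + t : ℕ) : ℝ)) ^ p
        ≤ (∑ t ∈ range A, (1 / 2 : ℝ) ^ t * (1 + (t : ℝ)) ^ p) * (1 + (r : ℝ)) ^ p := by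
      rw [sum_mul]
      refine sum_le_sum fun t _ => ?_
      have h2 : (1 + ((r + t : ℕ) : ℝ)) ≤ (1 + (t : ℝ)) * (1 + (r : ℝ)) := by
        push_cast
        have : (0 : ℝ) ≤ (r : ℝ) * t := by positivity
        nlinarith
      have h3 : (1 + ((r + t : ℕ) : ℝ)) ^ p ≤ ((1 + (t : ℝ)) * (1 + (r : ℝ))) ^ p := by
        gcongr
      rw [mul_pow] at h3
      calc (1 / 2 : ℝ) ^ t * (1 + ((r + t : ℕ) : ℝ)) ^ p
          ≤ (1 / 2 : ℝ) ^ t * ((1 + (t : ℝ)) ^ p * (1 + (r : ℝ)) ^ p) := by gcongr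
        _ = (1 / 2 : ℝ) ^ t * (1 + (t : ℝ)) ^ p * (1 + (r : ℝ)) ^ p := by ring
    refine h1.trans ?_
    have h4 : ∑ t ∈ range A, (1 / 2 : ℝ) ^ t * (1 + (t : ℝ)) ^ p
        ≤ ∑' n : ℕ, (1 / 2 : ℝ) ^ n * (1 + (n : ℝ)) ^ p :=
      hs.sum_le_tsum _ fun n _ => by positivity
    have h5 : (0 : ℝ) ≤ (1 + (r : ℝ)) ^ p := by positivity
    exact mul_le_mul_of_nonneg_right (by linarith) h5

theorem rec_lemma (p : ℕ) {Cw : ℝ} (hCw : 0 < Cw) :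
    ∃ η : ℝ, 0 < η ∧ η ≤ 1 ∧ ∀ (Z : ℕ → ℕ → ℝ) (n0 N A : ℕ) (B C : ℝ), 0 ≤ B → 0 ≤ C → n0 ≤ N →
      (∀ r, Z n0 r ≤ B) →
      (∀ n, n0 ≤ n → n < N → ∀ r : ℕ, Z (n + 1) r ≤ C * (1 + r) ^ p +
        ∑ t ∈ range A, Cw * (1 / 2) ^ t * (η * Z n (r + t))) →
      ∀ r : ℕ, Z N r ≤ (2 * C + B / 2 ^ (N - n0)) * (1 + r) ^ p := by
  obtain ⟨c, hc, hgeom⟩ := geom_aux p
  refine ⟨min 1 (1 / (2 * c * Cw)), lt_min one_pos (by positivity), min_le_left _ _, ?_⟩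
  set η := min 1 (1 / (2 * c * Cw)) with hη
  have hη0 : 0 < η := lt_min one_pos (by positivity)
  have hη1 : Cw * η * c ≤ 1 / 2 := by
    have h1 : η ≤ 1 / (2 * c * Cw) := min_le_right _ _
    calc Cw * η * c ≤ Cw * (1 / (2 * c * Cw)) * c := by gcongr
      _ = 1 / 2 := by field_simp
  intro Z n0 N A B C hB hC hN hbase hstep
  have key : ∀ m, n0 + m ≤ N → ∀ r : ℕ,
      Z (n0 + m) r ≤ (2 * C + B / 2 ^ m) * (1 + (r : ℝ)) ^ p := by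
    intro m
    induction m with
    | zero =>
      intro _ r
      have h1 : (1 : ℝ) ≤ (1 + (r : ℝ)) ^ p := one_le_pow₀ (by
        have : (0 : ℝ) ≤ r := by positivity
        linarith)
      have h2 := hbase r
      simp only [add_zero, pow_zero, div_one]
      nlinarith
    | succ m ih =>
      intro hm r
      have ih' := ih (by omega)
      have h1 := hstep (n0 + m) (by omega) (by omega) r
      set K := 2 * C + B / 2 ^ m with hK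
      have hK0 : 0 ≤ K := by positivity
      have h2 : ∑ t ∈ range A, Cw * (1 / 2) ^ t * (η * Z (n0 + m) (r + t))
          ≤ Cw * η * K * ∑ t ∈ range A, (1 / 2 : ℝ) ^ t * (1 + ((r + t : ℕ) : ℝ)) ^ p := by
        rw [mul_sum]
        refine sum_le_sum fun t _ => ?_
        have h3 := ih' (r + t)
        calc Cw * (1 / 2) ^ t * (η * Z (n0 + m) (r + t))
            ≤ Cw * (1 / 2) ^ t * (η * (K * (1 + ((r + t : ℕ) : ℝ)) ^ p)) := by gcongr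
          _ = Cw * η * K * ((1 / 2 : ℝ) ^ t * (1 + ((r + t : ℕ) : ℝ)) ^ p) := by ring
      have h4 := hgeom r A
      have h5 : Cw * η * K * ∑ t ∈ range A, (1 / 2 : ℝ) ^ t * (1 + ((r + t : ℕ) : ℝ)) ^ p
          ≤ Cw * η * K * (c * (1 + (r : ℝ)) ^ p) := by gcongr
      have h6 : Cw * η * K * (c * (1 + (r : ℝ)) ^ p) ≤ 1 / 2 * (K * (1 + (r : ℝ)) ^ p) := by
        have h7 : 0 ≤ K * (1 + (r : ℝ)) ^ p := by positivity
        calc Cw * η * K * (c * (1 + (r : ℝ)) ^ p) = (Cw * η * c) * (K * (1 + (r : ℝ)) ^ p) := by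
              ring
          _ ≤ 1 / 2 * (K * (1 + (r : ℝ)) ^ p) := mul_le_mul_of_nonneg_right hη1 h7
      have h8 : n0 + (m + 1) = n0 + m + 1 := by ring
      rw [h8]
      calc Z (n0 + m + 1) r ≤ C * (1 + (r : ℝ)) ^ p + 1 / 2 * (K * (1 + (r : ℝ)) ^ p) := by
            linarith
        _ = (2 * C + B / 2 ^ (m + 1)) * (1 + (r : ℝ)) ^ p := by
            rw [hK, pow_succ]
            field_simp
            ring
  intro r
  have h := key (N - n0) (by omega) r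
  have h2 : n0 + (N - n0) = N := by omega
  rwa [h2] at h

/-- `∑_t (1/2)^t (1+r+t)^p ≤ c (1+r)^p` -/
theorem geom_poly_sum (p : ℕ) : ∃ c : ℝ, 0 < c ∧ ∀ r A : ℕ,
    ∑ t ∈ range A, (1 / 2 : ℝ) ^ t * (1 + ((r + t : ℕ) : ℝ)) ^ p ≤ c * (1 + r) ^ p :=
  geom_aux p

end Crest.Agent.R153
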