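import Mathlib
import Crest.Agent.R153.OneStep
import Crest.Agent.R153.NB2
import Crest.Agent.R153.Rec
import Crest.Agent.R153.KapSum

/-!
# Row 153, pieces S1a, S1b: the sum of the excluded density along the process

`S1 k n A u r = ∑_{a<A} (P_k^r P_{k+1}^a (κ e)) (0)`, level `u` arbitrary.

S1a (`S1_step`): `one_step` with `m = m' = 1`, `b = 0`, summed over `a < A`; `nb1` with
`θ = (k+1)/(n+1) ≤ 1/4`, `L = K (k+1)`, `x a t = X k n 1 a (r+t) 0 (hh k u)`; background term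
`≤ A r k/(n+1) ≤ K k r` (`X_le_one`); `hh_interp` and `sum_kap_pow_le` give
`∑_{a<A} x a t ≤ η S1 k n A u (r+t) + η⁻¹ (2^(k+1) + 2 K (k+1))` (`(n+1)/n ≤ 2`); and
`∑_t Cw (1/2)^t C'/η ≤ 2 Cw C' / η`.

S1b (`S1_bound`): for `n ≥ 8(k+1)` use `rec_lemma` with `p = 1`, `n0 = n/2` (so `4(k+1) ≤ n0 + 1` and
`A ≤ K n ≤ 2 K (m+1)` for `m ≥ n0`: take `S1_step` with `2K`), `B = A`, `A / 2^(n-n0) ≤ 2K`
(`n ≤ 2 * 2^(n/2)`...).  For `n < 8(k+1)`: `S1 ≤ A ≤ 8 K (k+1)`.
-/

set_option autoImplicit false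

namespace Crest.Agent.R153

open Crest.ProbabilityR.RandomSAT Finset

noncomputable def S1 (k n A u r : ℕ) : ℝ :=
  ∑ a ∈ range A, X k n 1 a r 0 (kap u * ee u)

theorem S1_nonneg (k n A u r : ℕ) : 0 ≤ S1 k n A u r :=
  sum_nonneg fun _ _ => X_nonneg zero_le_one (mul_nonneg (kap_nonneg u) (ee_nonneg u)) _ _ _

/-- trivial bound -/
theorem S1_le {k n : ℕ} (hn : k + 1 ≤ n) (A u r : ℕ) : S1 k n A u r ≤ A := by
  unfold S1
  calc ∑ a ∈ range A, X k n 1 a r 0 (kap u * ee u) ≤ ∑ a ∈ range A, (1 : ℝ) := by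
        refine sum_le_sum fun a _ => ?_
        refine X_le_one hn zero_le_one le_rfl ?_ a r 0
        intro v
        have h1 := kap_le_one u v
        have h2 := ee_le_one u v
        have h3 := ee_nonneg u v
        simp only [Pi.mul_apply, Pi.one_apply, Pi.zero_apply] at *
        exact mul_le_one₀ h1 h3 h2
    _ = A := by simp

theorem sum_X_le {k n : ℕ} (hn : k + 1 ≤ n) (u A r : ℕ) :
    ∑ a ∈ range A, X k n 1 a r 0 (kap u ^ (k + 1) * ee u) ≤ 2 ^ (k + 1) + A * ((k + 1 : ℝ) / n) := by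
  have h : ∑ a ∈ range A, X k n 1 a r 0 (kap u ^ (k + 1) * ee u) =
      ((P k n ^ r) (∑ a ∈ range A, (P (k + 1) n ^ a) (kap u ^ (k + 1) * ee u))) 0 := by
    rw [map_sum, Finset.sum_apply]
    refine sum_congr rfl fun a _ => ?_
    simp [X]
  rw [h]
  exact ((P_mk (show k ≤ n by omega)).pow r).le_const (sum_kap_pow_le hn u A) 0

theorem S1_step {k : ℕ} (hk : 2 ≤ k) (K : ℕ) : ∃ C Cw : ℝ, 0 ≤ C ∧ 0 < Cw ∧
    ∀ n A u : ℕ, 4 * (k + 1) ≤ n + 1 → A ≤ K * (n + 1) → ∀ η : ℝ, 0 < η → η ≤ 1 → ∀ r : ℕ,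
      S1 k (n + 1) A u r ≤ C / η * (1 + r)
        + ∑ t ∈ range A, Cw * (1 / 2) ^ t * (η * S1 k n A u (r + t)) := by
  set L : ℝ := K * (k + 1) with hL
  set Cw : ℝ := 2 * Real.exp (2 * L) with hCw
  set C' : ℝ := 2 ^ (k + 1) + 2 * K * (k + 1) with hC'
  have hCw0 : 0 < Cw := by positivity
  have hC'0 : 0 ≤ C' := by positivity
  refine ⟨2 * Cw * C' + K * k, Cw, by positivity, hCw0, ?_⟩
  intro n A u hn hA η hη0 hη1 r
  have hkn : k + 1 ≤ n := by omega
  have hnpos : (0 : ℝ) < (n : ℝ) := by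
    have : 0 < n := by omega
    exact_mod_cast this
  have hn1 : (0 : ℝ) < (n : ℝ) + 1 := by positivity
  have hAr : (A : ℝ) ≤ K * (n + 1) := by exact_mod_cast hA
  set θ : ℝ := ((k : ℝ) + 1) / (n + 1) with hθ
  have hθ0 : 0 ≤ θ := by positivity
  have hθ1 : θ ≤ 1 / 4 := by
    rw [hθ, div_le_div_iff₀ hn1 (by norm_num)]
    have : (4 * ((k : ℝ) + 1)) ≤ n + 1 := by exact_mod_cast hn
    linarith
  have hAθ : A * θ ≤ L := by
    rw [hθ, ← mul_div_assoc, div_le_iff₀ hn1]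
    have h0 : (0 : ℝ) ≤ (k : ℝ) + 1 := by positivity
    nlinarith
  -- the terms
  set x : ℕ → ℕ → ℝ := fun a t => X k n 1 a (r + t) 0 (hh k u) with hx
  have hx0 : ∀ a t, 0 ≤ x a t := fun a t => X_nonneg zero_le_one (hh_nonneg k u) _ _ _
  have hstep : ∀ a ∈ range A, X k (n + 1) 1 a r 0 (kap u * ee u) ≤
      (∑ i ∈ range (a + 1), (a.choose i : ℝ) * ((1 - θ) ^ (a - i) * θ ^ i) *
        ∑ t ∈ range i, x (a - i) t) + r * ((k : ℝ) / (n + 1)) := by
    intro a _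
    have h1 := one_step (k := k) (n := n) (m := 1) (m' := 1) (by omega) (by omega)
      zero_le_one (fun _ _ _ => rfl) zero_le_one (fun _ _ => le_rfl) (fun _ _ _ => le_rfl) u a r 0
    refine h1.trans (add_le_add (le_of_eq ?_) ?_)
    · refine sum_congr rfl fun i _ => ?_
      simp [hx, hθ]
    · have h2 : X k (n + 1) 1 a r 0 (ee u) ≤ 1 :=
        X_le_one (by omega) zero_le_one le_rfl (ee_le_one u) a r 0
      calc (r : ℝ) * ((k : ℝ) / (n + 1)) * X k (n + 1) 1 a r 0 (ee u)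
          ≤ r * ((k : ℝ) / (n + 1)) * 1 := mul_le_mul_of_nonneg_left h2 (by positivity)
        _ = _ := mul_one _
  have hsum : S1 k (n + 1) A u r ≤
      (∑ t ∈ range A, Cw * (1 / 2) ^ t * ∑ a ∈ range A, x a t) + A * (r * ((k : ℝ) / (n + 1))) := by
    unfold S1
    refine (sum_le_sum hstep).trans ?_
    rw [sum_add_distrib, sum_const, card_range, nsmul_eq_mul]
    have := nb1 hθ0 hθ1 A hAθ x hx0
    linarith
  have hback : A * (r * ((k : ℝ) / (n + 1))) ≤ K * k * r := by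
    have h1 : (A : ℝ) * (r * ((k : ℝ) / (n + 1))) = (A * (k * r)) / (n + 1) := by ring
    rw [h1, div_le_iff₀ hn1]
    have h2 : (0 : ℝ) ≤ (k : ℝ) * r := by positivity
    nlinarith
  have hxt : ∀ t, ∑ a ∈ range A, x a t ≤ η * S1 k n A u (r + t) + η⁻¹ * C' := by
    intro t
    have h1 : ∀ a ∈ range A, x a t ≤ η * X k n 1 a (r + t) 0 (kap u * ee u) +
        η⁻¹ * X k n 1 a (r + t) 0 (kap u ^ (k + 1) * ee u) := by
      intro a _
      rw [← X_smul, ← X_smul, ← X_add]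
      refine X_mono zero_le_one ?_ a (r + t) 0
      intro v
      have := hh_interp hk (by omega : k ≤ n) u hη0 hη1 v
      simpa [smul_eq_mul] using this
    refine (sum_le_sum h1).trans ?_
    rw [sum_add_distrib, ← mul_sum, ← mul_sum]
    have h2 := sum_X_le (k := k) hkn u A (r + t)
    have h3 : (A : ℝ) * ((k + 1 : ℝ) / n) ≤ 2 * K * (k + 1) := by
      rw [← mul_div_assoc, div_le_iff₀ hnpos]
      have h4 : (n : ℝ) + 1 ≤ 2 * n := by
        have : n + 1 ≤ 2 * n := by omega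
        exact_mod_cast this
      have h5 : (0 : ℝ) ≤ (k : ℝ) + 1 := by positivity
      have h6 : (A : ℝ) ≤ K * (2 * n) := hAr.trans (mul_le_mul_of_nonneg_left h4 (by positivity))
      nlinarith
    have h4 : ∑ a ∈ range A, X k n 1 a (r + t) 0 (kap u ^ (k + 1) * ee u) ≤ C' := by
      rw [hC']; linarith
    have h5 : 0 ≤ η⁻¹ := by positivity
    have h6 := mul_le_mul_of_nonneg_left h4 h5
    have h7 : ∑ a ∈ range A, X k n 1 a (r + t) 0 (kap u * ee u) = S1 k n A u (r + t) := rfl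
    rw [h7]
    linarith
  have hgeo : ∑ t ∈ range A, ((1 : ℝ) / 2) ^ t ≤ 2 := by
    have h1 : (1 : ℝ) / 2 ≠ 1 := by norm_num
    rw [geom_sum_eq h1]
    have h2 : (0 : ℝ) ≤ (1 / 2) ^ A := by positivity
    rw [div_le_iff_of_neg (by norm_num)]
    linarith
  have hsum2 : (∑ t ∈ range A, Cw * (1 / 2) ^ t * ∑ a ∈ range A, x a t) ≤
      ∑ t ∈ range A, Cw * (1 / 2) ^ t * (η * S1 k n A u (r + t)) + 2 * Cw * C' / η := by
    have h1 : ∀ t ∈ range A, Cw * (1 / 2) ^ t * ∑ a ∈ range A, x a t ≤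
        Cw * (1 / 2) ^ t * (η * S1 k n A u (r + t)) + (Cw * C' / η) * (1 / 2) ^ t := by
      intro t _
      have h2 := mul_le_mul_of_nonneg_left (hxt t)
        (show 0 ≤ Cw * (1 / 2 : ℝ) ^ t by positivity)
      refine h2.trans (le_of_eq ?_)
      rw [mul_add]
      congr 1
      field_simp
    refine (sum_le_sum h1).trans ?_
    rw [sum_add_distrib, ← mul_sum]
    have h3 : (Cw * C' / η) * ∑ t ∈ range A, (1 / 2 : ℝ) ^ t ≤ (Cw * C' / η) * 2 :=
      mul_le_mul_of_nonneg_left hgeo (by positivity)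
    have h4 : 2 * Cw * C' / η = (Cw * C' / η) * 2 := by ring
    rw [h4]
    linarith
  have hfin : 2 * Cw * C' / η + K * k * r ≤ (2 * Cw * C' + K * k) / η * (1 + r) := by
    have h1 : (K : ℝ) * k * r ≤ K * k * r / η := by
      rw [le_div_iff₀ hη0]
      have : (0 : ℝ) ≤ K * k * r := by positivity
      nlinarith
    have h2 : (2 * Cw * C' + K * k) / η * (1 + r) =
        2 * Cw * C' / η + K * k * r / η + (2 * Cw * C' / η * r + K * k / η) := by
      field_simp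
      ring
    rw [h2]
    have h3 : 0 ≤ 2 * Cw * C' / η * r + K * k / η := by positivity
    linarith
  linarith

end Crest.Agent.R153
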