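import Mathlib
import Crest.Agent.R153.S1

/-! # Row 153, piece S1b (see the header of `S1`) -/

set_option autoImplicit false

namespace Crest.Agent.R153

open Crest.ProbabilityR.RandomSAT Finset

theorem S1_bound {k : ℕ} (hk : 2 ≤ k) (K : ℕ) : ∃ C : ℝ, 0 ≤ C ∧ ∀ n A u r : ℕ, k + 1 ≤ n →
    A ≤ K * n → S1 k n A u r ≤ C * (1 + r) := by
  obtain ⟨C1, Cw, hC1, hCw, hstep⟩ := S1_step hk (2 * K)
  obtain ⟨η, hη0, hη1, hrec⟩ := rec_lemma 1 hCw
  refine ⟨2 * (C1 / η) + 2 * K + 8 * K * (k + 1), by positivity, ?_⟩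
  intro n A u r hn hA
  have hr : (0 : ℝ) ≤ r := Nat.cast_nonneg r
  have hAr : (A : ℝ) ≤ K * n := by exact_mod_cast hA
  have hle := S1_le (k := k) hn A u r
  rcases lt_or_ge n (8 * (k + 1)) with h8 | h8
  · have h1 : (n : ℝ) ≤ 8 * (k + 1) := by exact_mod_cast h8.le
    have h2 : (A : ℝ) ≤ 8 * K * (k + 1) := by
      have h3 := mul_le_mul_of_nonneg_left h1 (Nat.cast_nonneg (α := ℝ) K)
      nlinarith
    have h3 : (8 * K * (k + 1) : ℝ) ≤ (2 * (C1 / η) + 2 * K + 8 * K * (k + 1)) * (1 + r) := by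
      have h4 : (0 : ℝ) ≤ 2 * (C1 / η) + 2 * K := by positivity
      have h5 : (0 : ℝ) ≤ 8 * K * (k + 1) := by positivity
      nlinarith [mul_nonneg h4 hr, mul_nonneg h5 hr]
    linarith
  · have h1 := hrec (fun m r => S1 k m A u r) (n / 2) n A A (C1 / η) (Nat.cast_nonneg A)
      (by positivity) (Nat.div_le_self n 2)
      (fun r => S1_le (by omega) A u r)
      (by
        intro m hm1 hm2 r
        have h2 : A ≤ 2 * K * (m + 1) := by
          refine hA.trans ?_
          have h3 : n ≤ 2 * (m + 1) := by omega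
          calc K * n ≤ K * (2 * (m + 1)) := Nat.mul_le_mul_left K h3
            _ = 2 * K * (m + 1) := by ring
        have h4 := hstep m A u (by omega) h2 η hη0 hη1 r
        simpa using h4) r
    have h2 : (A : ℝ) / 2 ^ (n - n / 2) ≤ 2 * K := by
      rw [div_le_iff₀ (by positivity)]
      have h3 : n ≤ 2 * 2 ^ (n - n / 2) := by
        have := Nat.lt_two_pow_self (n := n - n / 2)
        omega
      have h4 : (n : ℝ) ≤ 2 * 2 ^ (n - n / 2) := by exact_mod_cast h3
      have h5 := mul_le_mul_of_nonneg_left h4 (Nat.cast_nonneg (α := ℝ) K)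
      nlinarith
    refine h1.trans ?_
    rw [pow_one]
    refine mul_le_mul_of_nonneg_right ?_ (by positivity)
    have : (0 : ℝ) ≤ 8 * K * (k + 1) := by positivity
    linarith

end Crest.Agent.R153
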