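import Mathlib
import Crest.Agent.R153.BSurv
import Crest.Agent.R153.BWait
import Crest.Agent.R153.BRemove
import Crest.Agent.R153.S1Bound

/-!
# Row 153, piece B4: time spent at the level `u+1`

* `level_time`: `wait_le`, `remove_le` (the term `m = 0` vanishes: `ee (u+1) 0 = 0`), `hh_surv`:
  `∑_{m<A} P^m (ee (u+1)) 0 ≤ 2N + (A/(u+1)) S1 k n A u 0 / (2 √N)`, `S1_bound`, `A ≤ K n`, and
  `N = ⌈√(n/(u+1))⌉₊ ≥ 1`; with `y = n/(u+1) ≥ 1`: `2N ≤ 4 √y ≤ 4 y^(3/4)`,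
  `y / √N ≤ y / y^(1/4) = y^(3/4)`.
-/

set_option autoImplicit false

namespace Crest.Agent.R153

open Crest.ProbabilityR.RandomSAT Finset

theorem level_time {k : ℕ} (hk : 2 ≤ k) (K : ℕ) : ∃ C : ℝ, 0 < C ∧ ∀ n A u : ℕ, k + 1 ≤ n →
    A ≤ K * n → u + 1 ≤ n →
    ∑ m ∈ range A, (P (k + 1) n ^ m) (ee (u + 1)) 0 ≤ C * ((n : ℝ) / (u + 1)) ^ (3 / 4 : ℝ) := by
  obtain ⟨C1, hC1, hS1⟩ := S1_bound hk K
  refine ⟨4 + K * C1 / 2, by positivity, ?_⟩
  intro n A u hn hA hu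
  have hu0 : (0 : ℝ) < (u : ℝ) + 1 := by positivity
  set y : ℝ := (n : ℝ) / (u + 1) with hy
  have hy1 : 1 ≤ y := by
    rw [hy, one_le_div hu0]
    exact_mod_cast hu
  have hy0 : 0 < y := by linarith
  set N : ℕ := ⌈Real.sqrt y⌉₊ with hN
  have hsy1 : 1 ≤ Real.sqrt y := Real.one_le_sqrt.2 hy1
  have hN1 : 1 ≤ N := Nat.one_le_ceil_iff.2 (by linarith)
  have hNlo : Real.sqrt y ≤ N := Nat.le_ceil _
  have hNhi : (N : ℝ) ≤ 2 * Real.sqrt y := by
    have := Nat.ceil_lt_add_one (Real.sqrt_nonneg y)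
    rw [← hN] at this
    linarith
  have hN0 : (0 : ℝ) < N := by linarith
  have hsq : 0 < Real.sqrt N := Real.sqrt_pos.2 hN0
  -- quarter powers
  have hq1 : y ^ (1 / 4 : ℝ) ≤ Real.sqrt N := by
    calc y ^ (1 / 4 : ℝ) = Real.sqrt (Real.sqrt y) := by
          rw [Real.sqrt_eq_rpow, Real.sqrt_eq_rpow, ← Real.rpow_mul hy0.le]
          norm_num
      _ ≤ Real.sqrt N := Real.sqrt_le_sqrt hNlo
  have hq2 : y / Real.sqrt N ≤ y ^ (3 / 4 : ℝ) := by
    calc y / Real.sqrt N ≤ y / y ^ (1 / 4 : ℝ) :=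
          div_le_div_of_nonneg_left hy0.le (Real.rpow_pos_of_pos hy0 _) hq1
      _ = y ^ (3 / 4 : ℝ) := by
          rw [show (3 / 4 : ℝ) = 1 - 1 / 4 by norm_num, Real.rpow_sub hy0, Real.rpow_one]
  have hq3 : Real.sqrt y ≤ y ^ (3 / 4 : ℝ) := by
    rw [Real.sqrt_eq_rpow]
    exact Real.rpow_le_rpow_of_exponent_le hy1 (by norm_num)
  have hq3' : 0 ≤ y ^ (3 / 4 : ℝ) := Real.rpow_nonneg hy0.le _
  -- the terms
  set T : ℕ → ℝ := fun m =>
    (P (k + 1) n ^ m) (ee (u + 1) * (P (k + 1) n ^ N) (ee (u + 1))) 0 with hT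
  have hTnn : ∀ m, 0 ≤ T m := fun m =>
    ((P_isT (k + 1) n).pow m).nonneg
      (mul_nonneg (ee_nonneg _) (((P_isT (k + 1) n).pow N).nonneg (ee_nonneg _))) 0
  have hT0 : T 0 = 0 := by
    have h1 : ee (u + 1) (0 : St n) = 0 := by simp [ee, U_zero]
    simp only [hT, pow_zero, Module.End.one_apply, Pi.mul_apply, h1, zero_mul]
  have hTs : ∀ l ∈ range A, T (l + 1) ≤
      (A : ℝ) / (u + 1) * (1 / (2 * Real.sqrt N)) * X k n 1 l 0 0 (kap u * ee u) := by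
    intro l hl
    have hl' : (l : ℝ) + 1 ≤ A := by exact_mod_cast Finset.mem_range.1 hl
    have h1 := remove_le hn u N l
    have h2 : (hh (k + 1) u * (P (k + 1) n ^ N) (ee u) : St n → ℝ) ≤
        (1 / (2 * Real.sqrt N)) • (kap u * ee u) := by
      intro v
      have := hh_surv (by omega) hn u N hN1 v
      simp only [Pi.mul_apply, Pi.smul_apply, smul_eq_mul]
      calc _ ≤ _ := this
        _ = _ := by ring
    have h3 := ((P_isT (k + 1) n).pow l).mono h2 0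
    rw [map_smul, Pi.smul_apply, smul_eq_mul] at h3
    have h4 : X k n 1 l 0 0 (kap u * ee u) = (P (k + 1) n ^ l) (kap u * ee u) 0 := by
      simp [X]
    rw [h4]
    have h5 : 0 ≤ (P (k + 1) n ^ l) (kap u * ee u) 0 :=
      ((P_isT (k + 1) n).pow l).nonneg (mul_nonneg (kap_nonneg u) (ee_nonneg u)) 0
    have h6 : ((u : ℝ) + 1) * T (l + 1) ≤
        A * ((1 / (2 * Real.sqrt N)) * (P (k + 1) n ^ l) (kap u * ee u) 0) := by
      refine h1.trans ?_
      have h7 : 0 ≤ (1 / (2 * Real.sqrt N)) * (P (k + 1) n ^ l) (kap u * ee u) 0 := by positivity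
      calc ((l : ℝ) + 1) * (P (k + 1) n ^ l) (hh (k + 1) u * (P (k + 1) n ^ N) (ee u)) 0
          ≤ ((l : ℝ) + 1) * ((1 / (2 * Real.sqrt N)) * (P (k + 1) n ^ l) (kap u * ee u) 0) :=
            mul_le_mul_of_nonneg_left h3 (by positivity)
        _ ≤ _ := mul_le_mul_of_nonneg_right hl' h7
    have h8 : T (l + 1) ≤
        (A * ((1 / (2 * Real.sqrt N)) * (P (k + 1) n ^ l) (kap u * ee u) 0)) / (u + 1) := by
      rw [le_div_iff₀ hu0]
      linarith
    calc T (l + 1) ≤ _ := h8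
      _ = _ := by ring
  have hsum : ∑ m ∈ range A, T m ≤ (A : ℝ) / (u + 1) * (1 / (2 * Real.sqrt N)) * C1 := by
    calc ∑ m ∈ range A, T m ≤ ∑ m ∈ range (A + 1), T m :=
          Finset.sum_le_sum_of_subset_of_nonneg (Finset.range_mono (Nat.le_succ A))
            (fun m _ _ => hTnn m)
      _ = ∑ l ∈ range A, T (l + 1) := by rw [Finset.sum_range_succ', hT0, add_zero]
      _ ≤ ∑ l ∈ range A, (A : ℝ) / (u + 1) * (1 / (2 * Real.sqrt N)) *
            X k n 1 l 0 0 (kap u * ee u) := Finset.sum_le_sum hTs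
      _ = (A : ℝ) / (u + 1) * (1 / (2 * Real.sqrt N)) * S1 k n A u 0 := by
          rw [← Finset.mul_sum]; rfl
      _ ≤ (A : ℝ) / (u + 1) * (1 / (2 * Real.sqrt N)) * C1 := by
          have h9 := hS1 n A u 0 hn hA
          rw [Nat.cast_zero, add_zero, mul_one] at h9
          exact mul_le_mul_of_nonneg_left h9 (by positivity)
  have hAy : (A : ℝ) / (u + 1) ≤ K * y := by
    have h10 : (A : ℝ) ≤ K * n := by exact_mod_cast hA
    rw [hy, ← mul_div_assoc]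
    gcongr
  have hw := wait_le hn u N A
  calc ∑ m ∈ range A, (P (k + 1) n ^ m) (ee (u + 1)) 0 ≤ 2 * N + ∑ m ∈ range A, T m := hw
    _ ≤ 2 * (2 * Real.sqrt y) + (K * y) * (1 / (2 * Real.sqrt N)) * C1 := by
        refine add_le_add (by linarith) (hsum.trans ?_)
        gcongr
    _ = 4 * Real.sqrt y + K * C1 / 2 * (y / Real.sqrt N) := by
        field_simp
        ring
    _ ≤ 4 * y ^ (3 / 4 : ℝ) + K * C1 / 2 * y ^ (3 / 4 : ℝ) := by
        gcongr
    _ = (4 + K * C1 / 2) * y ^ (3 / 4 : ℝ) := by ring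

end Crest.Agent.R153
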