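import Mathlib
import Crest.Agent.R153.BLevel

/-!
# Row 153, piece B5: time spent at the levels `1 ≤ U ≤ e^4 n`

`1[1 ≤ U ≤ L] = ∑_{u<L} ee (u+1)`, `∑_{u<L} (u+1)^(-3/4) ≤ 4 L^(1/4)`, for `L = ⌊e^4 n⌋₊ ≤ n`:
`∑_{u<L} C (n/(u+1))^(3/4) ≤ 4 C n^(3/4) L^(1/4) ≤ 4 C n^(3/4) (e^4 n)^(1/4) = 4 C e n`.
-/

set_option autoImplicit false

namespace Crest.Agent.R153

open Crest.ProbabilityR.RandomSAT Finset

/-- indicator of `1 ≤ U ≤ x` -/
noncomputable def low {n : ℕ} (x : ℝ) : St n → ℝ := fun v => if 1 ≤ U v ∧ (U v : ℝ) ≤ x then 1 else 0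

lemma low_eq {n : ℕ} {x : ℝ} (hx : 0 ≤ x) :
    (low x : St n → ℝ) = ∑ u ∈ range ⌊x⌋₊, ee (u + 1) := by
  ext v
  rw [Finset.sum_apply]
  by_cases h : 1 ≤ U v ∧ (U v : ℝ) ≤ x
  · have h1 : U v ≤ ⌊x⌋₊ := Nat.le_floor h.2
    rw [sum_eq_single (U v - 1)]
    · simp only [low, ee]
      rw [if_pos h, if_pos (by omega)]
    · intro b _ hb
      simp only [ee]
      rw [if_neg (by omega)]
    · intro hb
      exfalso
      apply hb
      rw [mem_range]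
      omega
  · have e : low x v = 0 := by simp only [low]; rw [if_neg h]
    rw [e, eq_comm]
    refine sum_eq_zero fun u hu => ?_
    simp only [ee]
    rw [if_neg]
    intro hcon
    apply h
    rw [mem_range] at hu
    refine ⟨by omega, ?_⟩
    have h2 : U v ≤ ⌊x⌋₊ := by omega
    calc (U v : ℝ) ≤ (⌊x⌋₊ : ℝ) := by exact_mod_cast h2
      _ ≤ x := Nat.floor_le hx

lemma quarter_sum (L : ℕ) :
    ∑ u ∈ range L, (1 : ℝ) / ((u : ℝ) + 1) ^ (3 / 4 : ℝ) ≤ 4 * (L : ℝ) ^ (1 / 4 : ℝ) := by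
  induction L with
  | zero => simp
  | succ L ih =>
    rw [sum_range_succ]
    have hL : (0 : ℝ) ≤ L := Nat.cast_nonneg L
    have hL1 : (0 : ℝ) < (L : ℝ) + 1 := by positivity
    set b : ℝ := (L : ℝ) ^ (1 / 4 : ℝ) with hb
    set a : ℝ := ((L : ℝ) + 1) ^ (1 / 4 : ℝ) with ha
    have hb0 : 0 ≤ b := Real.rpow_nonneg hL _
    have ha0 : 0 < a := Real.rpow_pos_of_pos hL1 _
    have hab : b ≤ a := Real.rpow_le_rpow hL (by linarith) (by norm_num)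
    have ha4 : a ^ 4 = (L : ℝ) + 1 := by
      rw [ha, ← Real.rpow_natCast, ← Real.rpow_mul hL1.le]
      norm_num
    have hb4 : b ^ 4 = (L : ℝ) := by
      rw [hb, ← Real.rpow_natCast, ← Real.rpow_mul hL]
      norm_num
    have ha3 : ((L : ℝ) + 1) ^ (3 / 4 : ℝ) = a ^ 3 := by
      rw [ha, ← Real.rpow_natCast, ← Real.rpow_mul hL1.le]
      norm_num
    have hcast : (((L + 1 : ℕ) : ℝ)) ^ (1 / 4 : ℝ) = a := by
      push_cast
      rfl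
    rw [hcast, ha3]
    have key : 1 / a ^ 3 ≤ 4 * (a - b) := by
      rw [div_le_iff₀ (by positivity)]
      have h1 : (a - b) * (a ^ 3 + a ^ 2 * b + a * b ^ 2 + b ^ 3) = 1 := by
        have : (a - b) * (a ^ 3 + a ^ 2 * b + a * b ^ 2 + b ^ 3) = a ^ 4 - b ^ 4 := by ring
        rw [this, ha4, hb4]
        ring
      have h2 : a ^ 2 * b ≤ a ^ 3 := by
        have := mul_le_mul_of_nonneg_left hab (sq_nonneg a)
        nlinarith
      have h3 : a * b ^ 2 ≤ a ^ 3 := by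
        have h4 : b ^ 2 ≤ a ^ 2 := pow_le_pow_left₀ hb0 hab 2
        nlinarith [mul_le_mul_of_nonneg_left h4 ha0.le]
      have h5 : b ^ 3 ≤ a ^ 3 := pow_le_pow_left₀ hb0 hab 3
      have h6 : a ^ 3 + a ^ 2 * b + a * b ^ 2 + b ^ 3 ≤ 4 * a ^ 3 := by linarith
      have h7 := mul_le_mul_of_nonneg_left h6 (sub_nonneg.2 hab)
      linarith
    linarith

theorem levels_time {k : ℕ} (hk : 2 ≤ k) (K : ℕ) : ∃ C : ℝ, 0 < C ∧ ∀ n A : ℕ, k + 1 ≤ n →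
    A ≤ K * n → ∀ e : ℝ, 0 < e → e ≤ 1 →
    ∑ m ∈ range A, (P (k + 1) n ^ m) (low (e ^ 4 * n)) 0 ≤ C * e * n := by
  obtain ⟨C, hC, H⟩ := level_time hk K
  refine ⟨4 * C, by positivity, ?_⟩
  intro n A h hA e he he1
  have hn0 : (0 : ℝ) < n := by
    have : 0 < n := by omega
    exact_mod_cast this
  have hx : (0 : ℝ) ≤ e ^ 4 * n := by positivity
  set L : ℕ := ⌊e ^ 4 * (n : ℝ)⌋₊ with hL
  have hLx : (L : ℝ) ≤ e ^ 4 * n := Nat.floor_le hx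
  have hLn : L ≤ n := by
    have h1 : (L : ℝ) ≤ n := by
      refine hLx.trans ?_
      have : e ^ 4 ≤ 1 := pow_le_one₀ he.le he1
      nlinarith
    exact_mod_cast h1
  have e1 : ∑ m ∈ range A, (P (k + 1) n ^ m) (low (e ^ 4 * n)) 0
      = ∑ u ∈ range L, ∑ m ∈ range A, (P (k + 1) n ^ m) (ee (u + 1)) 0 := by
    rw [low_eq hx, sum_comm]
    refine sum_congr rfl fun m _ => ?_
    rw [map_sum, Finset.sum_apply]
  rw [e1]
  have h1 : ∑ u ∈ range L, ∑ m ∈ range A, (P (k + 1) n ^ m) (ee (u + 1)) 0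
      ≤ ∑ u ∈ range L, C * (n : ℝ) ^ (3 / 4 : ℝ) * ((1 : ℝ) / ((u : ℝ) + 1) ^ (3 / 4 : ℝ)) := by
    refine sum_le_sum fun u hu => ?_
    rw [mem_range] at hu
    refine (H n A u h hA (by omega)).trans (le_of_eq ?_)
    rw [Real.div_rpow hn0.le (by positivity)]
    ring
  refine h1.trans ?_
  rw [← mul_sum]
  have h2 := quarter_sum L
  have h3 : (L : ℝ) ^ (1 / 4 : ℝ) ≤ (e ^ 4 * n) ^ (1 / 4 : ℝ) :=
    Real.rpow_le_rpow (Nat.cast_nonneg L) hLx (by norm_num)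
  have h4 : (n : ℝ) ^ (3 / 4 : ℝ) * (e ^ 4 * n) ^ (1 / 4 : ℝ) = e * n := by
    rw [Real.mul_rpow (by positivity) hn0.le]
    have e2 : (e ^ 4) ^ (1 / 4 : ℝ) = e := by
      rw [← Real.rpow_natCast, ← Real.rpow_mul he.le]
      norm_num
    rw [e2, mul_comm, mul_assoc, ← Real.rpow_add hn0]
    norm_num
  have hC4 : (0 : ℝ) ≤ C * (n : ℝ) ^ (3 / 4 : ℝ) := by positivity
  calc C * (n : ℝ) ^ (3 / 4 : ℝ) * ∑ u ∈ range L, (1 : ℝ) / ((u : ℝ) + 1) ^ (3 / 4 : ℝ)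
      ≤ C * (n : ℝ) ^ (3 / 4 : ℝ) * (4 * (e ^ 4 * n) ^ (1 / 4 : ℝ)) :=
        mul_le_mul_of_nonneg_left (h2.trans (by linarith)) hC4
    _ = 4 * C * ((n : ℝ) ^ (3 / 4 : ℝ) * (e ^ 4 * n) ^ (1 / 4 : ℝ)) := by ring
    _ = 4 * C * e * n := by rw [h4]; ring

end Crest.Agent.R153
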