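import Mathlib
import Crest.Agent.R153.SatProb

/-!
# Row 153, piece E0: the expected ground state energy

`EU j n m = (P^m U) 0`.  `P^(m+1) U - P^m U = P^m (P U - U)` and `0 ≤ P U - U ≤ 1`.
`U ≤ m` and `U = 0` on satisfiable formulas, so `EU ≤ m (1 - satProb)`; in operator form:
`U v ≤ i (1 - ee 0 v)` is not available for arbitrary states, use `P_pow_apply`.
-/

set_option autoImplicit false

namespace Crest.Agent.R153

open Crest.ProbabilityR.RandomSAT Finset

/-- ground state energy as a real function -/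
def Ur {n : ℕ} : St n → ℝ := fun v => (U v : ℝ)

/-- expected ground state energy of `m` random `j`-clauses -/
noncomputable def EU (j n m : ℕ) : ℝ := (P j n ^ m) Ur 0

theorem EU_nonneg (j n m : ℕ) : 0 ≤ EU j n m :=
  ((P_isT j n).pow m).nonneg (g := Ur) (fun _ => Nat.cast_nonneg _) 0

namespace EUBasicAux

theorem P_Ur_ge {j n : ℕ} (h : j ≤ n) : (Ur : St n → ℝ) ≤ P j n Ur := by
  intro v
  have h1 : ∀ w : St n, Ur v ≤ Ur (v + w) := fun w => by
    unfold Ur
    exact_mod_cast U_le_add v w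
  have hne := clause_nonempty h
  have hc : (0 : ℝ) < Fintype.card (Clause j n) := by
    exact_mod_cast Fintype.card_pos
  rw [P_apply]
  have h2 : (Fintype.card (Clause j n) : ℝ) * Ur v ≤ ∑ c : Clause j n, Ur (v + vc c) := by
    calc (Fintype.card (Clause j n) : ℝ) * Ur v = ∑ _c : Clause j n, Ur v := by
          rw [Finset.sum_const, card_univ, nsmul_eq_mul]
      _ ≤ _ := Finset.sum_le_sum fun c _ => h1 (vc c)
  rw [inv_mul_eq_div, le_div_iff₀ hc, mul_comm]
  exact h2

theorem P_Ur_le {j n : ℕ} (h : j ≤ n) : P j n Ur ≤ (Ur : St n → ℝ) + fun _ => 1 := by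
  intro v
  have hne := clause_nonempty h
  have hc : (0 : ℝ) < Fintype.card (Clause j n) := by
    exact_mod_cast Fintype.card_pos
  rw [P_apply]
  have h2 : ∑ c : Clause j n, Ur (v + vc c) ≤ (Fintype.card (Clause j n) : ℝ) * (Ur v + 1) := by
    calc _ ≤ ∑ _c : Clause j n, (Ur v + 1) := Finset.sum_le_sum fun c _ => by
          have := U_add_vc_le v c
          unfold Ur
          exact_mod_cast this
      _ = _ := by rw [Finset.sum_const, card_univ, nsmul_eq_mul]
  rw [inv_mul_eq_div, div_le_iff₀ hc, mul_comm]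
  exact h2

theorem EU_succ_ge {j n : ℕ} (h : j ≤ n) (m : ℕ) : EU j n m ≤ EU j n (m + 1) := by
  unfold EU
  rw [pow_succ, Module.End.mul_apply]
  exact ((P_isT j n).pow m).mono (P_Ur_ge h) 0

theorem EU_succ_le {j n : ℕ} (h : j ≤ n) (m : ℕ) : EU j n (m + 1) ≤ EU j n m + 1 := by
  unfold EU
  rw [pow_succ, Module.End.mul_apply]
  have := ((P_isT j n).pow m).mono (P_Ur_le h) 0
  rw [map_add, ((P_mk h).pow m).const] at this
  exact this

theorem U_sum_le {j n m : ℕ} (F : Fin m → Clause j n) : U (∑ i, vc (F i)) ≤ m := by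
  refine (U_le _ (fun _ => true)).trans ?_
  rw [Finset.sum_apply]
  calc ∑ i, vc (F i) (fun _ => true) ≤ ∑ _i : Fin m, 1 :=
        Finset.sum_le_sum fun i _ => vc_le_one _ _
    _ = m := by simp

end EUBasicAux

open EUBasicAux

theorem EU_mono {j n : ℕ} (h : j ≤ n) {m m' : ℕ} (hm : m ≤ m') : EU j n m ≤ EU j n m' :=
  monotone_nat_of_le_succ (f := fun m => EU j n m) (EU_succ_ge h) hm

theorem EU_lip {j n : ℕ} (h : j ≤ n) (m i : ℕ) : EU j n (m + i) ≤ EU j n m + i := by
  induction i with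
  | zero => simp
  | succ i ih =>
    have := EU_succ_le h (m + i)
    rw [← add_assoc]
    push_cast
    linarith

theorem EU_le {j n : ℕ} (h : j ≤ n) (m : ℕ) : EU j n m ≤ m * (1 - satProb j n m) := by
  have hne := clause_nonempty h
  have hc : (0 : ℝ) < (Fintype.card (Clause j n) : ℝ) ^ m := by
    have : (0 : ℝ) < Fintype.card (Clause j n) := by exact_mod_cast Fintype.card_pos
    positivity
  have hcard : ∑ _F : Fin m → Clause j n, (1 : ℝ) = (Fintype.card (Clause j n) : ℝ) ^ m := by
    rw [Finset.sum_const, card_univ, Fintype.card_fun, Fintype.card_fin, nsmul_eq_mul, mul_one]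
    push_cast
    rfl
  rw [satProb_eq, EU, P_pow_apply, P_pow_apply]
  have h1 : ∀ F : Fin m → Clause j n, Ur (0 + ∑ i, vc (F i)) ≤
      m * (1 - ee 0 (0 + ∑ i, vc (F i))) := by
    intro F
    rw [zero_add]
    unfold Ur ee
    split_ifs with h0
    · rw [h0]; simp
    · rw [sub_zero, mul_one]
      exact_mod_cast U_sum_le F
  have h2 : ∑ F : Fin m → Clause j n, Ur (0 + ∑ i, vc (F i)) ≤
      m * ((Fintype.card (Clause j n) : ℝ) ^ m -
        ∑ F : Fin m → Clause j n, ee 0 (0 + ∑ i, vc (F i))) := by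
    refine (Finset.sum_le_sum fun F _ => h1 F).trans (le_of_eq ?_)
    rw [← Finset.mul_sum, Finset.sum_sub_distrib, hcard]
  have h3 := mul_le_mul_of_nonneg_left h2 (inv_pos.2 hc).le
  refine h3.trans (le_of_eq ?_)
  field_simp

end Crest.Agent.R153
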