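import Mathlib
import Crest.Agent.R153.EUBasic
import Crest.Agent.R153.KapBound

/-!
# Row 153, definitions for superadditivity (two halves of `n + n` variables)
-/

set_option autoImplicit false

namespace Crest.Agent.R153

open Crest.ProbabilityR.RandomSAT Finset

/-- a state of the first half -/
def lf1 {n : ℕ} (w : St n) : St (n + n) := fun s => w (fun i => s (Fin.castAdd n i))

/-- a state of the second half -/
def lf2 {n : ℕ} (w : St n) : St (n + n) := fun s => w (fun i => s (Fin.natAdd n i))

/-- add a clause on the first half -/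
noncomputable def P1 (j n : ℕ) : Module.End ℝ (St (n + n) → ℝ) :=
  Av (fun c : Clause j n => lf1 (vc c))

/-- add a clause on the second half -/
noncomputable def P2 (j n : ℕ) : Module.End ℝ (St (n + n) → ℝ) :=
  Av (fun c : Clause j n => lf2 (vc c))

/-- add a clause on a random half -/
noncomputable def Psp (j n : ℕ) : Module.End ℝ (St (n + n) → ℝ) :=
  (1 / 2 : ℝ) • (P1 j n + P2 j n)

lemma Psp_mk {j n : ℕ} (h : j ≤ n) : Mk (Psp j n) := by
  have := clause_nonempty h
  refine ⟨((IsT.av _).add (IsT.av _)).smul (by norm_num), ?_⟩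
  rw [Psp, LinearMap.smul_apply, LinearMap.add_apply, P1, P2, Av_one, Av_one]
  ext v
  simp only [Pi.smul_apply, Pi.add_apply, Pi.one_apply, smul_eq_mul]
  norm_num

end Crest.Agent.R153
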