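import Mathlib
import Crest.Agent.R153.CDefs

/-!
# Row 153, piece C3: the energy of the split system

`U (lf1 w1 + lf2 w2) = U w1 + U w2` (assignments of `Fin (n+n)` are pairs, `Fin.append`);
`(P1^a P2^b) Ur (lf1 w1 + lf2 w2) = (P^a Ur) w1 + (P^b Ur) w2`; `P1, P2` commute, `Commute.add_pow`.
-/

set_option autoImplicit false

namespace Crest.Agent.R153

open Crest.ProbabilityR.RandomSAT Finset

theorem U_lf {n : ℕ} (w1 w2 : St n) : U (lf1 w1 + lf2 w2) = U w1 + U w2 := by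
  apply le_antisymm
  · obtain ⟨s1, h1⟩ := exists_U w1
    obtain ⟨s2, h2⟩ := exists_U w2
    have h3 := U_le (lf1 w1 + lf2 w2) (Fin.append s1 s2)
    refine h3.trans (le_of_eq ?_)
    have e1 : (fun i => Fin.append s1 s2 (Fin.castAdd n i)) = s1 := by
      funext i
      exact Fin.append_left s1 s2 i
    have e2 : (fun i => Fin.append s1 s2 (Fin.natAdd n i)) = s2 := by
      funext i
      exact Fin.append_right s1 s2 i
    simp only [Pi.add_apply, lf1, lf2, e1, e2, h1, h2]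
  · rw [le_U]
    intro s
    exact Nat.add_le_add (U_le w1 _) (U_le w2 _)

lemma lf1_add {n : ℕ} (w w' : St n) : lf1 (w + w') = lf1 w + lf1 w' := rfl

lemma lf2_add {n : ℕ} (w w' : St n) : lf2 (w + w') = lf2 w + lf2 w' := rfl

lemma lf1_zero {n : ℕ} : lf1 (0 : St n) = 0 := rfl

lemma lf2_zero {n : ℕ} : lf2 (0 : St n) = 0 := rfl

lemma P1_split {j n : ℕ} (h : j ≤ n) {f : St (n + n) → ℝ} {g1 g2 : St n → ℝ}
    (hf : ∀ w1 w2, f (lf1 w1 + lf2 w2) = g1 w1 + g2 w2) :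
    ∀ w1 w2, P1 j n f (lf1 w1 + lf2 w2) = P j n g1 w1 + g2 w2 := by
  intro w1 w2
  have hne := clause_nonempty h
  have hc : (Fintype.card (Clause j n) : ℝ) ≠ 0 := by
    exact_mod_cast Fintype.card_ne_zero
  have e : ∀ c : Clause j n, f (lf1 w1 + lf2 w2 + lf1 (vc c)) = g1 (w1 + vc c) + g2 w2 := by
    intro c
    rw [add_right_comm, ← lf1_add, hf]
  rw [P1, Av_apply, sum_congr rfl fun c _ => e c, sum_add_distrib, sum_const, card_univ,
    nsmul_eq_mul, P_apply, mul_add, inv_mul_cancel_left₀ hc]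

lemma P2_split {j n : ℕ} (h : j ≤ n) {f : St (n + n) → ℝ} {g1 g2 : St n → ℝ}
    (hf : ∀ w1 w2, f (lf1 w1 + lf2 w2) = g1 w1 + g2 w2) :
    ∀ w1 w2, P2 j n f (lf1 w1 + lf2 w2) = g1 w1 + P j n g2 w2 := by
  intro w1 w2
  have hne := clause_nonempty h
  have hc : (Fintype.card (Clause j n) : ℝ) ≠ 0 := by
    exact_mod_cast Fintype.card_ne_zero
  have e : ∀ c : Clause j n, f (lf1 w1 + lf2 w2 + lf2 (vc c)) = g1 w1 + g2 (w2 + vc c) := by
    intro c
    rw [add_assoc, ← lf2_add, hf]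
  rw [P2, Av_apply, sum_congr rfl fun c _ => e c, sum_add_distrib, sum_const, card_univ,
    nsmul_eq_mul, P_apply, mul_add, inv_mul_cancel_left₀ hc]

lemma P1_pow_split {j n : ℕ} (h : j ≤ n) {f : St (n + n) → ℝ} {g1 g2 : St n → ℝ}
    (hf : ∀ w1 w2, f (lf1 w1 + lf2 w2) = g1 w1 + g2 w2) (a : ℕ) :
    ∀ w1 w2, (P1 j n ^ a) f (lf1 w1 + lf2 w2) = (P j n ^ a) g1 w1 + g2 w2 := by
  induction a with
  | zero => simpa using hf
  | succ a ih =>
    rw [pow_succ', pow_succ']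
    exact P1_split h ih

lemma P2_pow_split {j n : ℕ} (h : j ≤ n) {f : St (n + n) → ℝ} {g1 g2 : St n → ℝ}
    (hf : ∀ w1 w2, f (lf1 w1 + lf2 w2) = g1 w1 + g2 w2) (a : ℕ) :
    ∀ w1 w2, (P2 j n ^ a) f (lf1 w1 + lf2 w2) = g1 w1 + (P j n ^ a) g2 w2 := by
  induction a with
  | zero => simpa using hf
  | succ a ih =>
    rw [pow_succ', pow_succ']
    exact P2_split h ih

theorem split_expansion {j n : ℕ} (h : j ≤ n) (M : ℕ) :
    (Psp j n ^ M) Ur 0
      = ∑ b ∈ range (M + 1), (M.choose b : ℝ) * (1 / 2) ^ M * (EU j n b + EU j n (M - b)) := by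
  have hcomm : Commute (P1 j n) (P2 j n) := (IsT.av _).commute (IsT.av _)
  have hU : ∀ w1 w2 : St n, (Ur (lf1 w1 + lf2 w2) : ℝ) = Ur w1 + Ur w2 := by
    intro w1 w2
    simp only [Ur, U_lf]
    push_cast
    ring
  have key : ∀ a b : ℕ, (P1 j n ^ a * P2 j n ^ b) Ur 0 = EU j n a + EU j n b := by
    intro a b
    have h1 := P1_pow_split h (P2_pow_split h hU b) a 0 0
    rw [lf1_zero, lf2_zero, add_zero] at h1
    rw [Module.End.mul_apply, h1]
    rfl
  rw [Psp, smul_pow, hcomm.add_pow, LinearMap.smul_apply, LinearMap.sum_apply, Pi.smul_apply,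
    Finset.sum_apply, smul_eq_mul, mul_sum]
  refine sum_congr rfl fun b _ => ?_
  have e : (P1 j n ^ b * P2 j n ^ (M - b) * (M.choose b : Module.End ℝ (St (n + n) → ℝ))) Ur 0
      = (M.choose b : ℝ) * (P1 j n ^ b * P2 j n ^ (M - b)) Ur 0 := by
    rw [← nsmul_eq_mul', LinearMap.smul_apply, Pi.smul_apply, nsmul_eq_mul]
  rw [e, key]
  ring

end Crest.Agent.R153
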