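import Mathlib
import Crest.Agent.R153.CSplit

/-!
# Row 153, piece C4: superadditivity up to `√n`

`∑_b C(2m,b) 4^{-m} |b - m| ≤ √m` (Cauchy-Schwarz and the variance `m/2` of the binomial law; e.g.
`∑_b C(M,b) (b - M/2)^2 = M 2^M / 4`), `EU b ≤ EU m + |b - m|` (`EU_mono`, `EU_lip`).
-/

set_option autoImplicit false

namespace Crest.Agent.R153

open Crest.ProbabilityR.RandomSAT Finset

private lemma binom_sum (M : ℕ) :
    ∑ b ∈ range (M + 1), (M.choose b : ℝ) * (1 / 2) ^ M = 1 := by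
  rw [← sum_mul]
  have h : ∑ b ∈ range (M + 1), (M.choose b : ℝ) = (2 : ℝ) ^ M := by
    exact_mod_cast Nat.sum_range_choose M
  rw [h, ← mul_pow]
  norm_num

private lemma binom_var (m : ℕ) :
    ∑ b ∈ range (2 * m + 1), ((2 * m).choose b : ℝ) * (1 / 2) ^ (2 * m) * ((b : ℝ) - m) ^ 2
      = (m : ℝ) / 2 := by
  have h := congrArg (Polynomial.eval (1 / 2 : ℝ)) (bernsteinPolynomial.variance ℝ (2 * m))
  rw [Polynomial.eval_finsetSum] at h
  simp only [bernsteinPolynomial, Polynomial.eval_mul, Polynomial.eval_pow, Polynomial.eval_sub,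
    Polynomial.eval_X, Polynomial.eval_one, nsmul_eq_mul, Polynomial.eval_natCast] at h
  have h2 : ∀ b ∈ range (2 * m + 1),
      ((2 * m).choose b : ℝ) * (1 / 2) ^ (2 * m) * ((b : ℝ) - m) ^ 2 =
      (((2 * m : ℕ) : ℝ) * (1 / 2) - (b : ℝ)) ^ 2 *
        (((2 * m).choose b : ℝ) * (1 / 2) ^ b * (1 - 1 / 2) ^ (2 * m - b)) := by
    intro b hb
    have hb' : b ≤ 2 * m := by
      have := mem_range.1 hb
      omega
    have e : ((1 : ℝ) / 2) ^ (2 * m) = (1 / 2) ^ b * (1 - 1 / 2) ^ (2 * m - b) := by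
      rw [show (1 - 1 / 2 : ℝ) = 1 / 2 by norm_num, ← pow_add]
      congr 1
      omega
    rw [e]
    push_cast
    ring
  rw [sum_congr rfl h2]
  rw [h]
  push_cast
  ring

theorem binom_dev (m : ℕ) :
    ∑ b ∈ range (2 * m + 1), ((2 * m).choose b : ℝ) * (1 / 2) ^ (2 * m) * |(b : ℝ) - m|
      ≤ Real.sqrt m := by
  rcases Nat.eq_zero_or_pos m with hm | hm
  · subst hm
    simp
  have hm0 : (0 : ℝ) < m := by exact_mod_cast hm
  set t := Real.sqrt m with ht
  have ht0 : 0 < t := Real.sqrt_pos.2 hm0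
  have ht2 : t * t = m := Real.mul_self_sqrt hm0.le
  have h1 : ∀ b ∈ range (2 * m + 1),
      ((2 * m).choose b : ℝ) * (1 / 2) ^ (2 * m) * |(b : ℝ) - m| ≤
      (1 / (2 * t)) * (((2 * m).choose b : ℝ) * (1 / 2) ^ (2 * m) * ((b : ℝ) - m) ^ 2) +
        (t / 2) * (((2 * m).choose b : ℝ) * (1 / 2) ^ (2 * m)) := by
    intro b _
    have hw : 0 ≤ ((2 * m).choose b : ℝ) * (1 / 2) ^ (2 * m) := by positivity
    have hx : |(b : ℝ) - m| ≤ (1 / (2 * t)) * ((b : ℝ) - m) ^ 2 + t / 2 := by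
      rw [← sq_abs ((b : ℝ) - m)]
      have h2 : 0 ≤ (|(b : ℝ) - m| - t) ^ 2 / (2 * t) := by positivity
      have h3 : (|(b : ℝ) - m| - t) ^ 2 / (2 * t) =
          (1 / (2 * t)) * |(b : ℝ) - m| ^ 2 + t / 2 - |(b : ℝ) - m| := by
        field_simp
        ring
      linarith
    calc ((2 * m).choose b : ℝ) * (1 / 2) ^ (2 * m) * |(b : ℝ) - m|
        ≤ ((2 * m).choose b : ℝ) * (1 / 2) ^ (2 * m) *
          ((1 / (2 * t)) * ((b : ℝ) - m) ^ 2 + t / 2) := mul_le_mul_of_nonneg_left hx hw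
      _ = _ := by ring
  refine (sum_le_sum h1).trans ?_
  rw [sum_add_distrib, ← mul_sum, ← mul_sum, binom_var, binom_sum, mul_one]
  have e : 1 / (2 * t) * ((m : ℝ) / 2) = t / 4 := by
    rw [← ht2]
    field_simp
    ring
  rw [e]
  linarith

theorem split_le {j n : ℕ} (h : j ≤ n) (m : ℕ) :
    (Psp j n ^ (2 * m)) Ur 0 ≤ 2 * EU j n m + 2 * Real.sqrt m := by
  have key : ∀ b : ℕ, EU j n b ≤ EU j n m + |(b : ℝ) - m| := by
    intro b
    rcases le_total b m with hb | hb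
    · exact (EU_mono h hb).trans (le_add_of_nonneg_right (abs_nonneg _))
    · obtain ⟨i, rfl⟩ := Nat.exists_eq_add_of_le hb
      refine (EU_lip h m i).trans ?_
      have : (i : ℝ) ≤ |((m + i : ℕ) : ℝ) - m| := by
        push_cast
        rw [add_sub_cancel_left]
        exact le_abs_self _
      linarith
  rw [split_expansion h]
  have h1 : ∀ b ∈ range (2 * m + 1),
      ((2 * m).choose b : ℝ) * (1 / 2) ^ (2 * m) * (EU j n b + EU j n (2 * m - b)) ≤
      (2 * EU j n m) * (((2 * m).choose b : ℝ) * (1 / 2) ^ (2 * m)) +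
        2 * (((2 * m).choose b : ℝ) * (1 / 2) ^ (2 * m) * |(b : ℝ) - m|) := by
    intro b hb
    have hb' : b ≤ 2 * m := by
      have := mem_range.1 hb
      omega
    have hw : 0 ≤ ((2 * m).choose b : ℝ) * (1 / 2) ^ (2 * m) := by positivity
    have k1 := key b
    have k2 := key (2 * m - b)
    have e : |((2 * m - b : ℕ) : ℝ) - m| = |(b : ℝ) - m| := by
      rw [Nat.cast_sub hb', abs_sub_comm (b : ℝ) m]
      congr 1
      push_cast
      ring
    rw [e] at k2
    calc ((2 * m).choose b : ℝ) * (1 / 2) ^ (2 * m) * (EU j n b + EU j n (2 * m - b))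
        ≤ ((2 * m).choose b : ℝ) * (1 / 2) ^ (2 * m) * (2 * EU j n m + 2 * |(b : ℝ) - m|) :=
          mul_le_mul_of_nonneg_left (by linarith) hw
      _ = _ := by ring
  refine (sum_le_sum h1).trans ?_
  rw [sum_add_distrib, ← mul_sum, ← mul_sum, binom_sum, mul_one]
  have := binom_dev m
  linarith

end Crest.Agent.R153
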