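import Mathlib

/-!
# Row 153, piece C2a: an inequality for falling factorials (pure real analysis)

`(f1+f2)_j/(2n)_j ≤ ((f1)_j/(n)_j + (f2)_j/(n)_j)/2 + j²/n`:
`(f)_j/(2n)_j ≤ (f/2n)^j` (factors `(f-i)/(2n-i) ≤ f/2n`, `f ≤ 2n`), convexity
`((a+b)/2)^j ≤ (a^j+b^j)/2`, and `(f1/n)^j ≤ (f1)_j/(n)_j + j²/n`
(for `f1 ≥ j`: `∏_{i<j} (1 - i/f1) ≥ 1 - j²/f1`, so `(f1)_j ≥ f1^j - j² f1^(j-1)`, `(n)_j ≤ n^j`;
for `f1 < j`: `(f1/n)^j ≤ f1/n ≤ j/n`).
-/

set_option autoImplicit false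

namespace Crest.Agent.R153

private lemma desc_le_pow {f N : ℕ} (hf : f ≤ N) :
    ∀ j : ℕ, j ≤ N → (f.descFactorial j : ℝ) / N.descFactorial j ≤ ((f : ℝ) / N) ^ j
  | 0, _ => by simp
  | j + 1, h => by
    have ih := desc_le_pow hf j (by omega)
    have hN : (0 : ℝ) < N := by
      have : 0 < N := by omega
      exact_mod_cast this
    have hNj : (0 : ℝ) < (N : ℝ) - j := by
      have : j < N := by omega
      have : (j : ℝ) < N := by exact_mod_cast this
      linarith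
    have hD : (0 : ℝ) < N.descFactorial j := by
      have : 0 < N.descFactorial j := Nat.descFactorial_pos.2 (by omega)
      exact_mod_cast this
    rw [Nat.descFactorial_succ, Nat.descFactorial_succ]
    push_cast
    rw [Nat.cast_sub (show j ≤ N by omega), mul_div_mul_comm, pow_succ']
    refine mul_le_mul ?_ ih (by positivity) (by positivity)
    rw [div_le_div_iff₀ hNj hN]
    by_cases hjf : j ≤ f
    · rw [Nat.cast_sub hjf]
      have : (f : ℝ) ≤ N := by exact_mod_cast hf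
      have hj0 : (0 : ℝ) ≤ j := Nat.cast_nonneg _
      nlinarith
    · rw [show f - j = 0 by omega]
      simp only [Nat.cast_zero, zero_mul]
      positivity

private lemma pow_le_desc {f n : ℕ} (hf : f ≤ n) (hn : 1 ≤ n) :
    ∀ j : ℕ, ((f : ℝ) / n) ^ j ≤ (f.descFactorial j : ℝ) / (n : ℝ) ^ j + (j : ℝ) ^ 2 / n
  | 0 => by simp
  | j + 1 => by
    have ih := pow_le_desc hf hn j
    have hn0 : (0 : ℝ) < n := by exact_mod_cast hn
    have hfn : (f : ℝ) ≤ n := by exact_mod_cast hf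
    have hb1 : (f : ℝ) / n ≤ 1 := by rw [div_le_one hn0]; exact hfn
    have hb0 : (0 : ℝ) ≤ (f : ℝ) / n := by positivity
    have hsub : (f : ℝ) / n ≤ ((f - j : ℕ) : ℝ) / n + j / n := by
      rw [← add_div]
      refine div_le_div_of_nonneg_right ?_ hn0.le
      have : f ≤ (f - j) + j := by omega
      exact_mod_cast this
    have hq0 : (0 : ℝ) ≤ (f.descFactorial j : ℝ) / (n : ℝ) ^ j := by positivity
    have hq1 : (f.descFactorial j : ℝ) / (n : ℝ) ^ j ≤ 1 := by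
      rw [div_le_one (by positivity)]
      have : f.descFactorial j ≤ n ^ j :=
        (Nat.descFactorial_le_pow f j).trans (Nat.pow_le_pow_left hf j)
      exact_mod_cast this
    have hj0 : (0 : ℝ) ≤ (j : ℝ) / n := by positivity
    have hj2 : (0 : ℝ) ≤ (j : ℝ) ^ 2 / n := by positivity
    have e1 : ((f.descFactorial (j + 1) : ℕ) : ℝ) / (n : ℝ) ^ (j + 1) =
        (((f - j : ℕ) : ℝ) / n) * ((f.descFactorial j : ℝ) / (n : ℝ) ^ j) := by
      rw [Nat.descFactorial_succ, pow_succ']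
      push_cast
      rw [mul_div_mul_comm]
    have e2 : ((j + 1 : ℕ) : ℝ) ^ 2 / n = (j : ℝ) ^ 2 / n + 2 * (j / n) + 1 / n := by
      push_cast
      field_simp
      ring
    have h1n : (0 : ℝ) ≤ 1 / (n : ℝ) := by positivity
    rw [e1, e2, pow_succ']
    have s1 : (f : ℝ) / n * ((f : ℝ) / n) ^ j ≤
        (f : ℝ) / n * ((f.descFactorial j : ℝ) / (n : ℝ) ^ j + (j : ℝ) ^ 2 / n) :=
      mul_le_mul_of_nonneg_left ih hb0
    have s2 : (f : ℝ) / n * ((j : ℝ) ^ 2 / n) ≤ (j : ℝ) ^ 2 / n := by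
      calc (f : ℝ) / n * ((j : ℝ) ^ 2 / n) ≤ 1 * ((j : ℝ) ^ 2 / n) :=
            mul_le_mul_of_nonneg_right hb1 hj2
        _ = _ := one_mul _
    have s3 : (f : ℝ) / n * ((f.descFactorial j : ℝ) / (n : ℝ) ^ j) ≤
        (((f - j : ℕ) : ℝ) / n + j / n) * ((f.descFactorial j : ℝ) / (n : ℝ) ^ j) :=
      mul_le_mul_of_nonneg_right hsub hq0
    have s4 : (j : ℝ) / n * ((f.descFactorial j : ℝ) / (n : ℝ) ^ j) ≤ j / n := by
      calc (j : ℝ) / n * ((f.descFactorial j : ℝ) / (n : ℝ) ^ j) ≤ (j : ℝ) / n * 1 :=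
            mul_le_mul_of_nonneg_left hq1 hj0
        _ = _ := mul_one _
    rw [mul_add] at s1
    rw [add_mul] at s3
    linarith

private lemma pow_le_desc' {f n j : ℕ} (hf : f ≤ n) (hn : 1 ≤ n) (hj : j ≤ n) :
    ((f : ℝ) / n) ^ j ≤ (f.descFactorial j : ℝ) / n.descFactorial j + (j : ℝ) ^ 2 / n := by
  refine (pow_le_desc hf hn j).trans (add_le_add ?_ le_rfl)
  have hD : (0 : ℝ) < n.descFactorial j := by
    have : 0 < n.descFactorial j := Nat.descFactorial_pos.2 hj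
    exact_mod_cast this
  have hle : (n.descFactorial j : ℝ) ≤ (n : ℝ) ^ j := by
    exact_mod_cast Nat.descFactorial_le_pow n j
  exact div_le_div_of_nonneg_left (by positivity) hD hle

theorem desc_ineq {j n f1 f2 : ℕ} (hj : 1 ≤ j) (h : j ≤ n) (h1 : f1 ≤ n) (h2 : f2 ≤ n) :
    ((f1 + f2).descFactorial j : ℝ) / ((n + n).descFactorial j)
      ≤ ((f1.descFactorial j : ℝ) / n.descFactorial j
          + (f2.descFactorial j : ℝ) / n.descFactorial j) / 2 + (j : ℝ) ^ 2 / n := by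
  have hn : 1 ≤ n := hj.trans h
  have hn0 : (0 : ℝ) < n := by exact_mod_cast hn
  have a1 := desc_le_pow (show f1 + f2 ≤ n + n by omega) j (by omega)
  have a2 := pow_le_desc' h1 hn h
  have a3 := pow_le_desc' h2 hn h
  have hc := (convexOn_pow (𝕜 := ℝ) j).2 (show ((f1 : ℝ) / n) ∈ Set.Ici (0 : ℝ) by
      simp only [Set.mem_Ici]; positivity)
    (show ((f2 : ℝ) / n) ∈ Set.Ici (0 : ℝ) by simp only [Set.mem_Ici]; positivity)
    (show (0 : ℝ) ≤ 1 / 2 by norm_num) (show (0 : ℝ) ≤ 1 / 2 by norm_num) (by norm_num)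
  simp only [smul_eq_mul] at hc
  have e : (((f1 + f2 : ℕ) : ℝ) / ((n + n : ℕ) : ℝ)) = 1 / 2 * ((f1 : ℝ) / n) + 1 / 2 * ((f2 : ℝ) / n) := by
    push_cast
    field_simp
    ring
  rw [e] at a1
  linarith

end Crest.Agent.R153
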