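import Mathlib
import Crest.Agent.R153.CDefs

/-!
# Row 153, piece C1: one clause on `2n` variables raises the energy at most `j²/n` more often than one
clause on a random half

Let `v : St (n+n)`, `u = U v`, `K = Kset u v`, `f = K.card`, `f1` (`f2`) = number of literals of `K` whose
variable is in the first (second) half, `f = f1 + f2`, `f1, f2 ≤ n`.
* `P j (n+n) Ur v = u + (f)_j / ((2n)_j 2^j)` (`P_gt_eq`; `U (v + vc c) = u + 1[U (v+vc c) > u]`);
* `P1 j n Ur v = u + (f1)_j / ((n)_j 2^j)`: a clause `c` on the first half kills iff its literals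
  `(castAdd n (c.1.1 i), c.2 i)` are in `K` (same counting as in `KapBound`); similarly `P2`.
* real inequality (`desc_ineq`): for `f1, f2 ≤ n`, `j ≤ n`, `1 ≤ n`:
  `(f1+f2)_j/(2n)_j ≤ ((f1)_j/(n)_j + (f2)_j/(n)_j)/2 + j²/n`:
  `(f)_j/(2n)_j ≤ (f/2n)^j` (factors `(f-i)/(2n-i) ≤ f/2n`), convexity
  `((a+b)/2)^j ≤ (a^j+b^j)/2`, and `(f1/n)^j ≤ (f1)_j/(n)_j + j²/n`
  (for `f1 ≥ j`: `∏_{i<j} (1 - i/f1) ≥ 1 - j²/f1`, so `(f1)_j ≥ f1^j - j² f1^(j-1)`, `(n)_j ≤ n^j`;
  for `f1 < j`: `(f1/n)^j ≤ f1/n ≤ j/n` if `j ≥ 1`).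
-/

set_option autoImplicit false

namespace Crest.Agent.R153

open Crest.ProbabilityR.RandomSAT Finset

/-- excluded literals with variable in the first half, as literals on `Fin n` -/
def K1 {n : ℕ} (u : ℕ) (v : St (n + n)) : Finset (Fin n × Bool) :=
  univ.filter (fun l => (Fin.castAdd n l.1, l.2) ∈ Kset u v)

/-- excluded literals with variable in the second half, as literals on `Fin n` -/
def K2 {n : ℕ} (u : ℕ) (v : St (n + n)) : Finset (Fin n × Bool) :=
  univ.filter (fun l => (Fin.natAdd n l.1, l.2) ∈ Kset u v)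

theorem card_K1_add {n : ℕ} (u : ℕ) (v : St (n + n)) :
    (K1 u v).card + (K2 u v).card = (Kset u v).card := by
  have h0 : (Kset u v).card = ∑ a : Fin (n + n), ∑ b : Bool, if (a, b) ∈ Kset u v then 1 else 0 := by
    rw [← Fintype.sum_prod_type', Finset.sum_boole]
    simp
  have h1 : (K1 u v).card = ∑ a : Fin n, ∑ b : Bool,
      if (Fin.castAdd n a, b) ∈ Kset u v then 1 else 0 := by
    rw [← Fintype.sum_prod_type' (f := fun (a : Fin n) (b : Bool) =>
      if (Fin.castAdd n a, b) ∈ Kset u v then 1 else 0), Finset.sum_boole]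
    simp [K1]
  have h2 : (K2 u v).card = ∑ a : Fin n, ∑ b : Bool,
      if (Fin.natAdd n a, b) ∈ Kset u v then 1 else 0 := by
    rw [← Fintype.sum_prod_type' (f := fun (a : Fin n) (b : Bool) =>
      if (Fin.natAdd n a, b) ∈ Kset u v then 1 else 0), Finset.sum_boole]
    simp [K2]
  rw [h0, h1, h2, Fin.sum_univ_add]

namespace CLocalAux

/-- number of clauses with all literals in a consistent set `K` -/
theorem card_clauses_in {j n : ℕ} (K : Finset (Fin n × Bool))
    (hK : ∀ x b b', (x, b) ∈ K → (x, b') ∈ K → b = b') :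
    ((univ : Finset (Clause j n)).filter (fun c => ∀ i, (c.1.1 i, c.2 i) ∈ K)).card =
      K.card.descFactorial j := by
  classical
  have e : {c : Clause j n // ∀ i, (c.1.1 i, c.2 i) ∈ K} ≃ (Fin j ↪ K) :=
    { toFun := fun c => ⟨fun i => ⟨(c.1.1.1 i, c.1.2 i), c.2 i⟩, fun i i' h => by
        have h' := congrArg (fun z : K => z.1.1) h
        exact c.1.1.2 h'⟩
      invFun := fun f => ⟨(⟨fun i => (f i).1.1, fun i i' h => by
        apply f.injective
        apply Subtype.ext
        apply Prod.ext h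
        have h1 : ((f i).1.1, (f i).1.2) ∈ K := (f i).2
        have h2 : ((f i').1.1, (f i').1.2) ∈ K := (f i').2
        have h3 : (f i).1.1 = (f i').1.1 := h
        rw [h3] at h1
        exact hK _ _ _ h1 h2⟩, fun i => (f i).1.2), fun i => (f i).2⟩
      left_inv := fun c => rfl
      right_inv := fun f => rfl }
  rw [← Fintype.card_subtype, Fintype.card_congr e, Fintype.card_embedding_eq, Fintype.card_fin,
    Fintype.card_coe]

/-- lift of a state along a map of variables -/
def lfm {n N : ℕ} (φ : Fin n → Fin N) (w : St n) : St N := fun s => w (fun i => s (φ i))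

/-- excluded literals pulled back -/
def Km {n N : ℕ} (φ : Fin n → Fin N) (u : ℕ) (v : St N) : Finset (Fin n × Bool) :=
  univ.filter (fun l => (φ l.1, l.2) ∈ Kset u v)

theorem Km_cons {n N : ℕ} (φ : Fin n → Fin N) (v : St N) :
    ∀ x b b', (x, b) ∈ Km φ (U v) v → (x, b') ∈ Km φ (U v) v → b = b' := by
  intro x b b' h1 h2
  simp only [Km, mem_filter, mem_univ, true_and] at h1 h2
  rw [mem_Kset] at h1 h2
  obtain ⟨s, hs⟩ := exists_U v
  have h3 : s (φ x) ≠ b := fun h => absurd (h1 s h) (by omega)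
  have h4 : s (φ x) ≠ b' := fun h => absurd (h2 s h) (by omega)
  revert h3 h4
  cases s (φ x) <;> cases b <;> cases b' <;> simp

theorem U_lift {j n N : ℕ} (φ : Fin n → Fin N) (v : St N) (c : Clause j n) :
    (U (v + lfm φ (vc c)) : ℝ) =
      U v + if ∀ i, (c.1.1 i, c.2 i) ∈ Km φ (U v) v then 1 else 0 := by
  have hle : U (v + lfm φ (vc c)) ≤ U v + 1 := by
    obtain ⟨s, hs⟩ := exists_U v
    refine (U_le _ s).trans ?_
    have := vc_le_one c (fun i => s (φ i))
    simp only [Pi.add_apply, lfm]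
    omega
  have hge : U v ≤ U (v + lfm φ (vc c)) := U_le_add v _
  split_ifs with h
  · have h1 : U v < U (v + lfm φ (vc c)) := by
      rw [lt_U]
      intro s
      simp only [Pi.add_apply, lfm]
      by_cases hs : U v < v s
      · omega
      · have hvc : vc c (fun i => s (φ i)) = 1 := by
          unfold vc
          rw [if_pos]
          intro i hi
          have h2 := h i
          simp only [Km, mem_filter, mem_univ, true_and] at h2
          rw [mem_Kset] at h2
          exact hs (h2 s hi)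
        have := U_le v s
        omega
    have h2 : U (v + lfm φ (vc c)) = U v + 1 := by omega
    rw [h2]
    push_cast
    ring
  · push Not at h
    obtain ⟨i, hi⟩ := h
    simp only [Km, mem_filter, mem_univ, true_and] at hi
    rw [mem_Kset] at hi
    push Not at hi
    obtain ⟨s, hs1, hs2⟩ := hi
    have h1 : U (v + lfm φ (vc c)) ≤ v s := by
      refine (U_le _ s).trans ?_
      simp only [Pi.add_apply, lfm]
      have : vc c (fun i => s (φ i)) = 0 := by
        unfold vc
        rw [if_neg]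
        push Not
        exact ⟨i, hs1⟩
      omega
    have h2 : U (v + lfm φ (vc c)) = U v := by omega
    rw [h2, add_zero]

theorem Av_lift {j n N : ℕ} (h : j ≤ n) (φ : Fin n → Fin N) (v : St N) :
    Av (fun c : Clause j n => lfm φ (vc c)) Ur v =
      U v + ((Km φ (U v) v).card.descFactorial j : ℝ) / ((n.descFactorial j : ℝ) * 2 ^ j) := by
  have hne := clause_nonempty h
  have hc : (Fintype.card (Clause j n) : ℝ) ≠ 0 := by
    exact_mod_cast Fintype.card_ne_zero
  rw [Av_apply]
  have h1 : ∀ c : Clause j n, Ur (v + lfm φ (vc c)) =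
      U v + if ∀ i, (c.1.1 i, c.2 i) ∈ Km φ (U v) v then 1 else 0 := fun c => U_lift φ v c
  rw [Finset.sum_congr rfl fun c _ => h1 c, Finset.sum_add_distrib, Finset.sum_const,
    Finset.sum_boole, card_clauses_in _ (Km_cons φ v), card_univ, nsmul_eq_mul, mul_add,
    ← mul_assoc, inv_mul_cancel₀ hc, one_mul, card_clause]
  push_cast
  rw [div_eq_mul_inv, mul_comm (((n.descFactorial j : ℝ) * 2 ^ j)⁻¹)]

end CLocalAux

open CLocalAux

theorem P_Ur {j N : ℕ} (h : j ≤ N) (v : St N) :
    P j N Ur v = U v + ((Kset (U v) v).card.descFactorial j : ℝ) /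
      ((N.descFactorial j : ℝ) * 2 ^ j) := by
  have h1 := Av_lift (j := j) h (fun i : Fin N => i) v
  have h2 : Km (fun i : Fin N => i) (U v) v = Kset (U v) v := by
    ext l
    simp [Km]
  rw [h2] at h1
  exact h1

theorem P1_Ur {j n : ℕ} (h : j ≤ n) (v : St (n + n)) :
    P1 j n Ur v = U v + ((K1 (U v) v).card.descFactorial j : ℝ) /
      ((n.descFactorial j : ℝ) * 2 ^ j) :=
  Av_lift (j := j) h (Fin.castAdd n) v

theorem P2_Ur {j n : ℕ} (h : j ≤ n) (v : St (n + n)) :
    P2 j n Ur v = U v + ((K2 (U v) v).card.descFactorial j : ℝ) /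
      ((n.descFactorial j : ℝ) * 2 ^ j) :=
  Av_lift (j := j) h (Fin.natAdd n) v

end Crest.Agent.R153
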