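import Mathlib
import Crest.Agent.R153.CLocal
import Crest.Agent.R153.CDesc

/-! # Row 153, piece C2: the local comparison (see the header of `CLocal`) -/

set_option autoImplicit false

namespace Crest.Agent.R153

open Crest.ProbabilityR.RandomSAT Finset

namespace CConvAux

theorem Km_card_le {n N : ℕ} (φ : Fin n → Fin N) (v : St N) :
    (CLocalAux.Km φ (U v) v).card ≤ n := by
  have h : (CLocalAux.Km φ (U v) v).card ≤ (univ : Finset (Fin n)).card := by
    refine Finset.card_le_card_of_injOn (fun l => l.1) (fun _ _ => mem_coe.2 (mem_univ _)) ?_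
    rintro ⟨x, b⟩ h1 ⟨x', b'⟩ h2 (h3 : x = x')
    subst h3
    rw [CLocalAux.Km_cons φ v x b b' h1 h2]
  simpa using h

end CConvAux

theorem local_compare {j n : ℕ} (hj : 1 ≤ j) (h : j ≤ n) (v : St (n + n)) :
    P j (n + n) Ur v ≤ Psp j n Ur v + (j : ℝ) ^ 2 / n := by
  have h1 : (K1 (U v) v).card ≤ n := CConvAux.Km_card_le (Fin.castAdd n) v
  have h2 : (K2 (U v) v).card ≤ n := CConvAux.Km_card_le (Fin.natAdd n) v
  have hd := desc_ineq hj h h1 h2
  rw [card_K1_add] at hd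
  have e1 := P_Ur (j := j) (N := n + n) (by omega) v
  have e2 := P1_Ur h v
  have e3 := P2_Ur h v
  have e4 : Psp j n Ur v = (P1 j n Ur v + P2 j n Ur v) / 2 := by
    rw [Psp, LinearMap.smul_apply, LinearMap.add_apply]
    simp only [Pi.smul_apply, Pi.add_apply, smul_eq_mul]
    ring
  rw [e4, e1, e2, e3]
  have hp : (0 : ℝ) < 2 ^ j := by positivity
  have hp1 : (1 : ℝ) ≤ 2 ^ j := one_le_pow₀ (by norm_num)
  have hpi : (1 : ℝ) / 2 ^ j ≤ 1 := by rw [div_le_one hp]; exact hp1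
  have hpi0 : (0 : ℝ) ≤ 1 / 2 ^ j := by positivity
  have hδ : (0 : ℝ) ≤ (j : ℝ) ^ 2 / n := by positivity
  have f1 : ∀ a b : ℝ, a / (b * 2 ^ j) = (1 / 2 ^ j) * (a / b) := by
    intro a b
    rw [div_mul_div_comm, one_mul, mul_comm b]
  rw [f1, f1, f1]
  have h5 := mul_le_mul_of_nonneg_left hd hpi0
  have h6 : (1 : ℝ) / 2 ^ j * ((j : ℝ) ^ 2 / n) ≤ (j : ℝ) ^ 2 / n := by
    calc (1 : ℝ) / 2 ^ j * ((j : ℝ) ^ 2 / n) ≤ 1 * ((j : ℝ) ^ 2 / n) :=
          mul_le_mul_of_nonneg_right hpi hδ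
      _ = _ := one_mul _
  rw [mul_add] at h5
  linarith

/-- telescoping: `P^M Ur - Psp^M Ur = ∑_{i<M} P^i Psp^(M-1-i) (P Ur - Psp Ur)` -/
theorem full_le_split {j n : ℕ} (hj : 1 ≤ j) (h : j ≤ n) (M : ℕ) (v : St (n + n)) :
    (P j (n + n) ^ M) Ur v ≤ (Psp j n ^ M) Ur v + M * ((j : ℝ) ^ 2 / n) := by
  have hP : Mk (P j (n + n)) := P_mk (by omega)
  have hS : Mk (Psp j n) := Psp_mk h
  set δ : ℝ := (j : ℝ) ^ 2 / n with hδ
  induction M generalizing v with
  | zero => simp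
  | succ M ih =>
    have h1 : P j (n + n) Ur ≤ Psp j n Ur + fun _ => δ := fun w => local_compare hj h w
    have h2 := (hP.pow M).1.mono h1 v
    rw [map_add, (hP.pow M).const] at h2
    have h3 : (P j (n + n) ^ M) (Psp j n Ur) = Psp j n ((P j (n + n) ^ M) Ur) := by
      have := ((hP.pow M).1.commute hS.1).eq
      exact congrArg (fun T : Module.End ℝ (St (n + n) → ℝ) => T Ur) this
    have h4 : (P j (n + n) ^ M) Ur ≤ (Psp j n ^ M) Ur + fun _ => M * δ := fun w => ih w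
    have h5 := hS.1.mono h4 v
    rw [map_add, hS.const] at h5
    rw [pow_succ, Module.End.mul_apply, pow_succ' (Psp j n), Module.End.mul_apply]
    rw [h3] at h2
    simp only [Pi.add_apply] at h2 h5
    push_cast
    linarith

end Crest.Agent.R153
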