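import Mathlib
import Crest.Agent.R153.CConv
import Crest.Agent.R153.CBinom

/-!
# Row 153, piece C5: doubling and iteration

`full_le_split` with `M = 2m ≤ 2Kn` (error `≤ 2 K j²`), `split_le` (`√m ≤ √K √n`), `1 ≤ √n`;
`EU_dyadic`: `EU(2N)(2M)/(2N) ≤ EU N M/N + (C/2)/√N`, `N = 2^i n`, and `∑_i 2^(-i/2) < 4`.
-/

set_option autoImplicit false

namespace Crest.Agent.R153

open Crest.ProbabilityR.RandomSAT Finset

theorem EU_double {j : ℕ} (hj : 1 ≤ j) (K : ℕ) : ∃ C : ℝ, 0 ≤ C ∧ ∀ n m : ℕ, j ≤ n → m ≤ K * n →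
    EU j (2 * n) (2 * m) ≤ 2 * EU j n m + C * Real.sqrt n := by
  refine ⟨2 * Real.sqrt K + 2 * K * (j : ℝ) ^ 2, by positivity, ?_⟩
  intro n m h hm
  have hn : 1 ≤ n := hj.trans h
  have hn0 : (0 : ℝ) < n := by exact_mod_cast hn
  have h1 := full_le_split hj h (2 * m) 0
  have h2 := split_le h m
  have h3 : Real.sqrt m ≤ Real.sqrt K * Real.sqrt n := by
    rw [← Real.sqrt_mul (Nat.cast_nonneg K)]
    exact Real.sqrt_le_sqrt (by exact_mod_cast hm)
  have h4 : ((2 * m : ℕ) : ℝ) * ((j : ℝ) ^ 2 / n) ≤ 2 * K * (j : ℝ) ^ 2 := by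
    have hm' : (m : ℝ) ≤ K * n := by exact_mod_cast hm
    have e : ((2 * m : ℕ) : ℝ) * ((j : ℝ) ^ 2 / n) = 2 * (j : ℝ) ^ 2 * m / n := by
      push_cast
      ring
    rw [e, div_le_iff₀ hn0]
    have hj2 : (0 : ℝ) ≤ 2 * (j : ℝ) ^ 2 := by positivity
    nlinarith [mul_le_mul_of_nonneg_left hm' hj2]
  have h5 : (1 : ℝ) ≤ Real.sqrt n := by
    rw [Real.one_le_sqrt]
    exact_mod_cast hn
  have h6 : 2 * (K : ℝ) * (j : ℝ) ^ 2 ≤ 2 * (K : ℝ) * (j : ℝ) ^ 2 * Real.sqrt n := by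
    have h0 : (0 : ℝ) ≤ 2 * (K : ℝ) * (j : ℝ) ^ 2 := by positivity
    nlinarith [mul_le_mul_of_nonneg_left h5 h0]
  have h7 : EU j (2 * n) (2 * m) = (P j (n + n) ^ (2 * m)) Ur 0 := by
    rw [two_mul n]
    rfl
  rw [h7]
  nlinarith

/-- iteration: with `C' = C ∑_i 2^{-i/2 - 1}` or so -/
theorem EU_dyadic {j : ℕ} (hj : 1 ≤ j) (K : ℕ) : ∃ C : ℝ, 0 ≤ C ∧ ∀ n m i : ℕ, j ≤ n → m ≤ K * n →
    EU j (2 ^ i * n) (2 ^ i * m) / (2 ^ i * n : ℕ) ≤ EU j n m / n + C / Real.sqrt n := by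
  obtain ⟨C, hC, H⟩ := EU_double hj K
  refine ⟨2 * C, by positivity, ?_⟩
  intro n m i h hm
  have hn : 1 ≤ n := hj.trans h
  have hn0 : (0 : ℝ) < n := by exact_mod_cast hn
  have hs0 : 0 < Real.sqrt n := Real.sqrt_pos.2 hn0
  have key : EU j (2 ^ i * n) (2 ^ i * m) / (2 ^ i * n : ℕ)
      ≤ EU j n m / n + 2 * C / Real.sqrt n * (1 - (3 / 4) ^ i) := by
    induction i with
    | zero => simp
    | succ i ih =>
      have hN : j ≤ 2 ^ i * n := h.trans (Nat.le_mul_of_pos_left n (by positivity))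
      have hM : 2 ^ i * m ≤ K * (2 ^ i * n) := by
        calc 2 ^ i * m ≤ 2 ^ i * (K * n) := Nat.mul_le_mul_left _ hm
          _ = K * (2 ^ i * n) := by ring
      have h1 := H (2 ^ i * n) (2 ^ i * m) hN hM
      have e1 : 2 ^ (i + 1) * n = 2 * (2 ^ i * n) := by ring
      have e2 : 2 ^ (i + 1) * m = 2 * (2 ^ i * m) := by ring
      rw [e1, e2]
      have hNpos : (0 : ℝ) < ((2 ^ i * n : ℕ) : ℝ) := by
        have : 0 < 2 ^ i * n := by positivity
        exact_mod_cast this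
      set N : ℕ := 2 ^ i * n with hNdef
      set M : ℕ := 2 ^ i * m with hMdef
      have h2 : EU j (2 * N) (2 * M) / ((2 * N : ℕ) : ℝ)
          ≤ EU j N M / N + C / 2 * (Real.sqrt N / N) := by
        have e3 : EU j N M / N + C / 2 * (Real.sqrt N / N)
            = (2 * EU j N M + C * Real.sqrt N) / ((2 * N : ℕ) : ℝ) := by
          push_cast
          field_simp
        rw [e3]
        exact div_le_div_of_nonneg_right h1 (by positivity)
      have h3 : Real.sqrt N / N ≤ (3 / 4 : ℝ) ^ i / Real.sqrt n := by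
        have hsN : 0 < Real.sqrt N := Real.sqrt_pos.2 hNpos
        have e4 : Real.sqrt N / N = 1 / Real.sqrt N := by
          rw [div_eq_div_iff hNpos.ne' hsN.ne', one_mul]
          exact Real.mul_self_sqrt hNpos.le
        have h4 : (4 / 3 : ℝ) ^ i * Real.sqrt n ≤ Real.sqrt N := by
          apply Real.le_sqrt_of_sq_le
          rw [mul_pow, Real.sq_sqrt hn0.le, hNdef]
          push_cast
          refine mul_le_mul_of_nonneg_right ?_ hn0.le
          rw [← pow_mul, mul_comm, pow_mul]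
          exact pow_le_pow_left₀ (by positivity) (by norm_num) i
        rw [e4]
        have e5 : (3 / 4 : ℝ) ^ i / Real.sqrt n = 1 / ((4 / 3 : ℝ) ^ i * Real.sqrt n) := by
          rw [← one_div_div (4 : ℝ) 3, one_div_pow, div_div]
        rw [e5]
        exact one_div_le_one_div_of_le (by positivity) h4
      have h5 : C / 2 * (Real.sqrt N / N) ≤ C / 2 * ((3 / 4 : ℝ) ^ i / Real.sqrt n) :=
        mul_le_mul_of_nonneg_left h3 (by positivity)
      have e6 : 2 * C / Real.sqrt n * (1 - (3 / 4) ^ (i + 1))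
          = 2 * C / Real.sqrt n * (1 - (3 / 4) ^ i) + C / 2 * ((3 / 4 : ℝ) ^ i / Real.sqrt n) := by
        rw [pow_succ]
        ring
      rw [e6]
      linarith
  refine key.trans ?_
  have h8 : 2 * C / Real.sqrt n * (1 - (3 / 4) ^ i) ≤ 2 * C / Real.sqrt n := by
    have h9 : (0 : ℝ) ≤ (3 / 4 : ℝ) ^ i := by positivity
    have h10 : (0 : ℝ) ≤ 2 * C / Real.sqrt n := by positivity
    nlinarith
  linarith

end Crest.Agent.R153
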