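import Mathlib

/-!
Row 153 (S0218), part E: a toolkit for primitive recursive functions and predicates.
-/

set_option autoImplicit false

open Finset

namespace Crest.Agent.R153.PR

variable {α : Type} [Primcodable α]

theorem add {f g : α → ℕ} (hf : Primrec f) (hg : Primrec g) : Primrec fun x => f x + g x :=
  Primrec.nat_add.comp hf hg

theorem mul {f g : α → ℕ} (hf : Primrec f) (hg : Primrec g) : Primrec fun x => f x * g x :=
  Primrec.nat_mul.comp hf hg

theorem sub {f g : α → ℕ} (hf : Primrec f) (hg : Primrec g) : Primrec fun x => f x - g x :=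
  Primrec.nat_sub.comp hf hg

theorem div {f g : α → ℕ} (hf : Primrec f) (hg : Primrec g) : Primrec fun x => f x / g x :=
  Primrec.nat_div.comp hf hg

theorem mod {f g : α → ℕ} (hf : Primrec f) (hg : Primrec g) : Primrec fun x => f x % g x :=
  Primrec.nat_mod.comp hf hg

theorem pow {f g : α → ℕ} (hf : Primrec f) (hg : Primrec g) : Primrec fun x => f x ^ g x := by
  have h : Primrec₂ ((· ^ ·) : ℕ → ℕ → ℕ) := Primrec₂.unpaired'.1 Nat.Primrec.pow
  exact h.comp hf hg

theorem npair {f g : α → ℕ} (hf : Primrec f) (hg : Primrec g) :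
    Primrec fun x => Nat.pair (f x) (g x) :=
  Primrec₂.natPair.comp hf hg

/-- Bounded products. -/
theorem prod {g : α → ℕ} {f : α → ℕ → ℕ} (hg : Primrec g)
    (hf : Primrec fun x : α × ℕ => f x.1 x.2) : Primrec fun a => ∏ i ∈ range (g a), f a i := by
  have hh : Primrec₂ fun (a : α) (q : ℕ × ℕ) => q.2 * f a q.1 := by
    refine Primrec.nat_mul.comp ?_ ?_
    · exact Primrec.snd.comp Primrec.snd
    · exact hf.comp (Primrec.pair Primrec.fst (Primrec.fst.comp Primrec.snd))
  refine (Primrec.nat_rec' hg (Primrec.const 1) hh).of_eq fun a => ?_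
  generalize g a = n
  induction n with
  | zero => simp
  | succ n ih => rw [Finset.prod_range_succ, ← ih]

/-- Bounded sums. -/
theorem sum {g : α → ℕ} {f : α → ℕ → ℕ} (hg : Primrec g)
    (hf : Primrec fun x : α × ℕ => f x.1 x.2) : Primrec fun a => ∑ i ∈ range (g a), f a i := by
  have hh : Primrec₂ fun (a : α) (q : ℕ × ℕ) => q.2 + f a q.1 := by
    refine Primrec.nat_add.comp ?_ ?_
    · exact Primrec.snd.comp Primrec.snd
    · exact hf.comp (Primrec.pair Primrec.fst (Primrec.fst.comp Primrec.snd))
  refine (Primrec.nat_rec' hg (Primrec.const 0) hh).of_eq fun a => ?_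
  generalize g a = n
  induction n with
  | zero => simp
  | succ n ih => rw [Finset.sum_range_succ, ← ih]

theorem fact {f : α → ℕ} (hf : Primrec f) : Primrec fun x => Nat.factorial (f x) := by
  have h : Primrec fun a => ∏ i ∈ range (f a), (i + 1) :=
    prod hf (add Primrec.snd (Primrec.const 1))
  refine h.of_eq fun a => ?_
  exact Finset.prod_range_add_one_eq_factorial (f a)

theorem ite {p : α → Prop} [DecidablePred p] {f g : α → ℕ} (hp : PrimrecPred p)
    (hf : Primrec f) (hg : Primrec g) : Primrec fun x => if p x then f x else g x :=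
  Primrec.ite hp hf hg

theorem eq {f g : α → ℕ} (hf : Primrec f) (hg : Primrec g) : PrimrecPred fun x => f x = g x :=
  PrimrecRel.comp Primrec.eq hf hg

theorem le {f g : α → ℕ} (hf : Primrec f) (hg : Primrec g) : PrimrecPred fun x => f x ≤ g x :=
  PrimrecRel.comp Primrec.nat_le hf hg

theorem lt {f g : α → ℕ} (hf : Primrec f) (hg : Primrec g) : PrimrecPred fun x => f x < g x :=
  PrimrecRel.comp Primrec.nat_lt hf hg

theorem and {p q : α → Prop} (hp : PrimrecPred p) (hq : PrimrecPred q) :
    PrimrecPred fun x => p x ∧ q x :=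
  PrimrecPred.and hp hq

theorem imp {p q : α → Prop} (hp : PrimrecPred p) (hq : PrimrecPred q) :
    PrimrecPred fun x => p x → q x :=
  (PrimrecPred.or (PrimrecPred.not hp) hq).of_eq fun a => by tauto

/-- Bounded quantification. -/
theorem ball {g : α → ℕ} {p : α → ℕ → Prop} (hg : Primrec g)
    (hp : PrimrecPred fun x : α × ℕ => p x.1 x.2) :
    PrimrecPred fun a => ∀ i < g a, p a i := by
  classical
  have h1 : Primrec fun x : α × ℕ => if p x.1 x.2 then 1 else 0 :=
    ite hp (Primrec.const 1) (Primrec.const 0)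
  have h2 : Primrec fun a => ∏ i ∈ range (g a), if p a i then 1 else 0 :=
    prod (f := fun a i => if p a i then 1 else 0) hg h1
  refine (eq h2 (Primrec.const 1)).of_eq fun a => ?_
  constructor
  · intro h i hi
    by_contra hn
    have : ∏ i ∈ range (g a), (if p a i then 1 else 0) = 0 :=
      Finset.prod_eq_zero (Finset.mem_range.2 hi) (if_neg hn)
    omega
  · intro h
    refine Finset.prod_eq_one fun i hi => ?_
    rw [if_pos (h i (Finset.mem_range.1 hi))]

/-- Table lookup. -/
theorem getD {l : α → List ℕ} {f : α → ℕ} (hl : Primrec l) (hf : Primrec f) :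
    Primrec fun x => (l x).getD (f x) 0 :=
  (Primrec.list_getD 0).comp hl hf

end Crest.Agent.R153.PR
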