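import Mathlib

/-!
Row 153, computability toolkit: bounded sums, products and quantifiers are primitive recursive;
a real number with primitive recursive certificates on both sides is computable.
-/

set_option autoImplicit false

open Finset

namespace Crest.Agent.R153.EC

variable {α : Type*} [Primcodable α]

theorem primrec_sum_range {f : α → ℕ → ℕ} {g : α → ℕ} (hf : Primrec₂ f) (hg : Primrec g) :
    Primrec (fun a => ∑ i ∈ range (g a), f a i) := by
  have h1 : Primrec₂ (fun (a : α) (n : ℕ) => ∑ i ∈ range n, f a i) := by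
    have h2 : Primrec₂ (fun (a : α) (n : ℕ) =>
        Nat.rec (motive := fun _ => ℕ) 0 (fun i s => s + f a i) n) := by
      refine Primrec.nat_rec (f := fun _ : α => (0 : ℕ))
        (g := fun (a : α) (p : ℕ × ℕ) => p.2 + f a p.1) (Primrec.const 0) ?_
      exact Primrec.nat_add.comp (Primrec.snd.comp Primrec.snd)
        (hf.comp Primrec.fst (Primrec.fst.comp Primrec.snd))
    refine h2.of_eq ?_
    intro a n
    induction n with
    | zero => simp
    | succ n ih => rw [Finset.sum_range_succ, ← ih]
  exact h1.comp Primrec.id hg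

theorem primrec_prod_range {f : α → ℕ → ℕ} {g : α → ℕ} (hf : Primrec₂ f) (hg : Primrec g) :
    Primrec (fun a => ∏ i ∈ range (g a), f a i) := by
  have h1 : Primrec₂ (fun (a : α) (n : ℕ) => ∏ i ∈ range n, f a i) := by
    have h2 : Primrec₂ (fun (a : α) (n : ℕ) =>
        Nat.rec (motive := fun _ => ℕ) 1 (fun i s => s * f a i) n) := by
      refine Primrec.nat_rec (f := fun _ : α => (1 : ℕ))
        (g := fun (a : α) (p : ℕ × ℕ) => p.2 * f a p.1) (Primrec.const 1) ?_
      exact Primrec.nat_mul.comp (Primrec.snd.comp Primrec.snd)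
        (hf.comp Primrec.fst (Primrec.fst.comp Primrec.snd))
    refine h2.of_eq ?_
    intro a n
    induction n with
    | zero => simp
    | succ n ih => rw [Finset.prod_range_succ, ← ih]
  exact h1.comp Primrec.id hg

theorem primrec_pow : Primrec₂ (fun a b : ℕ => a ^ b) := by
  have h := primrec_prod_range (f := fun (x : ℕ × ℕ) (_ : ℕ) => x.1) (g := fun x => x.2)
    (Primrec.fst.comp Primrec.fst) Primrec.snd
  refine h.of_eq ?_
  intro x
  simp

theorem primrec_factorial : Primrec Nat.factorial := by
  have h := primrec_prod_range (f := fun (_ : ℕ) (i : ℕ) => i + 1) (g := fun x => x)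
    (Primrec.succ.comp Primrec.snd) Primrec.id
  refine h.of_eq ?_
  intro x
  exact Finset.prod_range_add_one_eq_factorial x

/-- Bounded universal quantification. -/
theorem primrec_forall_lt {p : α → ℕ → Bool} {g : α → ℕ} (hp : Primrec₂ p) (hg : Primrec g) :
    Primrec (fun a => decide (∀ i < g a, p a i = true)) := by
  have h1 : Primrec (fun a => ∑ i ∈ range (g a), (if p a i = true then 0 else 1)) := by
    refine primrec_sum_range (f := fun a i => if p a i = true then 0 else 1) ?_ hg
    exact Primrec.ite (Primrec.eq.comp hp (Primrec.const true)) (Primrec.const 0)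
      (Primrec.const 1)
  have h2 : Primrec (fun a => decide ((∑ i ∈ range (g a), (if p a i = true then 0 else 1)) = 0)) :=
    (Primrec.eq.comp h1 (Primrec.const 0)).decide
  refine h2.of_eq ?_
  intro a
  apply decide_eq_decide.mpr
  rw [Finset.sum_eq_zero_iff]
  constructor
  · intro h i hi
    have := h i (Finset.mem_range.mpr hi)
    by_contra hc
    rw [if_neg hc] at this
    exact one_ne_zero this
  · intro h i hi
    rw [if_pos (h i (Finset.mem_range.mp hi))]

/-- Bounded existential quantification. -/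
theorem primrec_exists_lt {p : α → ℕ → Bool} {g : α → ℕ} (hp : Primrec₂ p) (hg : Primrec g) :
    Primrec (fun a => decide (∃ i < g a, p a i = true)) := by
  have h1 := primrec_forall_lt (p := fun a i => !(p a i)) (g := g)
    (Primrec.not.comp hp) hg
  refine (Primrec.not.comp h1).of_eq ?_
  intro a
  by_cases h : ∃ i < g a, p a i = true
  · rw [decide_eq_true h]
    obtain ⟨i, hi, hpi⟩ := h
    rw [decide_eq_false]
    · rfl
    · intro hc
      have := hc i hi
      simp [hpi] at this
  · rw [decide_eq_false h, decide_eq_true]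
    · rfl
    · intro i hi
      by_contra hc
      apply h
      refine ⟨i, hi, ?_⟩
      simpa using hc

/-- Entry of the list coded by `c`. -/
def val (c i : ℕ) : ℕ := (Denumerable.ofNat (List ℕ) c).getD i 0

theorem primrec_val : Primrec₂ val := by
  unfold val
  exact Primrec.list_getD 0 |>.comp ((Primrec.ofNat (List ℕ)).comp Primrec.fst) Primrec.snd

/-- Every finitely supported function is the value function of a code. -/
theorem exists_code (f : ℕ → ℕ) (n : ℕ) : ∃ c : ℕ, ∀ i < n, val c i = f i := by
  refine ⟨Encodable.encode ((List.range n).map f), ?_⟩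
  intro i hi
  unfold val
  rw [Denumerable.ofNat_encode]
  simp [List.getD, hi]

/-- A real number with certificates on both sides is computable. -/
theorem computable_of_tests (x : ℝ) (hx : 0 ≤ x) (testL testU : ℕ → ℕ → ℕ → Bool)
    (hL : Primrec (fun y : ℕ × ℕ × ℕ => testL y.1 y.2.1 y.2.2))
    (hU : Primrec (fun y : ℕ × ℕ × ℕ => testU y.1 y.2.1 y.2.2))
    (sL : ∀ a b c, 0 < b → testL a b c = true → (a : ℝ) / b ≤ x)
    (cL : ∀ a b : ℕ, 0 < b → (a : ℝ) / b < x → ∃ c, testL a b c = true)
    (sU : ∀ a b c, 0 < a → 0 < b → testU a b c = true → x ≤ (a : ℝ) / b)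
    (cU : ∀ a b : ℕ, 0 < a → 0 < b → x < (a : ℝ) / b → ∃ c, testU a b c = true) :
    ∃ f : ℕ → ℕ, Computable f ∧ ∀ r : ℕ, |(f r : ℝ) / 2 ^ r - x| ≤ 1 / 2 ^ r := by
  set T : ℕ → ℕ → Bool := fun r n =>
    (decide (n.unpair.1 = 0) || testL (n.unpair.1 - 1) (2 ^ r) n.unpair.2.unpair.1) &&
      testU (n.unpair.1 + 1) (2 ^ r) n.unpair.2.unpair.2 with hT
  have hTp : Primrec₂ T := by
    have ha : Primrec (fun y : ℕ × ℕ => y.2.unpair.1) :=
      Primrec.fst.comp (Primrec.unpair.comp Primrec.snd)
    have hb : Primrec (fun y : ℕ × ℕ => y.2.unpair.2.unpair.1) :=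
      Primrec.fst.comp (Primrec.unpair.comp (Primrec.snd.comp (Primrec.unpair.comp Primrec.snd)))
    have hc : Primrec (fun y : ℕ × ℕ => y.2.unpair.2.unpair.2) :=
      Primrec.snd.comp (Primrec.unpair.comp (Primrec.snd.comp (Primrec.unpair.comp Primrec.snd)))
    have hp : Primrec (fun y : ℕ × ℕ => 2 ^ y.1) :=
      primrec_pow.comp (Primrec.const 2) Primrec.fst
    have h1 : Primrec (fun y : ℕ × ℕ => decide (y.2.unpair.1 = 0)) :=
      (Primrec.eq.comp ha (Primrec.const 0)).decide
    have h2 : Primrec (fun y : ℕ × ℕ => testL (y.2.unpair.1 - 1) (2 ^ y.1)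
        y.2.unpair.2.unpair.1) :=
      hL.comp (Primrec.pair (Primrec.pred.comp ha) (Primrec.pair hp hb))
    have h3 : Primrec (fun y : ℕ × ℕ => testU (y.2.unpair.1 + 1) (2 ^ y.1)
        y.2.unpair.2.unpair.2) :=
      hU.comp (Primrec.pair (Primrec.succ.comp ha) (Primrec.pair hp hc))
    exact Primrec.and.comp (Primrec.or.comp h1 h2) h3
  have hex : ∀ r, ∃ n, T r n = true := by
    intro r
    have h2r : (0 : ℝ) < 2 ^ r := by positivity
    set a := ⌊x * 2 ^ r⌋₊ with ha
    have h1 : x < ((a + 1 : ℕ) : ℝ) / ((2 ^ r : ℕ) : ℝ) := by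
      push_cast
      rw [lt_div_iff₀ h2r]
      exact Nat.lt_floor_add_one _
    obtain ⟨c2, hc2⟩ := cU (a + 1) (2 ^ r) (by omega) (by positivity) h1
    by_cases h0 : a = 0
    · refine ⟨Nat.pair a (Nat.pair 0 c2), ?_⟩
      simp only [hT, Nat.unpair_pair]
      rw [hc2]
      simp [h0]
    · have h2 : ((a - 1 : ℕ) : ℝ) / ((2 ^ r : ℕ) : ℝ) < x := by
        push_cast
        rw [div_lt_iff₀ h2r]
        have h3 : (a : ℝ) ≤ x * 2 ^ r := Nat.floor_le (by positivity)
        have h4 : ((a - 1 : ℕ) : ℝ) < a := by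
          exact_mod_cast Nat.sub_lt (Nat.pos_of_ne_zero h0) one_pos
        linarith
      obtain ⟨c1, hc1⟩ := cL (a - 1) (2 ^ r) (by positivity) h2
      refine ⟨Nat.pair a (Nat.pair c1 c2), ?_⟩
      simp only [hT, Nat.unpair_pair]
      rw [hc1, hc2]
      simp
  have hdom : ∀ r, (Nat.rfind (fun n => Part.some (T r n))).Dom := by
    intro r
    obtain ⟨n, hn⟩ := hex r
    exact Nat.rfind_dom.mpr ⟨n, Part.mem_some_iff.mpr hn.symm, fun _ => trivial⟩
  have hpart : Partrec (fun r => Nat.rfind (fun n => Part.some (T r n))) :=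
    Partrec.rfind (p := fun r n => Part.some (T r n)) (hTp.to_comp)
  set g : ℕ → ℕ := fun r => (Nat.rfind (fun n => Part.some (T r n))).get (hdom r) with hg
  have hgc : Computable g := by
    have : (fun r => Part.some (g r)) = fun r => Nat.rfind (fun n => Part.some (T r n)) := by
      funext r
      exact Part.some_get (hdom r)
    show Partrec (fun r => Part.some (g r))
    rw [this]
    exact hpart
  have hgT : ∀ r, T r (g r) = true := by
    intro r
    have h1 : g r ∈ Nat.rfind (fun n => Part.some (T r n)) := Part.get_mem (hdom r)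
    have h2 := Nat.rfind_spec h1
    exact (Part.mem_some_iff.mp h2).symm
  refine ⟨fun r => (g r).unpair.1, ?_, ?_⟩
  · exact (Primrec.fst.comp Primrec.unpair).to_comp.comp hgc
  · intro r
    have h := hgT r
    have h2r : (0 : ℝ) < 2 ^ r := by positivity
    simp only [hT, Bool.and_eq_true, Bool.or_eq_true, decide_eq_true_eq] at h
    obtain ⟨hl, hu⟩ := h
    have h1 := sU _ _ _ (by omega) (by positivity) hu
    push_cast at h1
    rw [abs_le]
    constructor
    · have h3 : ((g r).unpair.1 + 1 : ℝ) / 2 ^ r = ((g r).unpair.1 : ℝ) / 2 ^ r + 1 / 2 ^ r := by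
        rw [add_div]
      rw [h3] at h1
      linarith
    · show ((g r).unpair.1 : ℝ) / 2 ^ r - x ≤ 1 / 2 ^ r
      rcases hl with h0 | hl
      · rw [h0]
        simp only [Nat.cast_zero, zero_div, zero_sub]
        have : 0 < 1 / (2 : ℝ) ^ r := by positivity
        linarith
      · have h2 := sL _ _ _ (by positivity) hl
        push_cast at h2
        have h3 : ((g r).unpair.1 : ℝ) - 1 ≤ (((g r).unpair.1 - 1 : ℕ) : ℝ) := by
          rcases Nat.eq_zero_or_pos (g r).unpair.1 with h | h
          · rw [h]; simp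
          · rw [Nat.cast_sub h]; simp
        have h4 : (((g r).unpair.1 : ℝ) - 1) / 2 ^ r ≤ x :=
          (div_le_div_of_nonneg_right h3 h2r.le).trans h2
        rw [sub_div] at h4
        linarith

end Crest.Agent.R153.EC
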