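import Mathlib
import Crest.Agent.R153.EUBasic

/-!
# Row 153, piece E1: variance of the ground state energy

`D m v = P^m (U^2) v - (P^m U v)^2` satisfies `D (m+1) = P (D m) + P (R^2) - (P R)^2`, `R = P^m U`,
`|R (v + vc c) - R v| ≤ 1` (translations commute with `P`: `(P^m g) (v + w) = P^m (tau w g) v`,
and `0 ≤ U (v + vc c) - U v ≤ 1`), so `D (m+1) ≤ P (D m) + 1` (variance ≤ second moment around
`R v`); `D 0 = 0`.  Chebyshev: `1[U > x] (x - EU)^2 ≤ (U - EU)^2` pointwise for `x > EU`, and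
`P^m ((U - EU)^2) 0 = P^m (U^2) 0 - EU^2`.
-/

set_option autoImplicit false

namespace Crest.Agent.R153

open Crest.ProbabilityR.RandomSAT Finset

lemma avg_var_le {ι : Type*} [Fintype ι] [Nonempty ι] (x : ι → ℝ) (a : ℝ)
    (h0 : ∀ c, a ≤ x c) (h1 : ∀ c, x c ≤ a + 1) :
    (Fintype.card ι : ℝ)⁻¹ * ∑ c, (x c) ^ 2 - ((Fintype.card ι : ℝ)⁻¹ * ∑ c, x c) ^ 2 ≤ 1 := by
  set N : ℝ := (Fintype.card ι : ℝ) with hN
  have hNpos : 0 < N := by
    rw [hN]
    exact_mod_cast Fintype.card_pos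
  set μ := N⁻¹ * ∑ c, x c with hμ
  have h2 : N⁻¹ * ∑ c, (x c - a) ^ 2 = N⁻¹ * ∑ c, (x c) ^ 2 - 2 * a * μ + a ^ 2 := by
    have h3 : ∑ c, (x c - a) ^ 2 = ∑ c, (x c) ^ 2 - 2 * a * ∑ c, x c + N * a ^ 2 := by
      have : ∀ c, (x c - a) ^ 2 = (x c) ^ 2 - 2 * a * x c + a ^ 2 := fun c => by ring
      simp only [this, sum_add_distrib, sum_sub_distrib, ← mul_sum]
      rw [sum_const, card_univ, nsmul_eq_mul]
    rw [h3, hμ]
    field_simp
  have h3 : N⁻¹ * ∑ c, (x c - a) ^ 2 ≤ 1 := by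
    have h4 : ∑ c, (x c - a) ^ 2 ≤ ∑ _c : ι, (1 : ℝ) := by
      refine sum_le_sum fun c _ => ?_
      have := h0 c
      have := h1 c
      nlinarith
    rw [sum_const, card_univ, nsmul_eq_mul, mul_one, ← hN] at h4
    calc N⁻¹ * ∑ c, (x c - a) ^ 2 ≤ N⁻¹ * N := mul_le_mul_of_nonneg_left h4 (by positivity)
      _ = 1 := inv_mul_cancel₀ hNpos.ne'
  nlinarith [sq_nonneg (μ - a)]

lemma Ur_grow {n : ℕ} (v w : St n) : Ur v ≤ Ur (v + w) := by
  unfold Ur
  exact_mod_cast U_le_add v w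

lemma powP_Ur_add_le {j n : ℕ} (h : j ≤ n) (m : ℕ) (v : St n) (c : Clause j n) :
    (P j n ^ m) Ur (v + vc c) ≤ (P j n ^ m) Ur v + 1 := by
  have hc : (P j n ^ m) * tau (vc c) = tau (vc c) * (P j n ^ m) :=
    (((P_isT j n).pow m).commute (IsT.tau (vc c))).eq
  have h1 : (P j n ^ m) Ur (v + vc c) = (P j n ^ m) (tau (vc c) Ur) v := by
    have := congrArg (fun T : Module.End ℝ (St n → ℝ) => T Ur v) hc
    simp only [Module.End.mul_apply, tau_apply] at this
    exact this.symm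
  have h2 : tau (vc c) (Ur : St n → ℝ) ≤ Ur + 1 := by
    intro w
    simp only [tau_apply, Pi.add_apply, Pi.one_apply, Ur]
    exact_mod_cast U_add_vc_le w c
  have h3 := ((P_isT j n).pow m).mono h2 v
  rw [map_add, ((P_mk h).pow m).2] at h3
  rw [h1]
  exact h3

lemma var_U_le' {j n : ℕ} (h : j ≤ n) (m : ℕ) (v : St n) :
    (P j n ^ m) (Ur ^ 2) v - ((P j n ^ m) Ur v) ^ 2 ≤ m := by
  have hne := clause_nonempty h
  induction m generalizing v with
  | zero => simp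
  | succ m ih =>
    have hN : (0 : ℝ) ≤ (Fintype.card (Clause j n) : ℝ)⁻¹ := by positivity
    have hc : (Fintype.card (Clause j n) : ℝ) ≠ 0 := by
      exact_mod_cast Fintype.card_ne_zero
    rw [pow_succ', Module.End.mul_apply, Module.End.mul_apply, P_apply, P_apply]
    have h1 : (Fintype.card (Clause j n) : ℝ)⁻¹ * ∑ c : Clause j n, (P j n ^ m) (Ur ^ 2) (v + vc c) ≤
        (Fintype.card (Clause j n) : ℝ)⁻¹ * ∑ c : Clause j n, ((P j n ^ m) Ur (v + vc c)) ^ 2 + m := by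
      have h2 : ∑ c : Clause j n, (P j n ^ m) (Ur ^ 2) (v + vc c) ≤
          ∑ c : Clause j n, (((P j n ^ m) Ur (v + vc c)) ^ 2 + m) :=
        sum_le_sum fun c _ => by
          have := ih (v + vc c)
          linarith
      refine (mul_le_mul_of_nonneg_left h2 hN).trans (le_of_eq ?_)
      rw [sum_add_distrib, sum_const, card_univ, nsmul_eq_mul, mul_add]
      congr 1
      field_simp
    have h2 := avg_var_le (fun c : Clause j n => (P j n ^ m) Ur (v + vc c)) ((P j n ^ m) Ur v)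
      (fun c => ((P_isT j n).pow m).grow Ur_grow v (vc c)) (fun c => powP_Ur_add_le h m v c)
    push_cast
    linarith

theorem var_U_le {j n : ℕ} (h : j ≤ n) (m : ℕ) :
    (P j n ^ m) (Ur ^ 2) 0 - (EU j n m) ^ 2 ≤ m := var_U_le' h m 0

/-- lower tail mass: `P(U_m > x) ≤ m / (x - EU)^2` -/
theorem cheb_U {j n : ℕ} (h : j ≤ n) (m : ℕ) {x : ℝ} (hx : EU j n m < x) :
    1 - m / (x - EU j n m) ^ 2 ≤ (P j n ^ m) (fun v => if (U v : ℝ) ≤ x then 1 else 0) 0 := by
  set E := EU j n m with hE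
  have hd : 0 < x - E := by linarith
  have hd2 : 0 < (x - E) ^ 2 := by positivity
  set q : ℝ := ((x - E) ^ 2)⁻¹ with hq
  have hq0 : 0 < q := by positivity
  have h1 : ((1 : St n → ℝ) - q • (Ur ^ 2 - (2 * E) • Ur + (E ^ 2) • (1 : St n → ℝ))) ≤
      fun v => if (U v : ℝ) ≤ x then 1 else 0 := by
    intro v
    simp only [Pi.sub_apply, Pi.one_apply, Pi.smul_apply, Pi.add_apply, Pi.pow_apply,
      smul_eq_mul, mul_one, Ur]
    have h2 : ((U v : ℝ)) ^ 2 - 2 * E * (U v : ℝ) + E ^ 2 = ((U v : ℝ) - E) ^ 2 := by ring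
    rw [h2]
    split_ifs with h3
    · have : 0 ≤ q * ((U v : ℝ) - E) ^ 2 := by positivity
      linarith
    · push Not at h3
      have h4 : (x - E) ^ 2 ≤ ((U v : ℝ) - E) ^ 2 := by nlinarith
      have h5 : q * (x - E) ^ 2 = 1 := inv_mul_cancel₀ hd2.ne'
      have h6 := mul_le_mul_of_nonneg_left h4 hq0.le
      linarith
  have h2 := ((P_isT j n).pow m).mono h1 0
  refine le_trans ?_ h2
  have hone : (P j n ^ m) (1 : St n → ℝ) = 1 := ((P_mk h).pow m).2
  simp only [map_sub, map_add, map_smul, hone, Pi.sub_apply, Pi.one_apply, Pi.smul_apply,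
    Pi.add_apply, smul_eq_mul, mul_one]
  have h3 : (P j n ^ m) Ur 0 = E := rfl
  rw [h3]
  have h4 := var_U_le h m
  rw [← hE] at h4
  have h5 : (m : ℝ) / (x - E) ^ 2 = q * m := by
    rw [hq]; ring
  rw [h5]
  nlinarith

end Crest.Agent.R153
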