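import Mathlib
import Crest.Agent.R153.BLevels
import Crest.Agent.R153.EUVar

/-!
# Row 153, piece EN0: time spent below a level

Let `le x = 1[U ≤ x]`, `β_m = (P^m (le x)) 0`, antitone in `m` (`P (le x) ≤ le x`), and
`le x = ee 0 + low x` for `x ≥ 0`.  For `m0 ≤ A`:
`(A - m0) β_A ≤ ∑_{m0≤m<A} β_m ≤ (A - m0) satProb m0 + ∑_{m<A} P^m (low x) 0` (`satProb` antitone).
This is `key_le`.  `threshold_nonneg`: if `α < 0`, `a = 0` would give `1 = satProb n 0 → 0`.

-/

set_option autoImplicit false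

namespace Crest.Agent.R153

open Crest.ProbabilityR.RandomSAT Finset Filter

theorem threshold_nonneg {j : ℕ} {α : ℝ} (hα : IsSharpThreshold (satProb j) α) : 0 ≤ α := by
  by_contra hneg
  push Not at hneg
  have h1 := (hα 0 le_rfl).2 hneg
  have h2 : ∀ n : ℕ, satProb j n ⌊(0 : ℝ) * n⌋₊ = 1 := by
    intro n
    rw [zero_mul, Nat.floor_zero, satProb_eq, pow_zero]
    simp [ee, U_zero]
  simp only [h2] at h1
  have h3 := tendsto_nhds_unique h1 tendsto_const_nhds
  exact zero_ne_one h3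

private lemma P_le_of_anti {j n : ℕ} (h : j ≤ n) {g : St n → ℝ} (hg : ∀ v w, g (v + w) ≤ g v) :
    P j n g ≤ g := by
  have hne := clause_nonempty h
  have hc : (0 : ℝ) < (Fintype.card (Clause j n) : ℝ) := by
    exact_mod_cast Fintype.card_pos
  intro v
  rw [P_apply]
  have h1 : ∑ c : Clause j n, g (v + vc c) ≤ ∑ _c : Clause j n, g v :=
    sum_le_sum fun c _ => hg v (vc c)
  rw [sum_const, card_univ, nsmul_eq_mul] at h1
  rw [inv_mul_le_iff₀ hc]
  exact h1

private lemma P_pow_anti {j n : ℕ} (h : j ≤ n) {g : St n → ℝ} (hg : ∀ v w, g (v + w) ≤ g v)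
    {m m' : ℕ} (hm : m ≤ m') : (P j n ^ m') g 0 ≤ (P j n ^ m) g 0 := by
  obtain ⟨i, rfl⟩ := Nat.exists_eq_add_of_le hm
  clear hm
  induction i with
  | zero => simp
  | succ i ih =>
    refine le_trans ?_ ih
    rw [← add_assoc, pow_succ, Module.End.mul_apply]
    exact ((P_isT j n).pow (m + i)).mono (P_le_of_anti h hg) 0

theorem satProb_anti {j n : ℕ} (h : j ≤ n) {m m' : ℕ} (hm : m ≤ m') :
    satProb j n m' ≤ satProb j n m := by
  rw [satProb_eq, satProb_eq]
  exact P_pow_anti h ee_zero_anti hm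

theorem key_le {j n : ℕ} (h : j ≤ n) {m0 A : ℕ} (hA : m0 ≤ A) {x : ℝ} (hx : 0 ≤ x) :
    ((A : ℝ) - m0) * (P j n ^ A) (fun v => if (U v : ℝ) ≤ x then 1 else 0) 0
      ≤ ((A : ℝ) - m0) * satProb j n m0 + ∑ m ∈ range A, (P j n ^ m) (low x) 0 := by
  set le : St n → ℝ := fun v => if (U v : ℝ) ≤ x then 1 else 0 with hle
  have hsplit : le = ee 0 + low x := by
    ext v
    simp only [hle, Pi.add_apply, ee, low]
    by_cases h0 : U v = 0
    · simp [h0, hx]
    · have h1 : 1 ≤ U v := Nat.one_le_iff_ne_zero.2 h0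
      by_cases h2 : (U v : ℝ) ≤ x
      · simp [h0, h1, h2]
      · simp [h0, h2]
  have hanti : ∀ v w : St n, le (v + w) ≤ le v := by
    intro v w
    have h1 : (U v : ℝ) ≤ U (v + w) := by exact_mod_cast U_le_add v w
    simp only [hle]
    split_ifs with h2 h3 h3
    · exact le_rfl
    · exact absurd (h1.trans h2) h3
    · norm_num
    · exact le_rfl
  have hlow0 : (0 : St n → ℝ) ≤ low x := by
    intro v
    simp only [low, Pi.zero_apply]
    split_ifs <;> norm_num
  have h1 : ∀ m ∈ Ico m0 A, (P j n ^ A) le 0 ≤ satProb j n m0 + (P j n ^ m) (low x) 0 := by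
    intro m hm
    rw [mem_Ico] at hm
    have h2 := P_pow_anti h hanti hm.2.le
    have h3 : (P j n ^ m) le 0 = satProb j n m + (P j n ^ m) (low x) 0 := by
      rw [hsplit, map_add, satProb_eq]; rfl
    have h4 := satProb_anti h hm.1
    linarith
  have h2 := sum_le_sum h1
  rw [sum_const, Nat.card_Ico, nsmul_eq_mul, Nat.cast_sub hA, sum_add_distrib, sum_const,
    Nat.card_Ico, nsmul_eq_mul, Nat.cast_sub hA] at h2
  refine h2.trans ?_
  have h3 : ∑ m ∈ Ico m0 A, (P j n ^ m) (low x) 0 ≤ ∑ m ∈ range A, (P j n ^ m) (low x) 0 := by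
    refine sum_le_sum_of_subset_of_nonneg ?_ ?_
    · intro m hm
      rw [mem_Ico] at hm
      rw [mem_range]
      exact hm.2
    · intro m _ _
      exact ((P_isT j n).pow m).nonneg hlow0 0
  linarith

end Crest.Agent.R153
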