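import Mathlib
import Crest.Agent.R153.EnergyKey

/-!
# Row 153, pieces EN1 (this file), EN2 (`EnergySmall`): positive energy density above the threshold

EN1 (`energy_pos`): `α ≥ 0` (otherwise `a = 0` would give `satProb n 0 = 1 → 0`).  `α < q'' < q`,
`m0 = ⌊q'' n⌋`, `A = ⌊q n⌋`, `x = e^4 n` with `C e ≤ (q - q'')/8`: eventually `β_A ≤ 1/2`, hence
`EU ≥ e^4 n / 2` (`U ≥ x (1 - le x)`).

EN2 (`energy_small`): if `α < q - C e` choose `α < a < q - C e` (`a ≥ 0`), `m0 = ⌊a N⌋`, `A = ⌊q N⌋`.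
Along the subsequence `β_A ≥ 1 - A/(δ N)^2 → 1` (`cheb_U` with `x = e^4 N`) and `satProb m0 → 0`:
`(A - m0)(β_A - satProb m0) ≤ C e N` gives `q - a ≤ C e` in the limit, contradiction.
-/

set_option autoImplicit false

namespace Crest.Agent.R153

open Crest.ProbabilityR.RandomSAT Finset Filter

theorem energy_pos {k : ℕ} (hk : 2 ≤ k) {α : ℝ} (hα : IsSharpThreshold (satProb (k + 1)) α)
    {q : ℝ} (hq : α < q) :
    ∃ δ : ℝ, 0 < δ ∧ ∀ᶠ n : ℕ in atTop, δ * n ≤ EU (k + 1) n ⌊q * n⌋₊ := by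
  have hα0 := threshold_nonneg hα
  have hq0 : 0 < q := hα0.trans_lt hq
  set r := (α + q) / 2 with hr
  have hr1 : α < r := by rw [hr]; linarith
  have hr2 : r < q := by rw [hr]; linarith
  have hr0 : 0 ≤ r := by linarith
  have hqr : 0 < q - r := sub_pos.2 hr2
  obtain ⟨C, hC, hlev⟩ := levels_time hk ⌈q⌉₊
  set e : ℝ := min 1 ((q - r) / (8 * C)) with he
  have he0 : 0 < e := lt_min one_pos (by positivity)
  have he1 : e ≤ 1 := min_le_left _ _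
  have hCe : C * e ≤ (q - r) / 8 := by
    have h : e ≤ (q - r) / (8 * C) := min_le_right _ _
    calc C * e ≤ C * ((q - r) / (8 * C)) := mul_le_mul_of_nonneg_left h hC.le
      _ = (q - r) / 8 := by field_simp
  refine ⟨e ^ 4 / 2, by positivity, ?_⟩
  have h0 := (hα r hr0).2 hr1
  have h1 : ∀ᶠ n : ℕ in atTop, satProb (k + 1) n ⌊r * n⌋₊ < 1 / 8 :=
    h0.eventually_lt_const (by norm_num)
  have h2 : ∀ᶠ n : ℕ in atTop, 2 / (q - r) ≤ (n : ℝ) :=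
    tendsto_natCast_atTop_atTop.eventually_ge_atTop _
  filter_upwards [h1, h2, eventually_ge_atTop (k + 1)] with n h1 h2 hn
  have hm0A : ⌊r * n⌋₊ ≤ ⌊q * n⌋₊ := Nat.floor_le_floor (by gcongr)
  have hA : (⌊q * n⌋₊ : ℝ) ≤ q * n := Nat.floor_le (by positivity)
  have hAK : ⌊q * n⌋₊ ≤ ⌈q⌉₊ * n := by
    have h3 : q ≤ ⌈q⌉₊ := Nat.le_ceil q
    have h4 : (⌊q * n⌋₊ : ℝ) ≤ ⌈q⌉₊ * n := hA.trans (by gcongr)
    exact_mod_cast h4
  have hm0 : (⌊r * n⌋₊ : ℝ) ≤ r * n := Nat.floor_le (by positivity)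
  have hA' : q * n < ⌊q * n⌋₊ + 1 := Nat.lt_floor_add_one _
  have hn2 : 2 ≤ (q - r) * n := by
    rw [div_le_iff₀ hqr] at h2
    linarith
  have hlow := hlev n ⌊q * n⌋₊ hn hAK e he0 he1
  have hx : 0 ≤ e ^ 4 * n := by positivity
  have hkey := key_le hn hm0A hx
  set β : ℝ := (P (k + 1) n ^ ⌊q * n⌋₊) (fun v => if (U v : ℝ) ≤ e ^ 4 * n then 1 else 0) 0
    with hβ
  have hD : (q - r) * n / 2 ≤ (⌊q * n⌋₊ : ℝ) - ⌊r * n⌋₊ := by linarith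
  have hD0 : 0 < (⌊q * n⌋₊ : ℝ) - ⌊r * n⌋₊ := by linarith
  have hβ1 : β ≤ 1 / 2 := by
    have h5 : ((⌊q * n⌋₊ : ℝ) - ⌊r * n⌋₊) * satProb (k + 1) n ⌊r * n⌋₊
        ≤ ((⌊q * n⌋₊ : ℝ) - ⌊r * n⌋₊) * (1 / 8) := mul_le_mul_of_nonneg_left h1.le hD0.le
    have h6 : C * e * n ≤ (q - r) / 8 * n := by gcongr
    have h7 : ((⌊q * n⌋₊ : ℝ) - ⌊r * n⌋₊) * β ≤ ((⌊q * n⌋₊ : ℝ) - ⌊r * n⌋₊) * (1 / 2) := by
      linarith
    exact le_of_mul_le_mul_left h7 hD0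
  have hmono : (e ^ 4 * n) • ((1 : St n → ℝ) - fun v => if (U v : ℝ) ≤ e ^ 4 * n then 1 else 0)
      ≤ Ur := by
    intro v
    simp only [Pi.smul_apply, Pi.sub_apply, Pi.one_apply, smul_eq_mul, Ur]
    split_ifs with h8
    · simp
    · push Not at h8
      linarith
  have h9 := ((P_isT (k + 1) n).pow ⌊q * n⌋₊).mono hmono 0
  rw [map_smul, map_sub, ((P_mk hn).pow _).2] at h9
  simp only [Pi.smul_apply, Pi.sub_apply, Pi.one_apply, smul_eq_mul] at h9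
  rw [← hβ] at h9
  calc e ^ 4 / 2 * n = e ^ 4 * n * (1 / 2) := by ring
    _ ≤ e ^ 4 * n * (1 - β) := mul_le_mul_of_nonneg_left (by linarith) hx
    _ ≤ EU (k + 1) n ⌊q * n⌋₊ := h9

end Crest.Agent.R153
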