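import Mathlib
import Crest.Agent.R153.Energy

/-! # Row 153, piece EN2 (see the header of `Energy`) -/

set_option autoImplicit false

namespace Crest.Agent.R153

open Crest.ProbabilityR.RandomSAT Finset Filter

theorem energy_small {k : ℕ} (hk : 2 ≤ k) (K : ℕ) : ∃ C : ℝ, 0 < C ∧ ∀ α : ℝ,
    IsSharpThreshold (satProb (k + 1)) α → ∀ q : ℝ, 0 ≤ q → q ≤ K → ∀ e : ℝ, 0 < e → e ≤ 1 →
    ∀ δ : ℝ, 0 < δ → (∃ᶠ N : ℕ in atTop, EU (k + 1) N ⌊q * N⌋₊ ≤ (e ^ 4 - δ) * N) →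
    q - C * e ≤ α := by
  obtain ⟨C, hC, hlev⟩ := levels_time hk K
  refine ⟨C, hC, ?_⟩
  intro α hα q hq0 hqK e he he1 δ hδ hfreq
  by_contra hcon
  have hcon' : α < q - C * e := not_le.1 hcon
  obtain ⟨a, ha1, ha2⟩ := exists_between hcon'
  have hα0 := threshold_nonneg hα
  have ha0 : 0 ≤ a := by linarith
  have hsat := (hα a ha0).2 ha1
  have hinv : Tendsto (fun N : ℕ => (1 : ℝ) / N) atTop (nhds 0) :=
    tendsto_one_div_atTop_nhds_zero_nat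
  have hε : Tendsto (fun N : ℕ => 1 - ((K : ℝ) / δ ^ 2) * (1 / (N : ℝ)) -
      satProb (k + 1) N ⌊a * N⌋₊) atTop (nhds (1 - ((K : ℝ) / δ ^ 2) * 0 - 0)) :=
    (tendsto_const_nhds.sub (tendsto_const_nhds.mul hinv)).sub hsat
  have hg : Tendsto (fun N : ℕ => ((q - a) - 1 / (N : ℝ)) *
      (1 - ((K : ℝ) / δ ^ 2) * (1 / (N : ℝ)) - satProb (k + 1) N ⌊a * N⌋₊)) atTop
      (nhds (((q - a) - 0) * (1 - ((K : ℝ) / δ ^ 2) * 0 - 0))) :=
    (tendsto_const_nhds.sub hinv).mul hε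
  have hg1 : ∀ᶠ N : ℕ in atTop, C * e < ((q - a) - 1 / (N : ℝ)) *
      (1 - ((K : ℝ) / δ ^ 2) * (1 / (N : ℝ)) - satProb (k + 1) N ⌊a * N⌋₊) := by
    refine hg.eventually_const_lt ?_
    have : ((q - a) - 0) * (1 - ((K : ℝ) / δ ^ 2) * 0 - 0) = q - a := by ring
    rw [this]; linarith
  have hε1 : ∀ᶠ N : ℕ in atTop, 0 < (1 - ((K : ℝ) / δ ^ 2) * (1 / (N : ℝ)) -
      satProb (k + 1) N ⌊a * N⌋₊) := by
    refine hε.eventually_const_lt ?_
    norm_num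
  obtain ⟨N, hN, hNg, hNe, hNk⟩ :=
    (hfreq.and_eventually (hg1.and (hε1.and (eventually_ge_atTop (k + 1))))).exists
  have hNpos : (0 : ℝ) < N := by
    have : 0 < N := by omega
    exact_mod_cast this
  set A : ℕ := ⌊q * N⌋₊ with hA
  set m0 : ℕ := ⌊a * N⌋₊ with hm0
  have haq : a ≤ q := by nlinarith
  have hmA : m0 ≤ A := Nat.floor_le_floor (by nlinarith)
  have hAq : (A : ℝ) ≤ q * N := Nat.floor_le (by positivity)
  have hAq' : q * N - 1 < (A : ℝ) := Nat.sub_one_lt_floor _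
  have hma : (m0 : ℝ) ≤ a * N := Nat.floor_le (by positivity)
  have hAK : (A : ℝ) ≤ K * N := hAq.trans (by nlinarith)
  have hAK' : A ≤ K * N := by exact_mod_cast hAK
  have hx : (0 : ℝ) ≤ e ^ 4 * N := by positivity
  have hkey := key_le (j := k + 1) (n := N) hNk hmA hx
  have hl := hlev N A hNk hAK' e he he1
  have hxEU : δ * N ≤ e ^ 4 * N - EU (k + 1) N A := by nlinarith
  have hδN : 0 < δ * (N : ℝ) := by positivity
  have hcheb := cheb_U (j := k + 1) (n := N) hNk A (x := e ^ 4 * N) (by linarith)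
  have hsq : (δ * N) ^ 2 ≤ (e ^ 4 * N - EU (k + 1) N A) ^ 2 := by
    gcongr
  have hfrac : (A : ℝ) / (e ^ 4 * N - EU (k + 1) N A) ^ 2 ≤ ((K : ℝ) / δ ^ 2) * (1 / (N : ℝ)) := by
    calc (A : ℝ) / (e ^ 4 * N - EU (k + 1) N A) ^ 2 ≤ (K * N) / (δ * N) ^ 2 := by
          gcongr
      _ = ((K : ℝ) / δ ^ 2) * (1 / (N : ℝ)) := by
          field_simp
  set β : ℝ := (P (k + 1) N ^ A) (fun v => if (U v : ℝ) ≤ e ^ 4 * N then 1 else 0) 0 with hβ
  have hβ1 : 1 - ((K : ℝ) / δ ^ 2) * (1 / (N : ℝ)) ≤ β := by linarith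
  have hdiff : (q - a) * N - 1 ≤ (A : ℝ) - m0 := by nlinarith
  have hdiff0 : (0 : ℝ) ≤ (A : ℝ) - m0 := by
    have : (m0 : ℝ) ≤ A := by exact_mod_cast hmA
    linarith
  have h1 : ((A : ℝ) - m0) * (1 - ((K : ℝ) / δ ^ 2) * (1 / (N : ℝ)) -
      satProb (k + 1) N m0) ≤ C * e * N := by
    have h2 := mul_le_mul_of_nonneg_left hβ1 hdiff0
    nlinarith
  have h3 : ((q - a) * N - 1) * (1 - ((K : ℝ) / δ ^ 2) * (1 / (N : ℝ)) -
      satProb (k + 1) N m0) ≤ C * e * N :=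
    (mul_le_mul_of_nonneg_right hdiff hNe.le).trans h1
  have h4 : ((q - a) * N - 1) = N * ((q - a) - 1 / (N : ℝ)) := by
    field_simp
  rw [h4, mul_assoc] at h3
  have h5 : (N : ℝ) * (((q - a) - 1 / (N : ℝ)) * (1 - ((K : ℝ) / δ ^ 2) * (1 / (N : ℝ)) -
      satProb (k + 1) N m0)) > N * (C * e) := by
    exact mul_lt_mul_of_pos_left hNg hNpos
  linarith

end Crest.Agent.R153
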