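import Mathlib
import Crest.Agent.R153.Defs

/-!
# Row 153, piece FM: first moment bound

`ee 0 v ≤ ∑_s 1[v s = 0]`, and for `φ_s v = 1[v s = 0]`: `P j n φ_s = (1 - 2^{-j}) φ_s` for `j ≤ n`
(a uniform clause is violated by `s` with probability `2^{-j}`: for every choice of the variables
exactly one choice of the signs; in the type `Clause = {v // Injective v} × (Fin j → Bool)`).
-/

set_option autoImplicit false

namespace Crest.Agent.R153

open Crest.ProbabilityR.RandomSAT Finset

/-- the number of clauses violated by `s` -/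
theorem sum_vc {j n : ℕ} (s : Asg n) :
    (2 : ℝ) ^ j * ∑ c : Clause j n, (vc c s : ℝ) = Fintype.card (Clause j n) := by
  have h1 : ∀ i : {v : Fin j → Fin n // Function.Injective v},
      ∑ x : Fin j → Bool, ((vc ((i, x) : Clause j n) s : ℕ) : ℝ) = 1 := by
    intro i
    rw [sum_eq_single (fun t => !(s (i.1 t)))]
    · simp [vc]
    · intro x _ hx
      have : ¬ ∀ t, s (i.1 t) ≠ x t := by
        intro h
        apply hx
        funext t
        have := h t
        revert this
        cases s (i.1 t) <;> cases x t <;> simp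
      simp only [vc]
      rw [if_neg this, Nat.cast_zero]
    · intro h; exact absurd (mem_univ _) h
  rw [Fintype.sum_prod_type, sum_congr rfl fun i _ => h1 i, sum_const, card_univ, nsmul_eq_mul,
    mul_one, Fintype.card_prod, Fintype.card_fun, Fintype.card_bool, Fintype.card_fin]
  push_cast
  ring

theorem P_vanish {j n : ℕ} (h : j ≤ n) (s : Asg n) :
    P j n (fun v => if v s = 0 then 1 else 0)
      = (1 - (1 / 2 : ℝ) ^ j) • (fun v => if v s = 0 then (1 : ℝ) else 0) := by
  have hne := clause_nonempty h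
  have hc : (Fintype.card (Clause j n) : ℝ) ≠ 0 := by
    exact_mod_cast Fintype.card_ne_zero
  ext v
  rw [P_apply]
  simp only [Pi.smul_apply, smul_eq_mul, Pi.add_apply]
  by_cases hv : v s = 0
  · have h1 : ∀ c : Clause j n, (if v s + vc c s = 0 then (1 : ℝ) else 0) = 1 - (vc c s : ℝ) := by
      intro c
      have := vc_le_one c s
      interval_cases h2 : vc c s
      · simp [hv]
      · simp [hv]
    rw [sum_congr rfl fun c _ => h1 c, sum_sub_distrib, sum_const, card_univ, nsmul_eq_mul,
      mul_one, if_pos hv, mul_one]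
    have h3 := sum_vc (j := j) s
    have h4 : (1 / 2 : ℝ) ^ j * 2 ^ j = 1 := by rw [← mul_pow]; norm_num
    have h5 : ∑ c : Clause j n, (vc c s : ℝ) = (1 / 2 : ℝ) ^ j * Fintype.card (Clause j n) := by
      rw [← h3, ← mul_assoc, h4, one_mul]
    rw [h5]
    field_simp
  · have h1 : ∀ c : Clause j n, (if v s + vc c s = 0 then (1 : ℝ) else 0) = 0 := by
      intro c
      rw [if_neg]
      omega
    rw [sum_congr rfl fun c _ => h1 c, if_neg hv]
    simp

theorem P_pow_vanish {j n : ℕ} (h : j ≤ n) (s : Asg n) (m : ℕ) :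
    (P j n ^ m) (fun v => if v s = 0 then 1 else 0)
      = ((1 - (1 / 2 : ℝ) ^ j) ^ m) • (fun v => if v s = 0 then (1 : ℝ) else 0) := by
  induction m with
  | zero => simp
  | succ m ih =>
    rw [pow_succ, Module.End.mul_apply, P_vanish h, map_smul, ih, smul_smul, pow_succ, mul_comm]

theorem first_moment {j n : ℕ} (h : j ≤ n) (m : ℕ) :
    (P j n ^ m) (ee 0) 0 ≤ 2 ^ n * (1 - (1 / 2 : ℝ) ^ j) ^ m := by
  have h1 : (ee 0 : St n → ℝ) ≤ ∑ s : Asg n, (fun v : St n => if v s = 0 then (1 : ℝ) else 0) := by
    intro v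
    rw [Finset.sum_apply]
    unfold ee
    split_ifs with hv
    · obtain ⟨s, hs⟩ := exists_U v
      rw [hv] at hs
      calc (1 : ℝ) = if v s = 0 then (1 : ℝ) else 0 := by rw [if_pos hs]
        _ ≤ ∑ s : Asg n, if v s = 0 then (1 : ℝ) else 0 :=
          single_le_sum (f := fun s : Asg n => if v s = 0 then (1 : ℝ) else 0)
            (fun i _ => by positivity) (mem_univ s)
    · exact sum_nonneg fun i _ => by positivity
  refine (((P_isT j n).pow m).mono h1 0).trans_eq ?_
  rw [map_sum, sum_congr rfl fun s _ => P_pow_vanish h s m, Finset.sum_apply]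
  simp

end Crest.Agent.R153
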