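import Mathlib
import Crest.Agent.R153.S1

/-!
# Row 153, piece Q1a: the two-time sum, recursion step (level `0`)

`Qs k n A r = ∑_{a+b<A} (P_k^r P_{k+1}^a [κ P_{k+1}^b (κ e)]) (0)`, level `0`.

`Q1_step`: assume `S1 k n A 0 r ≤ C0 (1+r)` for `n, n+1` (hypotheses `h1`, `h2`).
`one_step` with `m = kap 0`, `m' = kap 0 + 1/(n+1)` (`kap_rho`), summed over `a < A`, `b < A - a`;
`nb2` with `θ = (k+1)/(n+1)`, `L = K (k+1)`.
* `X k n m' = X k n κ + (1/(n+1)) X k n 1` (`X_add_m`, `X_smul_m`);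
* `X k n 1 a r b g = X k n 1 (a+b) r 0 g`, `hh k 0 ≤ κ e` (`hh_le`, `k ≥ 1`), so
  `(1/(n+1)) ∑_{a+b<A} X k n 1 a (r+t) b (hh k 0) ≤ (A/(n+1)) S1 k n A 0 (r+t) ≤ K C0 (1+r+t)`;
* `hh_interp`: `∑_{a+b<A} X k n κ a r' b (hh k 0) ≤ η Qs k n A r' +
  η⁻¹ ∑_{a+b<A} X k n κ a r' b (κ^(k+1) e)`, and by `sum_kap_pow_le_zero` the last sum is at most
  `C' ∑_{a<A} X k n κ a r' 0 (ee 0) = C' S1 k n A 0 r'` (`κ * ee = κ * ee`);
* background: `P^b (ee 0) ≤ ee 0` (`P_pow_ee_zero_le`), so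
  `r (k/(n+1)) ∑_{a+b<A} X k (n+1) κ a r b (ee 0) ≤ r (k/(n+1)) A S1 k (n+1) A 0 r ≤ r k K C0 (1+r)`.
* `∑_t (1/2)^t (1+r+t) ≤ 4 (1+r)`.
-/

set_option autoImplicit false

namespace Crest.Agent.R153

open Crest.ProbabilityR.RandomSAT Finset

noncomputable def Qs (k n A r : ℕ) : ℝ :=
  ∑ a ∈ range A, ∑ b ∈ range (A - a), X k n (kap 0) a r b (kap 0 * ee 0)

/-! ### helper lemmas -/

theorem X_one_add (k n a r b : ℕ) (g : St n → ℝ) : X k n 1 a r b g = X k n 1 (a + b) r 0 g := by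
  simp only [X, one_mul, pow_zero, Module.End.one_apply, pow_add, Module.End.mul_apply]

theorem X_kap_ee (k n a r : ℕ) :
    X k n (kap 0) a r 0 (ee 0) = X k n 1 a r 0 (kap 0 * ee 0) := by
  simp only [X, one_mul, pow_zero, Module.End.one_apply]

theorem hh_le_kap {k n : ℕ} (hk : 1 ≤ k) (hn : k ≤ n) : (hh k 0 : St n → ℝ) ≤ kap 0 * ee 0 := by
  intro v
  refine (hh_le 0 hn v).trans ?_
  exact mul_le_mul_of_nonneg_right
    (pow_le_of_le_one (kap_nonneg 0 v) (kap_le_one 0 v) (by omega)) (ee_nonneg 0 v)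

theorem sum_tri_le (A : ℕ) (f : ℕ → ℝ) (hf : ∀ s, 0 ≤ f s) :
    ∑ a ∈ range A, ∑ b ∈ range (A - a), f (a + b) ≤ A * ∑ s ∈ range A, f s := by
  calc _ ≤ ∑ a ∈ range A, ∑ s ∈ range A, f s := by
        refine sum_le_sum fun a _ => ?_
        rw [← sum_Ico_eq_sum_range]
        refine sum_le_sum_of_subset_of_nonneg ?_ fun i _ _ => hf i
        intro i hi
        rw [mem_Ico] at hi
        exact mem_range.2 hi.2
    _ = _ := by rw [sum_const, card_range, nsmul_eq_mul]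

theorem Q1_part_one {k n : ℕ} (hk : 1 ≤ k) (hn : k ≤ n) (A r : ℕ) :
    ∑ a ∈ range A, ∑ b ∈ range (A - a), X k n 1 a r b (hh k 0) ≤ A * S1 k n A 0 r := by
  have h1 : ∀ a b, X k n 1 a r b (hh k 0) ≤ X k n 1 (a + b) r 0 (kap 0 * ee 0) := by
    intro a b
    rw [X_one_add]
    exact X_mono zero_le_one (hh_le_kap hk hn) _ _ _
  calc _ ≤ ∑ a ∈ range A, ∑ b ∈ range (A - a), X k n 1 (a + b) r 0 (kap 0 * ee 0) :=
        sum_le_sum fun a _ => sum_le_sum fun b _ => h1 a b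
    _ ≤ _ := sum_tri_le A (fun s => X k n 1 s r 0 (kap 0 * ee 0))
        (fun s => X_nonneg zero_le_one (mul_nonneg (kap_nonneg 0) (ee_nonneg 0)) _ _ _)

theorem X_sum_b (k n : ℕ) (m : St n → ℝ) (a r : ℕ) (g : St n → ℝ) (B : ℕ) :
    ∑ b ∈ range B, X k n m a r b g
      = ((P k n ^ r) ((P (k + 1) n ^ a) (m * ∑ b ∈ range B, (P (k + 1) n ^ b) g))) 0 := by
  simp only [X, mul_sum, map_sum, Finset.sum_apply]

theorem Q1_part_pow {k n : ℕ} (hn : k + 1 ≤ n) (A r : ℕ) :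
    ∑ a ∈ range A, ∑ b ∈ range (A - a), X k n (kap 0) a r b (kap 0 ^ (k + 1) * ee 0)
      ≤ (2 ^ (k + 1) + A * ((k + 1 : ℝ) / n)) * S1 k n A 0 r := by
  have hn0 : (0 : ℝ) < n := by
    have : 0 < n := by omega
    exact_mod_cast this
  have h1 : ∀ a, ∑ b ∈ range (A - a), X k n (kap 0) a r b (kap 0 ^ (k + 1) * ee 0)
      ≤ (2 ^ (k + 1) + A * ((k + 1 : ℝ) / n)) * X k n 1 a r 0 (kap 0 * ee 0) := by
    intro a
    rw [X_sum_b, ← X_kap_ee, ← X_smul]
    unfold X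
    refine ((P_isT k n).pow r).mono (((P_isT (k + 1) n).pow a).mono ?_) 0
    intro v
    simp only [Pi.mul_apply, pow_zero, Module.End.one_apply, Pi.smul_apply, smul_eq_mul]
    refine mul_le_mul_of_nonneg_left ?_ (kap_nonneg 0 v)
    refine (sum_kap_pow_le_zero hn (A - a) v).trans ?_
    refine mul_le_mul_of_nonneg_right ?_ (ee_nonneg 0 v)
    have h2 : ((A - a : ℕ) : ℝ) ≤ A := by exact_mod_cast Nat.sub_le A a
    gcongr
  calc _ ≤ ∑ a ∈ range A, (2 ^ (k + 1) + A * ((k + 1 : ℝ) / n)) * X k n 1 a r 0 (kap 0 * ee 0) :=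
        sum_le_sum fun a _ => h1 a
    _ = _ := by rw [← mul_sum]; rfl

theorem Q1_part_kap {k n : ℕ} (hk : 2 ≤ k) (hn : k + 1 ≤ n) (A r : ℕ) {η : ℝ} (hη0 : 0 < η)
    (hη1 : η ≤ 1) :
    ∑ a ∈ range A, ∑ b ∈ range (A - a), X k n (kap 0) a r b (hh k 0)
      ≤ η * Qs k n A r + η⁻¹ * ((2 ^ (k + 1) + A * ((k + 1 : ℝ) / n)) * S1 k n A 0 r) := by
  have h1 : ∀ a b, X k n (kap 0) a r b (hh k 0)
      ≤ η * X k n (kap 0) a r b (kap 0 * ee 0)
        + η⁻¹ * X k n (kap 0) a r b (kap 0 ^ (k + 1) * ee 0) := by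
    intro a b
    rw [← X_smul, ← X_smul, ← X_add]
    refine X_mono (kap_nonneg 0) ?_ _ _ _
    intro v
    exact hh_interp hk (by omega) 0 hη0 hη1 v
  calc _ ≤ ∑ a ∈ range A, ∑ b ∈ range (A - a), (η * X k n (kap 0) a r b (kap 0 * ee 0)
        + η⁻¹ * X k n (kap 0) a r b (kap 0 ^ (k + 1) * ee 0)) :=
        sum_le_sum fun a _ => sum_le_sum fun b _ => h1 a b
    _ = η * Qs k n A r + η⁻¹ * ∑ a ∈ range A, ∑ b ∈ range (A - a),
          X k n (kap 0) a r b (kap 0 ^ (k + 1) * ee 0) := by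
        simp only [sum_add_distrib, ← mul_sum]
        rfl
    _ ≤ _ := by
        gcongr
        exact Q1_part_pow hn A r

theorem Q1_part_bg {k n : ℕ} (hn : k + 1 ≤ n) (A r : ℕ) :
    ∑ a ∈ range A, ∑ b ∈ range (A - a), X k n (kap 0) a r b (ee 0) ≤ A * S1 k n A 0 r := by
  have h1 : ∀ a b, X k n (kap 0) a r b (ee 0) ≤ X k n 1 a r 0 (kap 0 * ee 0) := by
    intro a b
    rw [← X_kap_ee]
    unfold X
    refine ((P_isT k n).pow r).mono (((P_isT (k + 1) n).pow a).mono ?_) 0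
    intro v
    simp only [Pi.mul_apply, pow_zero, Module.End.one_apply]
    exact mul_le_mul_of_nonneg_left (P_pow_ee_zero_le hn b v) (kap_nonneg 0 v)
  calc _ ≤ ∑ a ∈ range A, ∑ b ∈ range (A - a), X k n 1 a r 0 (kap 0 * ee 0) :=
        sum_le_sum fun a _ => sum_le_sum fun b _ => h1 a b
    _ ≤ ∑ a ∈ range A, A * X k n 1 a r 0 (kap 0 * ee 0) := by
        refine sum_le_sum fun a _ => ?_
        rw [sum_const, card_range, nsmul_eq_mul]
        have h0 : 0 ≤ X k n 1 a r 0 (kap 0 * ee 0) :=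
          X_nonneg zero_le_one (mul_nonneg (kap_nonneg 0) (ee_nonneg 0)) _ _ _
        have h2 : ((A - a : ℕ) : ℝ) ≤ A := by exact_mod_cast Nat.sub_le A a
        gcongr
    _ = _ := by rw [← mul_sum]; rfl

/-- trivial bound -/
theorem Qs_le {k n : ℕ} (hn : k + 1 ≤ n) (A r : ℕ) : Qs k n A r ≤ (A : ℝ) ^ 2 := by
  unfold Qs
  calc _ ≤ ∑ a ∈ range A, ∑ b ∈ range (A - a), (1 : ℝ) := by
        refine sum_le_sum fun a _ => sum_le_sum fun b _ =>
          X_le_one hn (kap_nonneg 0) (kap_le_one 0) ?_ a r b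
        intro v
        exact mul_le_one₀ (kap_le_one 0 v) (ee_nonneg 0 v) (ee_le_one 0 v)
    _ ≤ ∑ a ∈ range A, (A : ℝ) := by
        refine sum_le_sum fun a _ => ?_
        rw [sum_const, card_range, nsmul_eq_mul, mul_one]
        exact_mod_cast Nat.sub_le A a
    _ = (A : ℝ) ^ 2 := by
        rw [sum_const, card_range, nsmul_eq_mul]
        ring

set_option maxHeartbeats 1600000 in
theorem Q1_step {k : ℕ} (hk : 2 ≤ k) (K : ℕ) (C0 : ℝ) (hC0 : 0 ≤ C0) :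
    ∃ C Cw : ℝ, 0 ≤ C ∧ 0 < Cw ∧ ∀ n A : ℕ, 4 * (k + 1) ≤ n + 1 → A ≤ K * (n + 1) →
      (∀ r : ℕ, S1 k n A 0 r ≤ C0 * (1 + r)) → (∀ r : ℕ, S1 k (n + 1) A 0 r ≤ C0 * (1 + r)) →
      ∀ η : ℝ, 0 < η → η ≤ 1 → ∀ r : ℕ,
        Qs k (n + 1) A r ≤ C / η * (1 + r) ^ 2
          + ∑ t ∈ range A, Cw * (1 / 2) ^ t * (η * Qs k n A (r + t)) := by
  obtain ⟨c1, hc1, hg⟩ := geom_poly_sum 1
  set L : ℝ := K * (k + 1) with hL
  have hL0 : 0 ≤ L := by positivity
  set W : ℝ := (2 * Real.exp (2 * L)) ^ 2 with hW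
  have hW0 : 0 < W := by positivity
  set E : ℝ := (2 ^ (k + 1) + 2 * L) * C0 + K * C0 with hE
  have hE0 : 0 ≤ E := by positivity
  refine ⟨W * E * c1 + k * K * C0, W, by positivity, hW0, ?_⟩
  intro n A hn hA hS hS' η hη0 hη1 r
  have hn1 : k + 1 ≤ n := by omega
  have hnR : (0 : ℝ) < n := by
    have : 0 < n := by omega
    exact_mod_cast this
  have hn1R : (0 : ℝ) < (n : ℝ) + 1 := by positivity
  have hAR : (A : ℝ) ≤ K * (n + 1) := by exact_mod_cast hA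
  set θ : ℝ := (k + 1 : ℝ) / (n + 1) with hθ
  have hθ0 : 0 ≤ θ := by positivity
  have hθ1 : θ ≤ 1 / 4 := by
    rw [hθ, div_le_div_iff₀ hn1R (by norm_num)]
    have : ((4 * (k + 1) : ℕ) : ℝ) ≤ ((n + 1 : ℕ) : ℝ) := by exact_mod_cast hn
    push_cast at this
    linarith
  have hAθ : A * θ ≤ L := by
    rw [hθ, ← mul_div_assoc, div_le_iff₀ hn1R, hL]
    calc (A : ℝ) * (k + 1) ≤ (K * (n + 1)) * (k + 1) := by gcongr
      _ = _ := by ring
  -- the weight on `n` variables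
  set m' : St n → ℝ := kap 0 + (1 / (n + 1 : ℝ)) • (1 : St n → ℝ) with hm'
  have hm'0 : 0 ≤ m' := by
    intro v
    simp only [hm', Pi.add_apply, Pi.smul_apply, Pi.one_apply, smul_eq_mul, Pi.zero_apply]
    have := kap_nonneg 0 v
    simp only [Pi.zero_apply] at this
    positivity
  have hmg : ∀ v w, m' v ≤ m' (v + w) := by
    intro v w
    simp only [hm', Pi.add_apply, Pi.smul_apply, Pi.one_apply, smul_eq_mul]
    have := kap_grow 0 v w
    linarith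
  have hmrho : ∀ w α γ : St n, (kap 0 : St (n + 1) → ℝ) (rho w α γ) ≤ m' (w + α) := by
    intro w α γ
    have := kap_rho (n := n) (by omega) 0 w α γ
    simp only [hm', Pi.add_apply, Pi.smul_apply, Pi.one_apply, smul_eq_mul, mul_one]
    exact this
  have hh0 : (0 : St n → ℝ) ≤ hh k 0 := hh_nonneg k 0
  -- the one-step inequality
  have hos : ∀ a b, X k (n + 1) (kap 0) a r b (kap 0 * ee 0)
      ≤ (∑ i ∈ range (a + 1), ∑ j ∈ range (b + 1),
          (a.choose i : ℝ) * (b.choose j) *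
            ((1 - θ) ^ (a - i + (b - j)) * θ ^ (i + j)) *
            ∑ t ∈ range (i + j), X k n m' (a - i) (r + t) (b - j) (hh k 0))
        + r * ((k : ℝ) / (n + 1)) * X k (n + 1) (kap 0) a r b (ee 0) := fun a b =>
    one_step (by omega) (by omega) (kap_nonneg 0) (Sy_kap 0) hm'0 hmg hmrho 0 a r b
  have hQ1 : Qs k (n + 1) A r ≤
      (∑ a ∈ range A, ∑ b ∈ range (A - a), ∑ i ∈ range (a + 1), ∑ j ∈ range (b + 1),
        (a.choose i : ℝ) * (b.choose j) * ((1 - θ) ^ (a - i + (b - j)) * θ ^ (i + j)) *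
          ∑ t ∈ range (i + j), X k n m' (a - i) (r + t) (b - j) (hh k 0))
      + r * ((k : ℝ) / (n + 1)) *
        ∑ a ∈ range A, ∑ b ∈ range (A - a), X k (n + 1) (kap 0) a r b (ee 0) := by
    rw [mul_sum, ← sum_add_distrib]
    refine sum_le_sum fun a _ => ?_
    rw [mul_sum, ← sum_add_distrib]
    exact sum_le_sum fun b _ => hos a b
  have hnb := nb2 hθ0 hθ1 A hAθ (fun a b t => X k n m' a (r + t) b (hh k 0))
    (fun a b t => X_nonneg hm'0 hh0 _ _ _)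
  -- the inner sums
  have hin : ∀ r' : ℕ, ∑ a ∈ range A, ∑ b ∈ range (A - a), X k n m' a r' b (hh k 0)
      ≤ η * Qs k n A r' + E / η * (1 + r') := by
    intro r'
    have e1 : ∀ a b, X k n m' a r' b (hh k 0) = X k n (kap 0) a r' b (hh k 0)
        + (1 / (n + 1 : ℝ)) * X k n 1 a r' b (hh k 0) := by
      intro a b
      rw [hm', X_add_m, X_smul_m]
    have e2 : ∑ a ∈ range A, ∑ b ∈ range (A - a), X k n m' a r' b (hh k 0)
        = (∑ a ∈ range A, ∑ b ∈ range (A - a), X k n (kap 0) a r' b (hh k 0))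
          + (1 / (n + 1 : ℝ)) * ∑ a ∈ range A, ∑ b ∈ range (A - a), X k n 1 a r' b (hh k 0) := by
      simp only [e1, sum_add_distrib, ← mul_sum]
    rw [e2]
    have p1 := Q1_part_kap hk hn1 A r' hη0 hη1
    have p2 := Q1_part_one (k := k) (n := n) (by omega) (by omega) A r'
    have hS0 : 0 ≤ S1 k n A 0 r' := S1_nonneg _ _ _ _ _
    have hSr := hS r'
    have q2 : (1 / (n + 1 : ℝ)) * ∑ a ∈ range A, ∑ b ∈ range (A - a), X k n 1 a r' b (hh k 0)
        ≤ K * (C0 * (1 + r')) := by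
      calc _ ≤ (1 / (n + 1 : ℝ)) * (A * S1 k n A 0 r') := by gcongr
        _ ≤ (1 / (n + 1 : ℝ)) * ((K * (n + 1)) * (C0 * (1 + r'))) := by gcongr
        _ = _ := by field_simp
    have hAn : (A : ℝ) * ((k + 1 : ℝ) / n) ≤ 2 * L := by
      rw [← mul_div_assoc, div_le_iff₀ hnR, hL]
      have h3 : (n : ℝ) + 1 ≤ 2 * n := by
        have : 1 ≤ n := by omega
        have : (1 : ℝ) ≤ n := by exact_mod_cast this
        linarith
      calc (A : ℝ) * (k + 1) ≤ (K * (n + 1)) * (k + 1) := by gcongr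
        _ ≤ (K * (2 * n)) * (k + 1) := by gcongr
        _ = _ := by ring
    have q1 : η⁻¹ * ((2 ^ (k + 1) + A * ((k + 1 : ℝ) / n)) * S1 k n A 0 r')
        ≤ η⁻¹ * ((2 ^ (k + 1) + 2 * L) * (C0 * (1 + r'))) := by
      gcongr
    have q3 : K * (C0 * (1 + (r' : ℝ))) ≤ η⁻¹ * (K * (C0 * (1 + r'))) := by
      have : 1 ≤ η⁻¹ := (one_le_inv₀ hη0).2 hη1
      have h0 : 0 ≤ K * (C0 * (1 + (r' : ℝ))) := by positivity
      nlinarith
    have q4 : E / η * (1 + (r' : ℝ)) = η⁻¹ * ((2 ^ (k + 1) + 2 * L) * (C0 * (1 + r')))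
        + η⁻¹ * (K * (C0 * (1 + r'))) := by
      rw [hE, div_eq_mul_inv]
      ring
    linarith
  -- the background
  have hbg : r * ((k : ℝ) / (n + 1)) *
        ∑ a ∈ range A, ∑ b ∈ range (A - a), X k (n + 1) (kap 0) a r b (ee 0)
      ≤ (k * K * C0) / η * (1 + r) ^ 2 := by
    have p3 := Q1_part_bg (k := k) (n := n + 1) (by omega) A r
    have hS0 : 0 ≤ S1 k (n + 1) A 0 r := S1_nonneg _ _ _ _ _
    have hSr := hS' r
    have : 1 ≤ η⁻¹ := (one_le_inv₀ hη0).2 hη1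
    calc _ ≤ r * ((k : ℝ) / (n + 1)) * (A * S1 k (n + 1) A 0 r) := by gcongr
      _ ≤ r * ((k : ℝ) / (n + 1)) * ((K * (n + 1)) * (C0 * (1 + r))) := by gcongr
      _ = (k * K * C0) * (r * (1 + r)) := by field_simp
      _ ≤ (k * K * C0) * (1 + r) ^ 2 := by
          refine mul_le_mul_of_nonneg_left ?_ (by positivity)
          nlinarith [Nat.cast_nonneg (α := ℝ) r]
      _ ≤ η⁻¹ * ((k * K * C0) * (1 + r) ^ 2) := by
          have h0 : 0 ≤ (k * K * C0) * (1 + (r : ℝ)) ^ 2 := by positivity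
          nlinarith
      _ = _ := by rw [div_eq_mul_inv]; ring
  -- assemble
  have hsum : ∑ t ∈ range A, W * (1 / 2) ^ t *
          ∑ a ∈ range A, ∑ b ∈ range (A - a), X k n m' a (r + t) b (hh k 0)
      ≤ (∑ t ∈ range A, W * (1 / 2) ^ t * (η * Qs k n A (r + t)))
        + (W * E * c1) / η * (1 + r) := by
    calc _ ≤ ∑ t ∈ range A, W * (1 / 2) ^ t *
            (η * Qs k n A (r + t) + E / η * (1 + ((r + t : ℕ) : ℝ))) := by
          refine sum_le_sum fun t _ => ?_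
          exact mul_le_mul_of_nonneg_left (hin (r + t)) (by positivity)
      _ = (∑ t ∈ range A, W * (1 / 2) ^ t * (η * Qs k n A (r + t)))
          + (W * (E / η)) * ∑ t ∈ range A, (1 / 2 : ℝ) ^ t * (1 + ((r + t : ℕ) : ℝ)) ^ 1 := by
          rw [mul_sum, ← sum_add_distrib]
          refine sum_congr rfl fun t _ => ?_
          ring
      _ ≤ (∑ t ∈ range A, W * (1 / 2) ^ t * (η * Qs k n A (r + t)))
          + (W * (E / η)) * (c1 * (1 + r) ^ 1) := by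
          have := hg r A
          gcongr
      _ = _ := by
          rw [div_eq_mul_inv, div_eq_mul_inv]
          ring
  have hfin : (W * E * c1) / η * (1 + (r : ℝ)) ≤ (W * E * c1) / η * (1 + r) ^ 2 := by
    refine mul_le_mul_of_nonneg_left ?_ (by positivity)
    nlinarith [Nat.cast_nonneg (α := ℝ) r]
  have hC : (W * E * c1 + k * K * C0) / η * (1 + (r : ℝ)) ^ 2
      = (W * E * c1) / η * (1 + r) ^ 2 + (k * K * C0) / η * (1 + r) ^ 2 := by
    rw [add_div, add_mul]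
  rw [hC]
  simp only [← hW] at hnb
  linarith

end Crest.Agent.R153
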