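import Mathlib
import Crest.Agent.R153.Q1
import Crest.Agent.R153.S1Bound

/-!
# Row 153, piece Q1b

As `S1_bound`: `rec_lemma` with `p = 2`, `n0 = n/2`, `B = A^2`, `A^2 / 2^(n-n0)` bounded;
`S1_bound` with the constant `4 K` (or `2K`; `A ≤ K n ≤ 2 K (m+1) ≤ 4 K m` for `n/2 ≤ m ≤ n`).
-/

set_option autoImplicit false

namespace Crest.Agent.R153

open Crest.ProbabilityR.RandomSAT Finset

theorem Q1_bound {k : ℕ} (hk : 2 ≤ k) (K : ℕ) : ∃ C : ℝ, 0 ≤ C ∧ ∀ n A r : ℕ, k + 1 ≤ n →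
    A ≤ K * n → Qs k n A r ≤ C * (1 + r) ^ 2 := by
  obtain ⟨C0, hC0, hS1⟩ := S1_bound hk (4 * K)
  obtain ⟨C1, Cw, hC1, hCw, hstep⟩ := Q1_step hk (2 * K) C0 hC0
  obtain ⟨η, hη0, hη1, hrec⟩ := rec_lemma 2 hCw
  refine ⟨2 * (C1 / η) + 16 * K ^ 2 + (8 * K * (k + 1)) ^ 2, by positivity, ?_⟩
  intro n A r hn hA
  have hr : (0 : ℝ) ≤ r := Nat.cast_nonneg r
  have hAr : (A : ℝ) ≤ K * n := by exact_mod_cast hA
  have hA0 : (0 : ℝ) ≤ A := Nat.cast_nonneg A
  have hle := Qs_le (k := k) hn A r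
  have hr1 : (1 : ℝ) ≤ (1 + r) ^ 2 := by nlinarith
  rcases lt_or_ge n (8 * (k + 1)) with h8 | h8
  · have h1 : (n : ℝ) ≤ 8 * (k + 1) := by exact_mod_cast h8.le
    have h2 : (A : ℝ) ≤ 8 * K * (k + 1) := by
      have h3 := mul_le_mul_of_nonneg_left h1 (Nat.cast_nonneg (α := ℝ) K)
      nlinarith
    have h2' : (A : ℝ) ^ 2 ≤ (8 * K * (k + 1)) ^ 2 := pow_le_pow_left₀ hA0 h2 2
    have h4 : (0 : ℝ) ≤ 2 * (C1 / η) + 16 * K ^ 2 := by positivity
    have h5 : (0 : ℝ) ≤ (8 * K * (k + 1)) ^ 2 := by positivity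
    calc Qs k n A r ≤ (A : ℝ) ^ 2 := hle
      _ ≤ (8 * K * (k + 1)) ^ 2 := h2'
      _ ≤ (2 * (C1 / η) + 16 * K ^ 2 + (8 * K * (k + 1)) ^ 2) * 1 := by linarith
      _ ≤ _ := mul_le_mul_of_nonneg_left hr1 (by positivity)
  · have h1 := hrec (fun m r => Qs k m A r) (n / 2) n A ((A : ℝ) ^ 2) (C1 / η) (by positivity)
      (by positivity) (Nat.div_le_self n 2)
      (fun r => Qs_le (by omega) A r)
      (by
        intro m hm1 hm2 r
        have h2 : A ≤ 2 * K * (m + 1) := by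
          refine hA.trans ?_
          have h3 : n ≤ 2 * (m + 1) := by omega
          calc K * n ≤ K * (2 * (m + 1)) := Nat.mul_le_mul_left K h3
            _ = 2 * K * (m + 1) := by ring
        have h3 : A ≤ 4 * K * m := by
          refine hA.trans ?_
          have h3 : n ≤ 4 * m := by omega
          calc K * n ≤ K * (4 * m) := Nat.mul_le_mul_left K h3
            _ = 4 * K * m := by ring
        have h4 : A ≤ 4 * K * (m + 1) := h3.trans (Nat.mul_le_mul_left _ (Nat.le_succ m))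
        exact hstep m A (by omega) h2 (fun r => hS1 m A 0 r (by omega) h3)
          (fun r => hS1 (m + 1) A 0 r (by omega) h4) η hη0 hη1 r) r
    have h2 : (A : ℝ) ^ 2 / 2 ^ (n - n / 2) ≤ 16 * K ^ 2 := by
      rw [div_le_iff₀ (by positivity)]
      set m := n - n / 2 with hm
      have h3 : n ≤ 4 * 2 ^ (m / 2) := by
        have := Nat.lt_two_pow_self (n := m / 2)
        omega
      have h4 : 2 ^ (m / 2) * 2 ^ (m / 2) ≤ 2 ^ m := by
        rw [← pow_add]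
        exact Nat.pow_le_pow_right (by norm_num) (by omega)
      have h5 : (n : ℝ) ≤ 4 * 2 ^ (m / 2) := by exact_mod_cast h3
      have h6 : (2 : ℝ) ^ (m / 2) * 2 ^ (m / 2) ≤ 2 ^ m := by exact_mod_cast h4
      have h7 : (A : ℝ) ≤ K * (4 * 2 ^ (m / 2)) :=
        hAr.trans (mul_le_mul_of_nonneg_left h5 (Nat.cast_nonneg K))
      calc (A : ℝ) ^ 2 ≤ (K * (4 * 2 ^ (m / 2))) ^ 2 := pow_le_pow_left₀ hA0 h7 2
        _ = 16 * K ^ 2 * (2 ^ (m / 2) * 2 ^ (m / 2)) := by ring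
        _ ≤ 16 * K ^ 2 * 2 ^ m := mul_le_mul_of_nonneg_left h6 (by positivity)
    refine h1.trans ?_
    refine mul_le_mul_of_nonneg_right ?_ (by positivity)
    have : (0 : ℝ) ≤ (8 * K * (k + 1)) ^ 2 := by positivity
    linarith

end Crest.Agent.R153
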