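import Mathlib

/-!
# Row 153, piece TS: tail sums (pure real analysis)

`0 < x < 1`.  Choose `K ≥ 1` with `2 * x^(K/2) ≤ 1`, e.g. via `y = √x`: `2 y^K ≤ 1`, so that for
`m ≥ K n`: `2^n x^m = 2^n y^m y^m ≤ (2 y^K)^n y^m ≤ y^m`; and `∑_m (m+1)^2 y^m < ∞`.
The pairs `(l,b)` with `l + b = m` are at most `m+1`, and `l + 1 ≤ m + 1`.
-/

set_option autoImplicit false

namespace Crest.Agent.R153

open Finset

theorem tail_sum {x : ℝ} (h0 : 0 < x) (h1 : x < 1) :
    ∃ (K : ℕ) (C : ℝ), 0 ≤ C ∧ ∀ n M : ℕ,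
      ∑ l ∈ range M, ∑ b ∈ range (M - l),
        (if K * n ≤ l + b then ((l : ℝ) + 1) * (2 ^ n * x ^ (l + b)) else 0) ≤ C := by
  set y : ℝ := Real.sqrt x with hy
  have hy0 : 0 < y := Real.sqrt_pos.2 h0
  have hy2 : y * y = x := Real.mul_self_sqrt h0.le
  have hy1 : y < 1 := by
    rw [hy]
    exact (Real.sqrt_lt' one_pos).2 (by simpa using h1)
  obtain ⟨K, hK⟩ := exists_pow_lt_of_lt_one (show (0 : ℝ) < 1 / 2 by norm_num) hy1
  have hs1 : Summable fun b : ℕ => y ^ b := summable_geometric_of_lt_one hy0.le hy1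
  have hs2 : Summable fun l : ℕ => ((l : ℝ) + 1) * y ^ l := by
    have h3 : Summable fun l : ℕ => (l : ℝ) * y ^ l := by
      have := summable_pow_mul_geometric_of_norm_lt_one 1 (r := y)
        (by rw [Real.norm_of_nonneg hy0.le]; exact hy1)
      simpa using this
    have := h3.add hs1
    refine this.congr fun l => ?_
    ring
  refine ⟨K, (∑' l : ℕ, ((l : ℝ) + 1) * y ^ l) * ∑' b : ℕ, y ^ b, ?_, ?_⟩
  · refine mul_nonneg (tsum_nonneg fun l => ?_) (tsum_nonneg fun b => ?_) <;> positivity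
  intro n M
  have hterm : ∀ l b : ℕ,
      (if K * n ≤ l + b then ((l : ℝ) + 1) * (2 ^ n * x ^ (l + b)) else 0)
        ≤ (((l : ℝ) + 1) * y ^ l) * y ^ b := by
    intro l b
    split_ifs with h
    · have h2 : (2 : ℝ) ^ n * y ^ (l + b) ≤ 1 := by
        have h3 : y ^ (l + b) ≤ y ^ (K * n) := pow_le_pow_of_le_one hy0.le hy1.le h
        calc (2 : ℝ) ^ n * y ^ (l + b) ≤ 2 ^ n * y ^ (K * n) :=
              mul_le_mul_of_nonneg_left h3 (by positivity)
          _ = (2 * y ^ K) ^ n := by rw [mul_pow, pow_mul]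
          _ ≤ 1 := pow_le_one₀ (by positivity) (by linarith)
      have h4 : x ^ (l + b) = y ^ (l + b) * y ^ (l + b) := by rw [← hy2, mul_pow]
      calc ((l : ℝ) + 1) * (2 ^ n * x ^ (l + b))
          = ((l : ℝ) + 1) * y ^ (l + b) * (2 ^ n * y ^ (l + b)) := by rw [h4]; ring
        _ ≤ ((l : ℝ) + 1) * y ^ (l + b) * 1 :=
              mul_le_mul_of_nonneg_left h2 (by positivity)
        _ = (((l : ℝ) + 1) * y ^ l) * y ^ b := by rw [pow_add]; ring
    · positivity
  calc ∑ l ∈ range M, ∑ b ∈ range (M - l),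
        (if K * n ≤ l + b then ((l : ℝ) + 1) * (2 ^ n * x ^ (l + b)) else 0)
      ≤ ∑ l ∈ range M, ∑ b ∈ range (M - l), (((l : ℝ) + 1) * y ^ l) * y ^ b :=
        Finset.sum_le_sum fun l _ => Finset.sum_le_sum fun b _ => hterm l b
    _ ≤ ∑ l ∈ range M, (((l : ℝ) + 1) * y ^ l) * ∑' b : ℕ, y ^ b := by
        refine Finset.sum_le_sum fun l _ => ?_
        rw [← Finset.mul_sum]
        refine mul_le_mul_of_nonneg_left ?_ (by positivity)
        exact hs1.sum_le_tsum _ fun b _ => by positivity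
    _ = (∑ l ∈ range M, ((l : ℝ) + 1) * y ^ l) * ∑' b : ℕ, y ^ b := by
        rw [Finset.sum_mul]
    _ ≤ (∑' l : ℕ, ((l : ℝ) + 1) * y ^ l) * ∑' b : ℕ, y ^ b := by
        refine mul_le_mul_of_nonneg_right ?_ (tsum_nonneg fun b => by positivity)
        exact hs2.sum_le_tsum _ fun b _ => by positivity

end Crest.Agent.R153
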