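import Mathlib
import Crest.Agent.R153.Defs

/-!
# Row 153, pieces VA, VB: variance recursion for the hitting time, general form

`T = Av w` (finite nonempty family), `f : V → ℝ` with values in `{0,1}` which decreases along the
translations `w i`; `R j = ∑_{i<j} T^i f`, `D j v = ∑_{i<j} (2i+1) (T^i f) v - (R j v)^2`
(the variance of the number of times `< j` at which `f = 1`, started at `v`).

* VA (`N_sq_le`): for `0 ≤ g ≤ f ≤ 1` and Markov `T`: with `N j = ∑_{i<j} T^i g`,
  `(N j)^2 ≤ 2 ∑_{i<j} T^i (g * R (j-i))`.  Induction: `N (j+1) = g + T (N j)`, so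
  `(N (j+1))^2 ≤ g^2 + 2 g T(N j) + T ((N j)^2)` (`Mk.sq_le`), `g^2 ≤ g f`,
  `T (N j) ≤ T (R j)`, `f + T (R j) = R (j+1)`, so `g^2 + 2 g T (N j) ≤ 2 g R (j+1)`.
* VB (`D_succ_le`): `D (j+1) v ≤ (T (D j)) v + average_i (R j v - R j (v + w i))^2`.
  If `f v = 1`: `R (j+1) v = 1 + T(R j) v`,
  `∑_{i<j+1} (2i+1) T^i f = f + T (D j + (R j)^2) + 2 T (R j)`, so
  `D (j+1) = T (D j) + T ((R j)^2) - (T (R j))^2`, and the variance is at most the second moment
  around `R j v`.  If `f v = 0` then `T^i f v = 0` for all `i` (monotonicity), `R`, `D` vanish at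
  `v` and at all `v + w i`.
-/

set_option autoImplicit false

namespace Crest.Agent.R153

open Crest.ProbabilityR.RandomSAT Finset

section
variable {V : Type*} [AddCommMonoid V]

/-- partial potential -/
noncomputable def Rp (T : Module.End ℝ (V → ℝ)) (f : V → ℝ) (j : ℕ) : V → ℝ :=
  ∑ i ∈ range j, (T ^ i) f

/-- variance function -/
noncomputable def Dp (T : Module.End ℝ (V → ℝ)) (f : V → ℝ) (j : ℕ) : V → ℝ :=
  (∑ i ∈ range j, (2 * (i : ℝ) + 1) • (T ^ i) f) - (Rp T f j) ^ 2

omit [AddCommMonoid V] in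
lemma Rp_succ (T : Module.End ℝ (V → ℝ)) (f : V → ℝ) (j : ℕ) :
    Rp T f (j + 1) = f + T (Rp T f j) := by
  unfold Rp
  rw [sum_range_succ', map_sum, add_comm]
  congr 1
  refine sum_congr rfl fun i _ => ?_
  rw [pow_succ', Module.End.mul_apply]

theorem N_sq_le {T : Module.End ℝ (V → ℝ)} (hT : Mk T) {f g : V → ℝ} (hg0 : 0 ≤ g)
    (hgf : g ≤ f) (hf1 : f ≤ 1) (j : ℕ) (v : V) :
    (Rp T g j v) ^ 2 ≤ 2 * (∑ i ∈ range j, (T ^ i) (g * Rp T f (j - i))) v := by
  induction j generalizing v with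
  | zero => simp [Rp]
  | succ j ih =>
    have hN : Rp T g (j + 1) = g + T (Rp T g j) := Rp_succ T g j
    have hR : Rp T f (j + 1) = f + T (Rp T f j) := Rp_succ T f j
    -- the sum on the right
    have hS : (∑ i ∈ range (j + 1), (T ^ i) (g * Rp T f (j + 1 - i)))
        = g * Rp T f (j + 1) + T (∑ i ∈ range j, (T ^ i) (g * Rp T f (j - i))) := by
      rw [sum_range_succ', map_sum, add_comm]
      congr 1
      refine sum_congr rfl fun i _ => ?_
      rw [pow_succ', Module.End.mul_apply, Nat.add_sub_add_right]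
    rw [hN, hS]
    have h1 := hT.sq_le (Rp T g j) v
    have h2 : T ((Rp T g j) ^ 2) v
        ≤ T ((2 : ℝ) • ∑ i ∈ range j, (T ^ i) (g * Rp T f (j - i))) v := by
      refine hT.1.mono (fun w => ?_) v
      have := ih w
      simpa using this
    rw [map_smul] at h2
    have hgR : Rp T g j ≤ Rp T f j := sum_le_sum fun i _ => (hT.1.pow i).mono hgf
    have h3 : T (Rp T g j) v ≤ T (Rp T f j) v := hT.1.mono hgR v
    have h4 : Rp T f (j + 1) v = f v + T (Rp T f j) v := by rw [hR]; rfl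
    have h5 : 0 ≤ g v := hg0 v
    have h6 : g v ≤ f v := hgf v
    have h7 : 0 ≤ T (Rp T g j) v :=
      hT.1.nonneg (sum_nonneg fun i _ => (hT.1.pow i).nonneg hg0) v
    simp only [Pi.add_apply, Pi.mul_apply, Pi.smul_apply, smul_eq_mul] at h2 ⊢
    rw [h4]
    nlinarith [mul_le_mul_of_nonneg_left h3 h5, mul_le_mul_of_nonneg_left h6 h5]

end

end Crest.Agent.R153
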