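import Mathlib
import Crest.Agent.R153.Var

/-! # Row 153, piece VB (see the header of `Var`) -/

set_option autoImplicit false

namespace Crest.Agent.R153

open Crest.ProbabilityR.RandomSAT Finset

lemma Av_pow_le {V : Type*} [AddCommMonoid V] {ι : Type*} [Fintype ι] [Nonempty ι] (w : ι → V)
    {f : V → ℝ} (hd : ∀ v i, f (v + w i) ≤ f v) (i : ℕ) : (Av w ^ i) f ≤ f := by
  have h1 : Av w f ≤ f := by
    intro v
    rw [Av_apply]
    have h2 : ∑ i, f (v + w i) ≤ ∑ _i : ι, f v := sum_le_sum fun i _ => hd v i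
    rw [sum_const, card_univ, nsmul_eq_mul] at h2
    have h3 : (0 : ℝ) < Fintype.card ι := by exact_mod_cast Fintype.card_pos
    rw [inv_mul_le_iff₀ h3]
    exact h2
  induction i with
  | zero => simp
  | succ i ih =>
    rw [pow_succ', Module.End.mul_apply]
    exact ((IsT.av w).mono ih).trans h1

theorem D_succ_le {V : Type*} [AddCommMonoid V] {ι : Type*} [Fintype ι] [Nonempty ι] (w : ι → V)
    {f : V → ℝ} (hf : ∀ v, f v = 0 ∨ f v = 1) (hd : ∀ v i, f (v + w i) ≤ f v) (j : ℕ) (v : V) :
    Dp (Av w) f (j + 1) v ≤ (Av w) (Dp (Av w) f j) v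
      + (Fintype.card ι : ℝ)⁻¹ * ∑ i, (Rp (Av w) f j v - Rp (Av w) f j (v + w i)) ^ 2 := by
  set T := Av w with hTdef
  have hT : Mk T := ⟨IsT.av w, Av_one w⟩
  set R := Rp T f j with hR
  have hcard : (0 : ℝ) < Fintype.card ι := by exact_mod_cast Fintype.card_pos
  -- expansion of the weighted sum
  have h1 : (∑ i ∈ range (j + 1), (2 * (i : ℝ) + 1) • (T ^ i) f)
      = f + T (Dp T f j) + T (R ^ 2) + (2 : ℝ) • T R := by
    have h2 : (∑ i ∈ range j, (2 * (i : ℝ) + 1) • (T ^ i) f) = Dp T f j + R ^ 2 := by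
      simp only [Dp, hR]; abel
    rw [sum_range_succ']
    have h3 : ∀ i ∈ range j, (2 * ((i + 1 : ℕ) : ℝ) + 1) • (T ^ (i + 1)) f
        = T ((2 * (i : ℝ) + 1) • (T ^ i) f) + (2 : ℝ) • T ((T ^ i) f) := by
      intro i _
      rw [pow_succ', Module.End.mul_apply, map_smul, ← add_smul]
      congr 1
      push_cast
      ring
    rw [sum_congr rfl h3, sum_add_distrib, ← map_sum, ← smul_sum, ← map_sum, h2, map_add]
    have h4 : ∑ i ∈ range j, (T ^ i) f = R := rfl
    rw [h4]
    simp only [Nat.cast_zero, mul_zero, zero_add, pow_zero, Module.End.one_apply, one_smul]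
    abel
  have h5 : Dp T f (j + 1) v
      = f v + T (Dp T f j) v + T (R ^ 2) v + 2 * T R v - (f v + T R v) ^ 2 := by
    simp only [Dp]
    rw [h1, Rp_succ]
    simp only [Pi.sub_apply, Pi.add_apply, Pi.smul_apply, Pi.pow_apply, smul_eq_mul, ← hR]
    simp only [Dp, hR]
  -- the last term
  have h6 : (1 - f v) * T R v = 0 := by
    rcases hf v with h | h
    · have h7 : T R v = 0 := by
        have h8 : Rp T f (j + 1) v = f v + T R v := by rw [Rp_succ]; rfl
        have h9 : Rp T f (j + 1) v = 0 := by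
          simp only [Rp, Finset.sum_apply]
          refine sum_eq_zero fun i _ => ?_
          have h10 := Av_pow_le w hd i v
          have h11 : 0 ≤ (T ^ i) f v :=
            (hT.1.pow i).nonneg (fun v => by rcases hf v with h | h <;> simp [h]) v
          rw [h] at h10
          exact le_antisymm h10 h11
        linarith
      rw [h7, mul_zero]
    · rw [h, sub_self, zero_mul]
  -- the variance of one step
  have h12 : (Fintype.card ι : ℝ)⁻¹ * ∑ i, (R v - R (v + w i)) ^ 2
      = T (R ^ 2) v - 2 * R v * T R v + (R v) ^ 2 := by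
    rw [hTdef, Av_apply, Av_apply]
    have h13 : ∀ i, (R v - R (v + w i)) ^ 2
        = (R ^ 2) (v + w i) - 2 * R v * R (v + w i) + (R v) ^ 2 := by
      intro i; simp only [Pi.pow_apply]; ring
    rw [sum_congr rfl fun i _ => h13 i, sum_add_distrib, sum_sub_distrib, ← mul_sum, sum_const,
      card_univ, nsmul_eq_mul]
    field_simp
  rw [h5, h12]
  have h14 : f v * f v = f v := by rcases hf v with h | h <;> simp [h]
  nlinarith [sq_nonneg (T R v - R v)]

end Crest.Agent.R153
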