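import Mathlib
import Crest.Agent.R153.VarD

/-!
# Row 153, piece VC: the variance bound for the satisfiability hitting time

`T = P j n`, `f = ee 0`; `g_c = f - f (· + vc c)`; `R j v - R j (v + vc c) = Rp T g_c j v` (translations
commute with `T`), so `D_succ_le` and `N_sq_le` (for every clause `c`) and
`average_c g_c = f - T f = hh j 0` (from `P_gt` and `ee 0 = 1 - gt 0`) give
`D (i+1) ≤ T (D i) + 2 ∑_{l<i} T^l (hh * R (i-l))`, and by induction
`D M ≤ 2 ∑_{i<M} ∑_{l<i} T^{M-1-i+l} (hh * R (i-l))`.  The terms with `M-1-i+l = s` have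
`i - l = M-1-s`, and there are at most `s+1` of them; `R (M-1-s) ≤ ∑_{b<M-s} T^b f`.
-/

set_option autoImplicit false

namespace Crest.Agent.R153

open Crest.ProbabilityR.RandomSAT Finset

lemma gt_zero_eq {n : ℕ} : (gt 0 : St n → ℝ) = 1 - ee 0 := by
  ext v
  simp only [gt, ee, Pi.sub_apply, Pi.one_apply]
  rcases Nat.eq_zero_or_pos (U v) with h | h
  · simp [h]
  · simp [h, h.ne']

lemma ee_sub_P {j n : ℕ} (h : j ≤ n) : (ee 0 : St n → ℝ) - P j n (ee 0) = hh j 0 := by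
  have h1 := P_gt h 0
  rw [gt_zero_eq, map_sub, (P_mk h).2] at h1
  have h2 : hh j 0 = (1 : St n → ℝ) - P j n (ee 0) - (1 - ee 0) := by
    rw [h1]; abel
  rw [h2]; abel

lemma Rp_sub_tau {j n : ℕ} (c : Clause j n) (i : ℕ) (v : St n) :
    Rp (P j n) (ee 0) i v - Rp (P j n) (ee 0) i (v + vc c)
      = Rp (P j n) (ee 0 - tau (vc c) (ee 0)) i v := by
  have h1 : Rp (P j n) (ee 0 - tau (vc c) (ee 0)) i
      = Rp (P j n) (ee 0) i - tau (vc c) (Rp (P j n) (ee 0) i) := by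
    unfold Rp
    rw [map_sum, ← Finset.sum_sub_distrib]
    refine Finset.sum_congr rfl fun l _ => ?_
    have hc : (P j n ^ l) * tau (vc c) = tau (vc c) * (P j n ^ l) :=
      (((P_isT j n).pow l).commute (IsT.tau (vc c))).eq
    rw [map_sub, ← Module.End.mul_apply, hc, Module.End.mul_apply]
  rw [h1]; rfl

/-- the extra term -/
noncomputable def Ex (j n : ℕ) (i : ℕ) : St n → ℝ :=
  ∑ l ∈ range i, (P j n ^ l) (hh j 0 * Rp (P j n) (ee 0) (i - l))

lemma avg_sq_le {j n : ℕ} (h : j ≤ n) (i : ℕ) (v : St n) :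
    (Fintype.card (Clause j n) : ℝ)⁻¹ * ∑ c : Clause j n,
      (Rp (P j n) (ee 0) i v - Rp (P j n) (ee 0) i (v + vc c)) ^ 2 ≤ 2 * Ex j n i v := by
  have hne := clause_nonempty h
  have hc0 : (Fintype.card (Clause j n) : ℝ) ≠ 0 := by
    exact_mod_cast Fintype.card_ne_zero
  have hcp : (0 : ℝ) ≤ (Fintype.card (Clause j n) : ℝ)⁻¹ := by positivity
  have h1 : ∀ c : Clause j n,
      (Rp (P j n) (ee 0) i v - Rp (P j n) (ee 0) i (v + vc c)) ^ 2
        ≤ 2 * (∑ l ∈ range i, (P j n ^ l)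
            ((ee 0 - tau (vc c) (ee 0)) * Rp (P j n) (ee 0) (i - l))) v := by
    intro c
    rw [Rp_sub_tau]
    refine N_sq_le (P_mk h) ?_ ?_ (ee_le_one 0) i v
    · intro w
      have := ee_zero_anti w (vc c)
      simp only [Pi.zero_apply, Pi.sub_apply, tau_apply]
      linarith
    · intro w
      have := ee_nonneg 0 (w + vc c)
      simp only [Pi.sub_apply, tau_apply]
      simp only [Pi.zero_apply] at this
      linarith
  have h2 : (Fintype.card (Clause j n) : ℝ)⁻¹ * ∑ c : Clause j n,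
        (2 * (∑ l ∈ range i, (P j n ^ l)
            ((ee 0 - tau (vc c) (ee 0)) * Rp (P j n) (ee 0) (i - l))) v) = 2 * Ex j n i v := by
    have h3 : ∀ l : ℕ, (Fintype.card (Clause j n) : ℝ)⁻¹ • ∑ c : Clause j n, (P j n ^ l)
            ((ee 0 - tau (vc c) (ee 0)) * Rp (P j n) (ee 0) (i - l))
        = (P j n ^ l) (hh j 0 * Rp (P j n) (ee 0) (i - l)) := by
      intro l
      rw [← map_sum, ← map_smul]
      congr 1
      rw [← Finset.sum_mul, ← smul_mul_assoc]
      congr 1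
      rw [← ee_sub_P h, Finset.sum_sub_distrib, smul_sub]
      congr 1
      · rw [Finset.sum_const, card_univ, ← Nat.cast_smul_eq_nsmul ℝ, smul_smul,
          inv_mul_cancel₀ hc0, one_smul]
      · ext w
        rw [P_apply]
        simp [Finset.sum_apply]
    unfold Ex
    rw [← Finset.mul_sum]
    have h4 : ∑ c : Clause j n, (∑ l ∈ range i, (P j n ^ l)
            ((ee 0 - tau (vc c) (ee 0)) * Rp (P j n) (ee 0) (i - l))) v
        = (∑ l ∈ range i, ∑ c : Clause j n, (P j n ^ l)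
            ((ee 0 - tau (vc c) (ee 0)) * Rp (P j n) (ee 0) (i - l))) v := by
      rw [Finset.sum_comm, Finset.sum_apply]
    rw [h4]
    have h5 : (∑ l ∈ range i, (P j n ^ l) (hh j 0 * Rp (P j n) (ee 0) (i - l))) v
        = (Fintype.card (Clause j n) : ℝ)⁻¹ * (∑ l ∈ range i, ∑ c : Clause j n, (P j n ^ l)
            ((ee 0 - tau (vc c) (ee 0)) * Rp (P j n) (ee 0) (i - l))) v := by
      rw [Finset.sum_congr rfl fun l _ => (h3 l).symm, ← Finset.smul_sum]
      rfl
    rw [h5]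
    ring
  rw [← h2]
  exact mul_le_mul_of_nonneg_left (Finset.sum_le_sum fun c _ => h1 c) hcp

lemma ee_zero_01 {n : ℕ} (v : St n) : (ee 0 : St n → ℝ) v = 0 ∨ (ee 0 : St n → ℝ) v = 1 := by
  unfold ee
  split_ifs <;> simp

lemma Dp_succ_le {j n : ℕ} (h : j ≤ n) (i : ℕ) :
    Dp (P j n) (ee 0) (i + 1) ≤ P j n (Dp (P j n) (ee 0) i) + (2 : ℝ) • Ex j n i := by
  have hne := clause_nonempty h
  intro v
  have h1 := D_succ_le (fun c : Clause j n => vc c) (f := ee 0) ee_zero_01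
    (fun v c => ee_zero_anti v (vc c)) i v
  have h2 := avg_sq_le h i v
  have h3 : Av (fun c : Clause j n => vc c) = P j n := rfl
  rw [h3] at h1
  simp only [Pi.add_apply, Pi.smul_apply, smul_eq_mul]
  linarith

lemma Rp_mono {j n : ℕ} {a b : ℕ} (hab : a ≤ b) :
    Rp (P j n) (ee 0) a ≤ Rp (P j n) (ee 0) b := by
  unfold Rp
  refine Finset.sum_le_sum_of_subset_of_nonneg (Finset.range_mono hab) fun i _ _ => ?_
  exact ((P_isT j n).pow i).nonneg (ee_nonneg 0)

lemma Rp_nonneg {j n : ℕ} (a : ℕ) : 0 ≤ Rp (P j n) (ee 0) a := by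
  unfold Rp
  exact Finset.sum_nonneg fun i _ => ((P_isT j n).pow i).nonneg (ee_nonneg 0)

lemma term_nonneg {j n : ℕ} (s a : ℕ) :
    0 ≤ (P j n ^ s) (hh j 0 * Rp (P j n) (ee 0) a) :=
  ((P_isT j n).pow s).nonneg (mul_nonneg (hh_nonneg j 0) (Rp_nonneg a))

lemma Dp_le {j n : ℕ} (h : j ≤ n) (M : ℕ) :
    Dp (P j n) (ee 0) M
      ≤ (2 : ℝ) • ∑ s ∈ range M, ((s : ℝ) + 1) • (P j n ^ s) (hh j 0 * Rp (P j n) (ee 0) (M - s)) := by
  induction M with
  | zero =>
    intro v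
    simp [Dp, Rp]
  | succ M ih =>
    have h1 := Dp_succ_le h M
    have h2 := (P_isT j n).mono ih
    refine h1.trans ((add_le_add_left h2 _).trans ?_)
    rw [map_smul, ← smul_add]
    refine smul_le_smul_of_nonneg_left ?_ (by norm_num)
    have h3 : P j n (∑ s ∈ range M, ((s : ℝ) + 1) •
          (P j n ^ s) (hh j 0 * Rp (P j n) (ee 0) (M - s)))
        = ∑ s ∈ range (M + 1), (s : ℝ) •
          (P j n ^ s) (hh j 0 * Rp (P j n) (ee 0) (M + 1 - s)) := by
      rw [Finset.sum_range_succ', map_sum]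
      simp only [Nat.cast_zero, zero_smul, add_zero]
      refine Finset.sum_congr rfl fun s hs => ?_
      have h4 : M + 1 - (s + 1) = M - s := by omega
      rw [map_smul, h4, pow_succ', Module.End.mul_apply]
      push_cast
      rfl
    have h5 : Ex j n M ≤ ∑ s ∈ range (M + 1),
          (P j n ^ s) (hh j 0 * Rp (P j n) (ee 0) (M + 1 - s)) := by
      unfold Ex
      rw [Finset.sum_range_succ]
      refine le_add_of_le_of_nonneg (Finset.sum_le_sum fun s _ => ?_) (term_nonneg _ _)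
      refine ((P_isT j n).pow s).mono ?_
      exact mul_le_mul_of_nonneg_left (Rp_mono (by omega)) (hh_nonneg j 0)
    rw [h3]
    refine (add_le_add_right h5 _).trans (le_of_eq ?_)
    rw [← Finset.sum_add_distrib]
    refine Finset.sum_congr rfl fun s _ => ?_
    rw [add_smul, one_smul]

theorem var_le {j n : ℕ} (h : j ≤ n) (M : ℕ) :
    (∑ m ∈ range M, (2 * (m : ℝ) + 1) * (P j n ^ m) (ee 0) 0)
        - (∑ m ∈ range M, (P j n ^ m) (ee 0) 0) ^ 2
      ≤ 2 * ∑ l ∈ range M, ∑ b ∈ range (M - l),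
          ((l : ℝ) + 1) * (P j n ^ l) (hh j 0 * (P j n ^ b) (ee 0)) 0 := by
  have h1 := Dp_le h M 0
  have h2 : Dp (P j n) (ee 0) M 0 = (∑ m ∈ range M, (2 * (m : ℝ) + 1) * (P j n ^ m) (ee 0) 0)
        - (∑ m ∈ range M, (P j n ^ m) (ee 0) 0) ^ 2 := by
    simp [Dp, Rp, Finset.sum_apply]
  have h3 : ((2 : ℝ) • ∑ s ∈ range M, ((s : ℝ) + 1) •
        (P j n ^ s) (hh j 0 * Rp (P j n) (ee 0) (M - s))) (0 : St n)
      = 2 * ∑ l ∈ range M, ∑ b ∈ range (M - l),
          ((l : ℝ) + 1) * (P j n ^ l) (hh j 0 * (P j n ^ b) (ee 0)) 0 := by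
    simp only [Pi.smul_apply, Finset.sum_apply, smul_eq_mul]
    congr 1
    refine Finset.sum_congr rfl fun l _ => ?_
    rw [← Finset.mul_sum]
    congr 1
    unfold Rp
    rw [Finset.mul_sum, map_sum, Finset.sum_apply]
  rw [h2, h3] at h1
  exact h1

end Crest.Agent.R153
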