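import Mathlib
import Crest.Agent.R153.Q1Bound
import Crest.Agent.R153.VarSum
import Crest.Agent.R153.FirstMoment
import Crest.Agent.R153.TailSum

/-!
# Row 153, piece FV: the variance bound, truncated at `M`

Clause size `k+1`, `k ≥ 2`.  `K, C` from `tail_sum` with `x = 1 - 2^{-(k+1)}`, `A = K n`.
In `var_le` (`j = k+1`) the terms with `l + b ≥ A` are bounded by
`(l+1) P^(l+b) (ee 0) 0 ≤ (l+1) 2^n x^(l+b)` (`hh ≤ 1`); the terms with `l + b < A` have `l+1 ≤ A` and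
`hh (k+1) 0 * P^b (ee 0) ≤ kap * (kap * P^b (ee 0)) ≤ kap * P^b (kap * ee 0)` (`hh_le`,
`kap ≤ 1`, `ee ≤ 1`, `IsT.mul_le`), so their sum is at most `A * Qs k n A 0 ≤ K n C'` (`Q1_bound`).
Total `≤ 2 K C' n + 2 C ≤ C'' n`.
-/

set_option autoImplicit false

namespace Crest.Agent.R153

open Crest.ProbabilityR.RandomSAT Finset

theorem hh_mul_le {k n : ℕ} (hk : 1 ≤ k) (hn : k + 1 ≤ n) (b : ℕ) :
    (hh (k + 1) 0 * (P (k + 1) n ^ b) (ee 0) : St n → ℝ)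
      ≤ kap 0 * (P (k + 1) n ^ b) (kap 0 * ee 0) := by
  intro v
  rw [Pi.mul_apply, Pi.mul_apply]
  have hT := (P_isT (k + 1) n).pow b
  have h0 : 0 ≤ (P (k + 1) n ^ b) (ee 0) v := hT.nonneg (ee_nonneg 0) v
  have hk0 : 0 ≤ (kap 0 v : ℝ) := kap_nonneg 0 v
  have hk1 : (kap 0 v : ℝ) ≤ 1 := kap_le_one 0 v
  have h1 : hh (k + 1) 0 v ≤ kap 0 v * kap 0 v := by
    refine (hh_le 0 hn v).trans ?_
    have h2 : kap 0 v ^ (k + 1) ≤ kap 0 v ^ 2 := pow_le_pow_of_le_one hk0 hk1 (by omega)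
    have h3 : (ee 0 v : ℝ) ≤ 1 := ee_le_one 0 v
    calc kap 0 v ^ (k + 1) * ee 0 v ≤ kap 0 v ^ 2 * 1 :=
          mul_le_mul h2 h3 (ee_nonneg 0 v) (by positivity)
      _ = kap 0 v * kap 0 v := by ring
  have h4 := hT.mul_le (m := kap 0) (kap_grow 0) (ee_nonneg 0) v
  rw [Pi.mul_apply] at h4
  calc hh (k + 1) 0 v * (P (k + 1) n ^ b) (ee 0) v
      ≤ kap 0 v * kap 0 v * (P (k + 1) n ^ b) (ee 0) v := mul_le_mul_of_nonneg_right h1 h0
    _ = kap 0 v * (kap 0 v * (P (k + 1) n ^ b) (ee 0) v) := by ring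
    _ ≤ kap 0 v * (P (k + 1) n ^ b) (kap 0 * ee 0) v := mul_le_mul_of_nonneg_left h4 hk0

/-- `hh ≤ 1` -/
theorem FVaux_hh_le_one {j n : ℕ} (h : j ≤ n) (v : St n) : hh j 0 v ≤ 1 := by
  have h1 : (ee 0 v : ℝ) ≤ 1 := ee_le_one 0 v
  have h2 : P j n (gt 0) v ≤ 1 := (P_mk h).le_const (fun w => gt_le_one 0 w) v
  have h3 : 0 ≤ P j n (gt 0) v := (P_isT j n).nonneg (gt_nonneg 0) v
  show ee 0 v * P j n (gt 0) v ≤ 1
  exact mul_le_one₀ h1 h3 h2

/-- the late terms -/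
theorem FVaux_late {k n : ℕ} (hn : k + 1 ≤ n) (l b : ℕ) :
    ((l : ℝ) + 1) * (P (k + 1) n ^ l) (hh (k + 1) 0 * (P (k + 1) n ^ b) (ee 0)) 0
      ≤ ((l : ℝ) + 1) * (2 ^ n * (1 - (1 / 2 : ℝ) ^ (k + 1)) ^ (l + b)) := by
  refine mul_le_mul_of_nonneg_left ?_ (by positivity)
  refine le_trans ?_ (first_moment hn (l + b))
  rw [pow_add, Module.End.mul_apply]
  refine ((P_isT (k + 1) n).pow l).mono ?_ 0
  intro v
  have h0 : 0 ≤ (P (k + 1) n ^ b) (ee 0) v := ((P_isT (k + 1) n).pow b).nonneg (ee_nonneg 0) v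
  rw [Pi.mul_apply]
  exact mul_le_of_le_one_left h0 (FVaux_hh_le_one hn v)

/-- the early terms -/
theorem FVaux_early {k n : ℕ} (hk : 1 ≤ k) (hn : k + 1 ≤ n) (l b : ℕ) :
    (P (k + 1) n ^ l) (hh (k + 1) 0 * (P (k + 1) n ^ b) (ee 0)) 0
      ≤ X k n (kap 0) l 0 b (kap 0 * ee 0) := by
  unfold X
  rw [pow_zero, Module.End.one_apply]
  exact ((P_isT (k + 1) n).pow l).mono (hh_mul_le hk hn b) 0

theorem FVaux_sum (A M : ℕ) (f : ℕ → ℕ → ℝ) (hf : ∀ l b, 0 ≤ f l b) :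
    ∑ l ∈ range M, ∑ b ∈ range (M - l), (if l + b < A then f l b else 0) ≤
      ∑ l ∈ range A, ∑ b ∈ range (A - l), f l b := by
  rw [Finset.sum_sigma', Finset.sum_sigma', ← Finset.sum_filter]
  refine Finset.sum_le_sum_of_subset_of_nonneg ?_ fun x _ _ => hf _ _
  rintro ⟨l, b⟩ h
  simp only [Finset.mem_filter, Finset.mem_sigma, Finset.mem_range] at h ⊢
  omega

theorem var_bound {k : ℕ} (hk : 2 ≤ k) : ∃ C : ℝ, ∀ n M : ℕ, k + 1 ≤ n →
    (∑ m ∈ range M, (2 * (m : ℝ) + 1) * (P (k + 1) n ^ m) (ee 0) 0)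
        - (∑ m ∈ range M, (P (k + 1) n ^ m) (ee 0) 0) ^ 2 ≤ C * n := by
  have hx1 : (1 / 2 : ℝ) ^ (k + 1) < 1 := pow_lt_one₀ (by norm_num) (by norm_num) (by omega)
  have hx0 : (0 : ℝ) < (1 / 2 : ℝ) ^ (k + 1) := by positivity
  obtain ⟨K, Ct, hCt, htail⟩ := tail_sum (x := 1 - (1 / 2 : ℝ) ^ (k + 1)) (by linarith) (by linarith)
  obtain ⟨C', hC', hQ⟩ := Q1_bound hk K
  refine ⟨2 * Ct + 2 * (K * C'), fun n M hn => ?_⟩
  refine (var_le hn M).trans ?_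
  have hn1 : (1 : ℝ) ≤ n := by
    have : 1 ≤ n := by omega
    exact_mod_cast this
  have hX : ∀ l b : ℕ, 0 ≤ X k n (kap 0) l 0 b (kap 0 * ee 0) := fun l b =>
    X_nonneg (kap_nonneg 0) (mul_nonneg (kap_nonneg 0) (ee_nonneg 0)) l 0 b
  have hterm : ∀ l b : ℕ,
      ((l : ℝ) + 1) * (P (k + 1) n ^ l) (hh (k + 1) 0 * (P (k + 1) n ^ b) (ee 0)) 0 ≤
        (if K * n ≤ l + b then
          ((l : ℝ) + 1) * (2 ^ n * (1 - (1 / 2 : ℝ) ^ (k + 1)) ^ (l + b)) else 0) +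
        (if l + b < K * n then
          ((K * n : ℕ) : ℝ) * X k n (kap 0) l 0 b (kap 0 * ee 0) else 0) := by
    intro l b
    by_cases h : K * n ≤ l + b
    · rw [if_pos h, if_neg (by omega), add_zero]
      exact FVaux_late hn l b
    · push Not at h
      rw [if_neg (by omega), if_pos h, zero_add]
      have hl : (l : ℝ) + 1 ≤ ((K * n : ℕ) : ℝ) := by
        have : l + 1 ≤ K * n := by omega
        exact_mod_cast this
      calc ((l : ℝ) + 1) * (P (k + 1) n ^ l) (hh (k + 1) 0 * (P (k + 1) n ^ b) (ee 0)) 0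
          ≤ ((l : ℝ) + 1) * X k n (kap 0) l 0 b (kap 0 * ee 0) :=
            mul_le_mul_of_nonneg_left (FVaux_early (by omega) hn l b) (by positivity)
        _ ≤ ((K * n : ℕ) : ℝ) * X k n (kap 0) l 0 b (kap 0 * ee 0) :=
            mul_le_mul_of_nonneg_right hl (hX l b)
  have h1 : ∑ l ∈ range M, ∑ b ∈ range (M - l),
      ((l : ℝ) + 1) * (P (k + 1) n ^ l) (hh (k + 1) 0 * (P (k + 1) n ^ b) (ee 0)) 0 ≤
      Ct + ((K * n : ℕ) : ℝ) * Qs k n (K * n) 0 := by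
    refine (Finset.sum_le_sum fun l _ => Finset.sum_le_sum fun b _ => hterm l b).trans ?_
    simp only [Finset.sum_add_distrib]
    refine add_le_add (htail n M) ?_
    refine (FVaux_sum (K * n) M
      (fun l b => ((K * n : ℕ) : ℝ) * X k n (kap 0) l 0 b (kap 0 * ee 0))
      (fun l b => mul_nonneg (Nat.cast_nonneg _) (hX l b))).trans (le_of_eq ?_)
    unfold Qs
    rw [Finset.mul_sum]
    refine Finset.sum_congr rfl fun l _ => ?_
    rw [Finset.mul_sum]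
  have h2 := hQ n (K * n) 0 hn le_rfl
  have h3 : ((K * n : ℕ) : ℝ) * Qs k n (K * n) 0 ≤ K * C' * n := by
    have h4 : Qs k n (K * n) 0 ≤ C' := by simpa using h2
    calc ((K * n : ℕ) : ℝ) * Qs k n (K * n) 0 ≤ ((K * n : ℕ) : ℝ) * C' :=
          mul_le_mul_of_nonneg_left h4 (Nat.cast_nonneg _)
      _ = K * C' * n := by push_cast; ring
  have h5 : Ct ≤ Ct * n := by nlinarith
  calc 2 * ∑ l ∈ range M, ∑ b ∈ range (M - l),
        ((l : ℝ) + 1) * (P (k + 1) n ^ l) (hh (k + 1) 0 * (P (k + 1) n ^ b) (ee 0)) 0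
      ≤ 2 * (Ct * n + K * C' * n) := by linarith
    _ = (2 * Ct + 2 * (K * C')) * n := by ring

end Crest.Agent.R153
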