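import Mathlib
import Crest.Agent.R153.FinalVar
import Crest.Agent.R153.SatProb

/-!
# Row 153, piece FA: the variance of the satisfiability hitting time is `O(n)` (statement S0217)

`k = k' + 1`.  Summability of `satProb` and `(2m+1) satProb` by `satProb_eq`, `first_moment` and
comparison with `2^n x^m`, `(2m+1) 2^n x^m`, `x = 1 - 2^{-k}`; the inequality `var_bound` passes to the
limit `M → ∞` (`Summable.hasSum`, `HasSum.tendsto_sum_nat`).
-/

set_option autoImplicit false

namespace Crest.Agent.R153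

open Crest.ProbabilityR.RandomSAT Finset

theorem hitting_variance (k : ℕ) (hk : 3 ≤ k) :
    ∃ C : ℝ, ∀ n : ℕ, k ≤ n →
      Summable (fun m : ℕ => satProb k n m) ∧
      Summable (fun m : ℕ => (2 * (m : ℝ) + 1) * satProb k n m) ∧
      (∑' m : ℕ, (2 * (m : ℝ) + 1) * satProb k n m) - (∑' m : ℕ, satProb k n m) ^ 2 ≤ C * n := by
  obtain ⟨k, rfl⟩ : ∃ k', k = k' + 1 := ⟨k - 1, by omega⟩
  obtain ⟨C, hC⟩ := var_bound (k := k) (by omega)
  refine ⟨C, fun n hn => ?_⟩
  have hfun : ∀ m, satProb (k + 1) n m = (P (k + 1) n ^ m) (ee 0) 0 := fun m => satProb_eq _ _ _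
  have h0 : ∀ m, 0 ≤ satProb (k + 1) n m := by
    intro m
    rw [hfun]
    exact ((P_isT (k + 1) n).pow m).nonneg (ee_nonneg 0) 0
  set x : ℝ := 1 - (1 / 2 : ℝ) ^ (k + 1) with hx
  have hp0 : (0 : ℝ) < (1 / 2 : ℝ) ^ (k + 1) := by positivity
  have hp1 : (1 / 2 : ℝ) ^ (k + 1) ≤ 1 := pow_le_one₀ (by norm_num) (by norm_num)
  have hx0 : 0 ≤ x := by rw [hx]; linarith
  have hx1 : x < 1 := by rw [hx]; linarith
  have hle : ∀ m, satProb (k + 1) n m ≤ 2 ^ n * x ^ m := by
    intro m
    rw [hfun]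
    exact first_moment hn m
  have hs1 : Summable (fun m : ℕ => satProb (k + 1) n m) :=
    Summable.of_nonneg_of_le h0 hle ((summable_geometric_of_lt_one hx0 hx1).mul_left _)
  have hnorm : ‖x‖ < 1 := by rw [Real.norm_eq_abs, abs_of_nonneg hx0]; exact hx1
  have hg : Summable (fun m : ℕ => (2 * (m : ℝ) + 1) * (2 ^ n * x ^ m)) := by
    have h1 := (summable_pow_mul_geometric_of_norm_lt_one 1 hnorm).mul_left (2 * 2 ^ n)
    have h2 := (summable_geometric_of_lt_one hx0 hx1).mul_left ((2 : ℝ) ^ n)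
    refine (h1.add h2).congr fun m => ?_
    ring
  have hs2 : Summable (fun m : ℕ => (2 * (m : ℝ) + 1) * satProb (k + 1) n m) := by
    refine Summable.of_nonneg_of_le (fun m => mul_nonneg (by positivity) (h0 m)) (fun m => ?_) hg
    exact mul_le_mul_of_nonneg_left (hle m) (by positivity)
  refine ⟨hs1, hs2, ?_⟩
  have ht := hs2.hasSum.tendsto_sum_nat.sub (hs1.hasSum.tendsto_sum_nat.pow 2)
  refine le_of_tendsto' ht fun M => ?_
  have := hC n M hn
  simpa only [hfun] using this

end Crest.Agent.R153
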