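import Mathlib
import Crest.Agent.R153.EUBasic
import Crest.Agent.R153.KapBound

/-!
# Row 153, piece LT1: numerical codes of clauses, formulas, assignments

Clause size `j`, `n` variables.  A clause code is `x < (2n)^j`; its `i`-th digit
`x / (2n)^i % (2n) = 2 * (variable) + (sign)`.  `validC`: the variables are distinct (`1` or `0`).
An assignment code is `s < 2^n`, value of the variable `i` = `s / 2^i % 2`.
`violC j n x s = 1` iff every literal `i` of `x` is false: `s / 2^var % 2 ≠ sign`.
A formula code is `y < ((2n)^j)^m`, its clauses are `y / ((2n)^j)^t % (2n)^j`, `t < m`.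
`violF = ∑_{t<m} violC`, `UF = min over s = ∑_{t<m} 1[∀ s < 2^n, t < violF]`.
`NU j n m = ∑_y (∏_t validC) * UF` is the numerator of `EU`.

Everything is written with bounded sums and products of `0/1`-valued functions, so that it is
primitive recursive.
-/

set_option autoImplicit false

namespace Crest.Agent.R153

open Crest.ProbabilityR.RandomSAT Finset

/-- literal number `i` of the clause code `x` -/
def litC (n x i : ℕ) : ℕ := x / (2 * n) ^ i % (2 * n)

/-- `1` if the variables of the clause code are distinct -/
def validC (j n x : ℕ) : ℕ :=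
  ∏ i ∈ range j, ∏ i' ∈ range j,
    if i ≠ i' ∧ litC n x i / 2 = litC n x i' / 2 then 0 else 1

/-- `1` if the clause code `x` is violated by the assignment code `s` -/
def violC (j n x s : ℕ) : ℕ :=
  ∏ i ∈ range j, if s / 2 ^ (litC n x i / 2) % 2 = litC n x i % 2 then 0 else 1

/-- clause number `t` of the formula code `y` -/
def clC (j n y t : ℕ) : ℕ := y / ((2 * n) ^ j) ^ t % (2 * n) ^ j

/-- number of violated clauses -/
def violF (j n m y s : ℕ) : ℕ := ∑ t ∈ range m, violC j n (clC j n y t) s

/-- minimal number of violated clauses -/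
def UF (j n m y : ℕ) : ℕ :=
  ∑ t ∈ range m, ∏ s ∈ range (2 ^ n), if t < violF j n m y s then 1 else 0

/-- numerator of `EU` -/
def NU (j n m : ℕ) : ℕ :=
  ∑ y ∈ range (((2 * n) ^ j) ^ m), (∏ t ∈ range m, validC j n (clC j n y t)) * UF j n m y

/-- code of a clause -/
def codeC {j n : ℕ} (c : Clause j n) : ℕ :=
  ∑ i : Fin j, (2 * (c.1.1 i : ℕ) + (if c.2 i = true then 1 else 0)) * (2 * n) ^ (i : ℕ)

/-- code of an assignment -/
def codeA {n : ℕ} (s : Asg n) : ℕ := ∑ i : Fin n, (if s i = true then 1 else 0) * 2 ^ (i : ℕ)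

end Crest.Agent.R153
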