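import Mathlib
import Crest.Agent.R153.LTCode

/-!
# Row 153, piece LT2: digits (see `LTCode`)

`codeC c = ∑_i digit_i (2n)^i` with digits `2 * var + sign < 2n`; `finFunctionFinEquiv` (values
`∑ i, f i * m^i`, inverse `a / m^i % m`) gives the digits and surjectivity.  Likewise in base `2`.
-/

set_option autoImplicit false

namespace Crest.Agent.R153

open Crest.ProbabilityR.RandomSAT Finset

namespace LTClauseAux

/-- digits of a sum -/
lemma digit_sum {m k : ℕ} (f : Fin k → Fin m) (i : Fin k) :
    (∑ l : Fin k, (f l : ℕ) * m ^ (l : ℕ)) / m ^ (i : ℕ) % m = f i := by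
  have h := congrFun (finFunctionFinEquiv.symm_apply_apply f) i
  exact congrArg Fin.val h

lemma sum_lt {m k : ℕ} (f : Fin k → Fin m) :
    ∑ l : Fin k, (f l : ℕ) * m ^ (l : ℕ) < m ^ k := by
  exact (finFunctionFinEquiv f).isLt

lemma exists_digits {m k x : ℕ} (hx : x < m ^ k) :
    ∃ f : Fin k → Fin m, ∑ l : Fin k, (f l : ℕ) * m ^ (l : ℕ) = x ∧
      ∀ i : Fin k, (f i : ℕ) = x / m ^ (i : ℕ) % m := by
  refine ⟨finFunctionFinEquiv.symm ⟨x, hx⟩, ?_, fun i => rfl⟩
  exact congrArg Fin.val (finFunctionFinEquiv.apply_symm_apply ⟨x, hx⟩)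

/-- digit function of a clause -/
def dig {j n : ℕ} (c : Clause j n) (i : Fin j) : Fin (2 * n) :=
  ⟨2 * (c.1.1 i : ℕ) + (if c.2 i = true then 1 else 0), by
    have := (c.1.1 i).isLt
    split_ifs <;> omega⟩

lemma codeC_eq {j n : ℕ} (c : Clause j n) :
    codeC c = ∑ l : Fin j, (dig c l : ℕ) * (2 * n) ^ (l : ℕ) := rfl

/-- digit function of an assignment -/
def digA {n : ℕ} (s : Asg n) (i : Fin n) : Fin 2 :=
  ⟨if s i = true then 1 else 0, by split_ifs <;> omega⟩

lemma codeA_eq {n : ℕ} (s : Asg n) :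
    codeA s = ∑ l : Fin n, (digA s l : ℕ) * 2 ^ (l : ℕ) := rfl

end LTClauseAux

open LTClauseAux

theorem codeC_lt {j n : ℕ} (c : Clause j n) : codeC c < (2 * n) ^ j := by
  rw [codeC_eq]; exact sum_lt _

theorem litC_codeC {j n : ℕ} (c : Clause j n) (i : Fin j) :
    litC n (codeC c) i = 2 * (c.1.1 i : ℕ) + (if c.2 i = true then 1 else 0) := by
  rw [codeC_eq, litC, digit_sum]; rfl

theorem codeC_injective {j n : ℕ} : Function.Injective (codeC : Clause j n → ℕ) := by
  intro c d h
  have key : ∀ i : Fin j, 2 * (c.1.1 i : ℕ) + (if c.2 i = true then 1 else 0)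
      = 2 * (d.1.1 i : ℕ) + (if d.2 i = true then 1 else 0) := by
    intro i
    rw [← litC_codeC, ← litC_codeC, h]
  have h1 : c.1 = d.1 := by
    apply Subtype.ext
    funext i
    apply Fin.ext
    have := key i
    split_ifs at this <;> omega
  have h2 : c.2 = d.2 := by
    funext i
    have := key i
    rw [h1] at this
    by_cases hc : c.2 i = true <;> by_cases hd : d.2 i = true <;>
      simp_all
  exact Prod.ext h1 h2

theorem validC_le_one (j n x : ℕ) : validC j n x ≤ 1 := by
  unfold validC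
  refine prod_le_one' fun i _ => prod_le_one' fun i' _ => ?_
  split_ifs <;> omega

/-- the valid codes are exactly the codes of clauses -/
theorem validC_eq_one_iff {j n x : ℕ} (hx : x < (2 * n) ^ j) :
    validC j n x = 1 ↔ ∃ c : Clause j n, codeC c = x := by
  have hv : validC j n x = 1 ↔ ∀ i < j, ∀ i' < j, ¬ (i ≠ i' ∧ litC n x i / 2 = litC n x i' / 2) := by
    unfold validC
    constructor
    · intro h i hi i' hi' hcon
      have hz : (∏ i ∈ range j, ∏ i' ∈ range j,
          if i ≠ i' ∧ litC n x i / 2 = litC n x i' / 2 then 0 else 1) = 0 := by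
        apply prod_eq_zero (mem_range.2 hi)
        apply prod_eq_zero (mem_range.2 hi')
        rw [if_pos hcon]
      omega
    · intro h
      apply prod_eq_one
      intro i hi
      apply prod_eq_one
      intro i' hi'
      rw [if_neg (h i (mem_range.1 hi) i' (mem_range.1 hi'))]
  rw [hv]
  constructor
  · intro h
    obtain ⟨f, hf, hd⟩ := exists_digits hx
    have hfl : ∀ i : Fin j, (f i : ℕ) = litC n x i := hd
    have hlt : ∀ i : Fin j, (f i : ℕ) / 2 < n := by
      intro i
      have := (f i).isLt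
      omega
    refine ⟨(⟨fun i => ⟨(f i : ℕ) / 2, hlt i⟩, ?_⟩, fun i => decide ((f i : ℕ) % 2 = 1)), ?_⟩
    · intro i i' hii
      by_contra hne
      apply h i i.isLt i' i'.isLt
      refine ⟨fun he => hne (Fin.ext he), ?_⟩
      have := congrArg Fin.val hii
      simp only at this
      rw [← hfl, ← hfl, this]
    · refine Eq.trans ?_ hf
      rw [codeC]
      apply sum_congr rfl
      intro i _
      congr 1
      simp only [decide_eq_true_eq]
      split_ifs <;> omega
  · rintro ⟨c, rfl⟩ i hi i' hi' ⟨hne, he⟩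
    have h1 := litC_codeC c ⟨i, hi⟩
    have h2 := litC_codeC c ⟨i', hi'⟩
    simp only at h1 h2
    rw [h1, h2] at he
    apply hne
    have : c.1.1 ⟨i, hi⟩ = c.1.1 ⟨i', hi'⟩ := by
      apply Fin.ext
      split_ifs at he <;> omega
    exact congrArg Fin.val (c.1.2 this)

theorem codeA_lt {n : ℕ} (s : Asg n) : codeA s < 2 ^ n := by
  rw [codeA_eq]; exact sum_lt _

theorem codeA_bit {n : ℕ} (s : Asg n) (i : Fin n) :
    codeA s / 2 ^ (i : ℕ) % 2 = if s i = true then 1 else 0 := by
  rw [codeA_eq, digit_sum]; rfl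

theorem exists_codeA {n y : ℕ} (hy : y < 2 ^ n) : ∃ s : Asg n, codeA s = y := by
  obtain ⟨f, hf, -⟩ := exists_digits hy
  refine ⟨fun i => decide ((f i : ℕ) = 1), ?_⟩
  rw [← hf, codeA]
  apply sum_congr rfl
  intro i _
  congr 1
  simp only [decide_eq_true_eq]
  have := (f i).isLt
  split_ifs <;> omega

theorem violC_code {j n : ℕ} (c : Clause j n) (s : Asg n) :
    violC j n (codeC c) (codeA s) = vc c s := by
  unfold violC vc
  rw [prod_range]
  have key : ∀ i : Fin j, (codeA s / 2 ^ (litC n (codeC c) i / 2) % 2 = litC n (codeC c) i % 2) ↔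
      s (c.1.1 i) = c.2 i := by
    intro i
    rw [litC_codeC]
    have h1 : (2 * (c.1.1 i : ℕ) + (if c.2 i = true then 1 else 0)) / 2 = (c.1.1 i : ℕ) := by
      split_ifs <;> omega
    have h2 : (2 * (c.1.1 i : ℕ) + (if c.2 i = true then 1 else 0)) % 2
        = (if c.2 i = true then 1 else 0) := by
      split_ifs <;> omega
    rw [h1, h2, codeA_bit]
    by_cases h3 : s (c.1.1 i) = true <;> by_cases h4 : c.2 i = true <;> simp_all
  split_ifs with h
  · apply prod_eq_one
    intro i _
    rw [if_neg]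
    rw [key]
    exact h i
  · push Not at h
    obtain ⟨i, hi⟩ := h
    apply prod_eq_zero (mem_univ i)
    rw [if_pos]
    rw [key]
    exact hi

end Crest.Agent.R153
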