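import Mathlib
import Crest.Agent.R153.LTClause

/-!
# Row 153, piece LT3: the numerator of `EU`

* `UF_code`: if `clC j n y t = codeC (F t)` for all `t < m` then `UF j n m y = U (∑ t, vc (F t))`:
  the number of `t < m` with `∀ s < 2^n, t < violF s` is the minimum of `violF` over `s` (it is
  `≤ m`), every `s < 2^n` is the code of an assignment.
* `NU_eq`: `y ↦ (t ↦ clC j n y t)` is a bijection from `y < B^m` onto `Fin m → Fin B`, `B = (2n)^j`
  (`finFunctionFinEquiv`); the product of the `validC` is `0` unless all digits are codes of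
  clauses (`validC_le_one`, `validC_eq_one_iff`), i.e. unless the function comes from a (unique) `F`.
* `EU_eq`: `P_pow_apply`, `card_clause`.
-/

set_option autoImplicit false

namespace Crest.Agent.R153

open Crest.ProbabilityR.RandomSAT Finset

namespace LTFormulaAux

open LTClauseAux

theorem prod_ite_all {m : ℕ} (p : ℕ → Prop) [DecidablePred p] [Decidable (∀ s < m, p s)] :
    (∏ s ∈ range m, if p s then 1 else 0) = if ∀ s < m, p s then 1 else 0 := by
  split_ifs with h
  · exact prod_eq_one fun s hs => if_pos (h s (mem_range.1 hs))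
  · push Not at h
    obtain ⟨s, hs, hp⟩ := h
    exact prod_eq_zero (mem_range.2 hs) (if_neg hp)

theorem sum_lt_ite (m u : ℕ) (hu : u ≤ m) : (∑ t ∈ range m, if t < u then 1 else 0) = u := by
  rw [← sum_filter_add_sum_filter_not (range m) (fun t => t < u)]
  have h1 : (range m).filter (fun t => t < u) = range u := by
    ext t
    simp only [mem_filter, mem_range]
    omega
  rw [sum_congr rfl (g := fun _ => 1) (s₂ := (range m).filter (fun t => t < u))
    (fun t ht => if_pos (mem_filter.1 ht).2)]
  rw [sum_eq_zero (s := (range m).filter (fun t => ¬ t < u))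
    (fun t ht => if_neg (mem_filter.1 ht).2), h1]
  simp

/-- the code of a formula -/
def codeF {j n m : ℕ} (F : Fin m → Clause j n) : ℕ :=
  ∑ t : Fin m, codeC (F t) * ((2 * n) ^ j) ^ (t : ℕ)

/-- digits -/
def digF {j n m : ℕ} (F : Fin m → Clause j n) (t : Fin m) : Fin ((2 * n) ^ j) :=
  ⟨codeC (F t), codeC_lt (F t)⟩

theorem codeF_eq {j n m : ℕ} (F : Fin m → Clause j n) :
    codeF F = ∑ t : Fin m, (digF F t : ℕ) * ((2 * n) ^ j) ^ (t : ℕ) := rfl

theorem clC_codeF {j n m : ℕ} (F : Fin m → Clause j n) (t : Fin m) :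
    clC j n (codeF F) t = codeC (F t) := by
  unfold clC
  rw [codeF_eq, digit_sum]
  rfl

end LTFormulaAux

open LTFormulaAux LTClauseAux

theorem UF_code {j n m y : ℕ} (F : Fin m → Clause j n)
    (h : ∀ t : Fin m, clC j n y t = codeC (F t)) :
    UF j n m y = U (∑ t, vc (F t)) := by
  classical
  have hv : ∀ s : Asg n, violF j n m y (codeA s) = (∑ t, vc (F t)) s := by
    intro s
    unfold violF
    rw [sum_range, Finset.sum_apply]
    exact sum_congr rfl fun t _ => by rw [h t, violC_code]
  have hU : U (∑ t, vc (F t)) ≤ m := by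
    refine (U_le _ (fun _ => true)).trans ?_
    rw [Finset.sum_apply]
    calc ∑ i, vc (F i) (fun _ => true) ≤ ∑ _i : Fin m, 1 :=
          Finset.sum_le_sum fun i _ => vc_le_one _ _
      _ = m := by simp
  have hall : ∀ t, (∀ s < 2 ^ n, t < violF j n m y s) ↔ t < U (∑ t, vc (F t)) := by
    intro t
    rw [lt_U]
    constructor
    · intro h1 s
      rw [← hv]
      exact h1 _ (codeA_lt s)
    · intro h1 s hs
      obtain ⟨s', rfl⟩ := exists_codeA hs
      rw [hv]
      exact h1 s'
  unfold UF
  rw [← sum_lt_ite m _ hU]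
  refine sum_congr rfl fun t _ => ?_
  rw [prod_ite_all (fun s => t < violF j n m y s)]
  exact if_congr (hall t) rfl rfl

theorem NU_eq (j n m : ℕ) :
    NU j n m = ∑ F : Fin m → Clause j n, U (∑ t, vc (F t)) := by
  unfold NU
  symm
  refine sum_of_injOn (codeF) ?_ ?_ ?_ ?_
  · intro F _ F' _ hFF
    funext t
    apply codeC_injective
    rw [← clC_codeF F t, ← clC_codeF F' t, hFF]
  · intro F _
    rw [mem_coe, mem_range, codeF_eq]
    exact sum_lt _
  · intro y hy hno
    rw [mem_range] at hy
    by_contra hne
    apply hno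
    have hprod : ∏ t ∈ range m, validC j n (clC j n y t) ≠ 0 := left_ne_zero_of_mul hne
    have hval : ∀ t : Fin m, ∃ c : Clause j n, codeC c = clC j n y t := by
      intro t
      have h1 : validC j n (clC j n y t) ≠ 0 := fun h0 =>
        hprod (prod_eq_zero (mem_range.2 t.2) h0)
      have h2 : validC j n (clC j n y t) = 1 := by
        have := validC_le_one j n (clC j n y t)
        omega
      have hB : 0 < (2 * n) ^ j := by
        rcases Nat.eq_zero_or_pos ((2 * n) ^ j) with h0 | h0
        · exfalso
          have hm : m ≠ 0 := by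
            have := t.2
            omega
          rw [h0, zero_pow hm] at hy
          omega
        · exact h0
      exact (validC_eq_one_iff (Nat.mod_lt _ hB)).1 h2
    choose F hF using hval
    refine ⟨F, mem_coe.2 (mem_univ F), ?_⟩
    obtain ⟨f, hf, hd⟩ := exists_digits hy
    rw [← hf]
    unfold codeF
    refine sum_congr rfl fun t _ => ?_
    rw [hF t, hd t]
    rfl
  · intro F _
    rw [UF_code F (clC_codeF F)]
    have : ∏ t ∈ range m, validC j n (clC j n (codeF F) t) = 1 := by
      refine prod_eq_one fun t ht => ?_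
      have h1 := clC_codeF F ⟨t, mem_range.1 ht⟩
      simp only at h1
      rw [h1]
      exact (validC_eq_one_iff (codeC_lt _)).2 ⟨_, rfl⟩
    rw [this, one_mul]

theorem EU_eq (j n m : ℕ) :
    EU j n m = (NU j n m : ℝ) / ((n.descFactorial j * 2 ^ j : ℕ) : ℝ) ^ m := by
  unfold EU
  rw [P_pow_apply, card_clause, NU_eq, div_eq_mul_inv, mul_comm]
  congr 1
  push_cast
  refine sum_congr rfl fun F _ => ?_
  unfold Ur
  rw [zero_add]

end Crest.Agent.R153
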