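import Mathlib
import Crest.Agent.R153.LTCode

/-!
# Row 153, piece LT4: `NU` is primitive recursive

Everything is built from `+, *, /, %, ^`, `if` with decidable (in)equalities, and bounded sums and
products `∑ i ∈ range (g a), f a i` (`primrec_sum_range`, `primrec_prod_range`: by recursion on the
bound, `Primrec.nat_rec'`; `Finset.sum_range_succ`).
-/

set_option autoImplicit false

namespace Crest.Agent.R153

open Finset

section
variable {α : Type*} [Primcodable α]

lemma pr_pow {f g : α → ℕ} (hf : Primrec f) (hg : Primrec g) :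
    Primrec fun a => f a ^ g a :=
  (Primrec₂.unpaired'.1 Nat.Primrec.pow).comp hf hg

lemma pr_add {f g : α → ℕ} (hf : Primrec f) (hg : Primrec g) :
    Primrec fun a => f a + g a := Primrec.nat_add.comp hf hg

lemma pr_mul {f g : α → ℕ} (hf : Primrec f) (hg : Primrec g) :
    Primrec fun a => f a * g a := Primrec.nat_mul.comp hf hg

lemma pr_div {f g : α → ℕ} (hf : Primrec f) (hg : Primrec g) :
    Primrec fun a => f a / g a := Primrec.nat_div.comp hf hg

lemma pr_mod {f g : α → ℕ} (hf : Primrec f) (hg : Primrec g) :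
    Primrec fun a => f a % g a := Primrec.nat_mod.comp hf hg

lemma pr_eq {f g : α → ℕ} (hf : Primrec f) (hg : Primrec g) :
    PrimrecPred fun a => f a = g a := Primrec.eq.comp hf hg

lemma pr_lt {f g : α → ℕ} (hf : Primrec f) (hg : Primrec g) :
    PrimrecPred fun a => f a < g a := Primrec.nat_lt.comp hf hg

/-- bounded sums -/
lemma primrec_sum_range {g : α → ℕ} {f : α → ℕ → ℕ} (hg : Primrec g)
    (hf : Primrec fun p : α × ℕ => f p.1 p.2) : Primrec fun a => ∑ i ∈ range (g a), f a i := by
  have h := Primrec.nat_rec' (f := g) (g := fun _ : α => (0 : ℕ))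
    (h := fun a (p : ℕ × ℕ) => p.2 + f a p.1) hg (Primrec.const 0)
    (Primrec.nat_add.comp (Primrec.snd.comp Primrec.snd)
      (hf.comp (Primrec.fst.pair (Primrec.fst.comp Primrec.snd))))
  refine h.of_eq fun a => ?_
  induction g a with
  | zero => simp
  | succ n ih => rw [Finset.sum_range_succ, ← ih]

/-- bounded products -/
lemma primrec_prod_range {g : α → ℕ} {f : α → ℕ → ℕ} (hg : Primrec g)
    (hf : Primrec fun p : α × ℕ => f p.1 p.2) : Primrec fun a => ∏ i ∈ range (g a), f a i := by
  have h := Primrec.nat_rec' (f := g) (g := fun _ : α => (1 : ℕ))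
    (h := fun a (p : ℕ × ℕ) => p.2 * f a p.1) hg (Primrec.const 1)
    (Primrec.nat_mul.comp (Primrec.snd.comp Primrec.snd)
      (hf.comp (Primrec.fst.pair (Primrec.fst.comp Primrec.snd))))
  refine h.of_eq fun a => ?_
  induction g a with
  | zero => simp
  | succ n ih => rw [Finset.prod_range_succ, ← ih]

lemma pr_two_mul {n : α → ℕ} (hn : Primrec n) : Primrec fun a => 2 * n a :=
  pr_mul (Primrec.const 2) hn

lemma pr_litC {n x i : α → ℕ} (hn : Primrec n) (hx : Primrec x) (hi : Primrec i) :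
    Primrec fun a => litC (n a) (x a) (i a) :=
  pr_mod (pr_div hx (pr_pow (pr_two_mul hn) hi)) (pr_two_mul hn)

lemma pr_validC (j : ℕ) {n x : α → ℕ} (hn : Primrec n) (hx : Primrec x) :
    Primrec fun a => validC j (n a) (x a) := by
  unfold validC
  refine primrec_prod_range (Primrec.const j) ?_
  refine primrec_prod_range (α := α × ℕ) (Primrec.const j) ?_
  have h1 : Primrec fun p : (α × ℕ) × ℕ => n p.1.1 := hn.comp (Primrec.fst.comp Primrec.fst)
  have h2 : Primrec fun p : (α × ℕ) × ℕ => x p.1.1 := hx.comp (Primrec.fst.comp Primrec.fst)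
  have h3 : Primrec fun p : (α × ℕ) × ℕ => p.1.2 := Primrec.snd.comp Primrec.fst
  have h4 : Primrec fun p : (α × ℕ) × ℕ => p.2 := Primrec.snd
  refine Primrec.ite (PrimrecPred.and (PrimrecPred.not (pr_eq h3 h4)) ?_)
    (Primrec.const 0) (Primrec.const 1)
  exact pr_eq (pr_div (pr_litC h1 h2 h3) (Primrec.const 2))
    (pr_div (pr_litC h1 h2 h4) (Primrec.const 2))

lemma pr_violC (j : ℕ) {n x s : α → ℕ} (hn : Primrec n) (hx : Primrec x) (hs : Primrec s) :
    Primrec fun a => violC j (n a) (x a) (s a) := by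
  unfold violC
  refine primrec_prod_range (Primrec.const j) ?_
  have h1 : Primrec fun p : α × ℕ => n p.1 := hn.comp Primrec.fst
  have h2 : Primrec fun p : α × ℕ => x p.1 := hx.comp Primrec.fst
  have h3 : Primrec fun p : α × ℕ => s p.1 := hs.comp Primrec.fst
  have h4 : Primrec fun p : α × ℕ => p.2 := Primrec.snd
  refine Primrec.ite (pr_eq ?_ ?_) (Primrec.const 0) (Primrec.const 1)
  · exact pr_mod (pr_div h3 (pr_pow (Primrec.const 2)
      (pr_div (pr_litC h1 h2 h4) (Primrec.const 2)))) (Primrec.const 2)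
  · exact pr_mod (pr_litC h1 h2 h4) (Primrec.const 2)

lemma pr_clC (j : ℕ) {n y t : α → ℕ} (hn : Primrec n) (hy : Primrec y) (ht : Primrec t) :
    Primrec fun a => clC j (n a) (y a) (t a) := by
  unfold clC
  have h : Primrec fun a => (2 * n a) ^ j := pr_pow (pr_two_mul hn) (Primrec.const j)
  exact pr_mod (pr_div hy (pr_pow h ht)) h

lemma pr_violF (j : ℕ) {n m y s : α → ℕ} (hn : Primrec n) (hm : Primrec m) (hy : Primrec y)
    (hs : Primrec s) : Primrec fun a => violF j (n a) (m a) (y a) (s a) := by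
  unfold violF
  refine primrec_sum_range hm ?_
  exact pr_violC j (hn.comp Primrec.fst)
    (pr_clC j (hn.comp Primrec.fst) (hy.comp Primrec.fst) Primrec.snd) (hs.comp Primrec.fst)

lemma pr_UF (j : ℕ) {n m y : α → ℕ} (hn : Primrec n) (hm : Primrec m) (hy : Primrec y) :
    Primrec fun a => UF j (n a) (m a) (y a) := by
  unfold UF
  refine primrec_sum_range hm ?_
  refine primrec_prod_range (α := α × ℕ)
    (pr_pow (Primrec.const 2) (hn.comp Primrec.fst)) ?_
  have h1 : Primrec fun p : (α × ℕ) × ℕ => n p.1.1 := hn.comp (Primrec.fst.comp Primrec.fst)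
  have h2 : Primrec fun p : (α × ℕ) × ℕ => m p.1.1 := hm.comp (Primrec.fst.comp Primrec.fst)
  have h3 : Primrec fun p : (α × ℕ) × ℕ => y p.1.1 := hy.comp (Primrec.fst.comp Primrec.fst)
  have h4 : Primrec fun p : (α × ℕ) × ℕ => p.1.2 := Primrec.snd.comp Primrec.fst
  have h5 : Primrec fun p : (α × ℕ) × ℕ => p.2 := Primrec.snd
  exact Primrec.ite (pr_lt h4 (pr_violF j h1 h2 h3 h5)) (Primrec.const 1) (Primrec.const 0)

lemma pr_NU (j : ℕ) {n m : α → ℕ} (hn : Primrec n) (hm : Primrec m) :
    Primrec fun a => NU j (n a) (m a) := by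
  unfold NU
  refine primrec_sum_range
    (pr_pow (pr_pow (pr_two_mul hn) (Primrec.const j)) hm) ?_
  refine pr_mul ?_ (pr_UF j (hn.comp Primrec.fst) (hm.comp Primrec.fst) Primrec.snd)
  refine primrec_prod_range (α := α × ℕ) (hm.comp Primrec.fst) ?_
  have h1 : Primrec fun p : (α × ℕ) × ℕ => n p.1.1 := hn.comp (Primrec.fst.comp Primrec.fst)
  have h4 : Primrec fun p : (α × ℕ) × ℕ => p.1.2 := Primrec.snd.comp Primrec.fst
  have h5 : Primrec fun p : (α × ℕ) × ℕ => p.2 := Primrec.snd
  exact pr_validC j h1 (pr_clC j h1 h4 h5)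

end

theorem NU_primrec (j : ℕ) : Primrec (fun x : ℕ × ℕ => NU j x.1 x.2) :=
  pr_NU j Primrec.fst Primrec.snd

theorem descFactorial_primrec (j : ℕ) : Primrec (fun n : ℕ => n.descFactorial j) := by
  have h : Primrec fun n : ℕ => ∏ i ∈ range j, (n - i) :=
    primrec_prod_range (Primrec.const j) (Primrec.nat_sub.comp Primrec.fst Primrec.snd)
  refine h.of_eq fun n => ?_
  rw [Nat.descFactorial_eq_prod_range]

end Crest.Agent.R153
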