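import Mathlib
import Crest.Agent.R153.CSuper
import Crest.Agent.R153.EnergySmall

/-!
# Row 153, piece C6: certificates for `q < α`

`K ≥ α` natural, `C ≥` the constants of `energy_small` (for `K`) and of `EU_dyadic` (`j = k+1`, `K`).

`⇐`: `n = s²`, `q' = m/n ≤ K`, `N = 2^i n`, `⌊q' N⌋₊ = 2^i m`,
`EU N / N ≤ EU n m / n + C/s =: 1/e⁴ - δ`, `δ > 0`; `energy_small` (with `e := 1/e`) gives
`q' - C/e ≤ α`.

`⇒`: `q < q' < α` (`q' > 0`), choose `e` with `C/e < (q'-q)/2`, `m = ⌊q' s²⌋₊`; as `s → ∞`: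
`m/s² → q'`, `EU (s²) m / s² ≤ (m/s²) (1 - satProb) → 0` (`EU_le`, sharp threshold along `n = s²`),
`C/s → 0`.
-/

set_option autoImplicit false

namespace Crest.Agent.R153

open Crest.ProbabilityR.RandomSAT Finset Filter

theorem left_cert {k : ℕ} (hk : 2 ≤ k) {α : ℝ} (hα : IsSharpThreshold (satProb (k + 1)) α) :
    ∃ C K : ℕ, 0 < C ∧ ∀ q : ℝ, 0 ≤ q →
      (q < α ↔ ∃ s m e : ℕ, k + 1 ≤ s ∧ 0 < e ∧ m ≤ K * s ^ 2 ∧
        q < (m : ℝ) / s ^ 2 - (C : ℝ) / e ∧
        EU (k + 1) (s ^ 2) m / s ^ 2 + (C : ℝ) / s < 1 / (e : ℝ) ^ 4) := by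
  have hα0 : 0 ≤ α := threshold_nonneg hα
  obtain ⟨K, hKα⟩ := exists_nat_ge α
  obtain ⟨C1, hC1, hsmall⟩ := energy_small hk K
  obtain ⟨C2, hC2, hdy⟩ := EU_dyadic (j := k + 1) (by omega) K
  obtain ⟨C, hC⟩ := exists_nat_ge (max C1 C2)
  have hCC1 : C1 ≤ (C : ℝ) := (le_max_left _ _).trans hC
  have hCC2 : C2 ≤ (C : ℝ) := (le_max_right _ _).trans hC
  have hCpos : (0 : ℝ) < C := hC1.trans_le hCC1
  refine ⟨C, K, by exact_mod_cast hCpos, fun q hq => ⟨fun hqα => ?_, ?_⟩⟩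
  · -- existence of a certificate
    set q' : ℝ := (q + α) / 2 with hq'
    have hqq' : q < q' := by rw [hq']; linarith
    have hq'α : q' < α := by rw [hq']; linarith
    have hq'0 : 0 < q' := lt_of_le_of_lt hq hqq'
    obtain ⟨e, he⟩ := exists_nat_gt (2 * C / (q' - q))
    have hd : 0 < q' - q := by linarith
    have he0 : (0 : ℝ) < e := lt_of_le_of_lt (by positivity) he
    have hCe : (C : ℝ) / e < (q' - q) / 2 := by
      rw [div_lt_iff₀ he0]
      rw [div_lt_iff₀ hd] at he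
      linarith
    have hsq : Tendsto (fun s : ℕ => s ^ 2) atTop atTop := tendsto_pow_atTop (by norm_num)
    have h1 : Tendsto (fun s : ℕ => satProb (k + 1) (s ^ 2) ⌊q' * ((s ^ 2 : ℕ) : ℝ)⌋₊) atTop
        (nhds 1) := ((hα q' hq'0.le).1 hq'α).comp hsq
    have h2 : Tendsto (fun s : ℕ =>
        (K : ℝ) * (1 - satProb (k + 1) (s ^ 2) ⌊q' * ((s ^ 2 : ℕ) : ℝ)⌋₊) + (C : ℝ) / s) atTop
        (nhds ((K : ℝ) * (1 - 1) + 0)) :=
      ((h1.const_sub 1).const_mul _).add (tendsto_const_div_atTop_nhds_zero_nat _)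
    have he4 : (K : ℝ) * (1 - 1) + 0 < 1 / (e : ℝ) ^ 4 := by
      have : 0 < 1 / (e : ℝ) ^ 4 := by positivity
      linarith
    have h3 : Tendsto (fun s : ℕ => (1 : ℝ) / s) atTop (nhds 0) :=
      tendsto_const_div_atTop_nhds_zero_nat _
    obtain ⟨s, hs1, hs2, hs3, hs4⟩ := ((h2.eventually_lt_const he4).and
      ((h3.eventually_lt_const (show (0 : ℝ) < (q' - q) / 2 by linarith)).and
      ((eventually_ge_atTop (k + 1)).and (eventually_ge_atTop 1)))).exists
    have hs0 : (0 : ℝ) < s := by exact_mod_cast (by omega : 0 < s)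
    have hs1' : (1 : ℝ) ≤ s := by exact_mod_cast hs4
    set m : ℕ := ⌊q' * ((s ^ 2 : ℕ) : ℝ)⌋₊ with hm
    have hmle : (m : ℝ) ≤ q' * ((s ^ 2 : ℕ) : ℝ) := Nat.floor_le (by positivity)
    have hmge : q' * ((s ^ 2 : ℕ) : ℝ) < m + 1 := Nat.lt_floor_add_one _
    push_cast at hmle hmge
    have hs2p : (0 : ℝ) < (s : ℝ) ^ 2 := by positivity
    have hmK : (m : ℝ) / s ^ 2 ≤ K := by
      rw [div_le_iff₀ hs2p]
      exact hmle.trans (mul_le_mul_of_nonneg_right (hq'α.le.trans hKα) hs2p.le)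
    have hle1 : satProb (k + 1) (s ^ 2) m ≤ 1 := by
      unfold satProb Crest.FinProb.uniformProb
      refine div_le_one_of_le₀ ?_ (by positivity)
      exact_mod_cast card_le_univ _
    refine ⟨s, m, e, hs3, by exact_mod_cast he0, ?_, ?_, ?_⟩
    · have : (m : ℝ) ≤ K * (s : ℝ) ^ 2 := by rwa [div_le_iff₀ hs2p] at hmK
      exact_mod_cast this
    · have h5 : q' - 1 / s < (m : ℝ) / s ^ 2 := by
        rw [lt_div_iff₀ hs2p]
        have h6 : (1 : ℝ) / s * s ^ 2 = s := by field_simp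
        nlinarith
      linarith
    · have hks : k + 1 ≤ s ^ 2 := hs3.trans (Nat.le_self_pow (by norm_num) s)
      have h5 := EU_le hks m
      have h6 : EU (k + 1) (s ^ 2) m / s ^ 2
          ≤ K * (1 - satProb (k + 1) (s ^ 2) m) := by
        calc EU (k + 1) (s ^ 2) m / s ^ 2
            ≤ (m * (1 - satProb (k + 1) (s ^ 2) m)) / s ^ 2 := by gcongr
          _ = (m : ℝ) / s ^ 2 * (1 - satProb (k + 1) (s ^ 2) m) := by ring
          _ ≤ K * (1 - satProb (k + 1) (s ^ 2) m) :=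
              mul_le_mul_of_nonneg_right hmK (by linarith)
      linarith
  · -- a certificate proves `q < α`
    rintro ⟨s, m, e, hs, he, hmK, hqm, hEU⟩
    have hs0 : (0 : ℝ) < s := by exact_mod_cast (by omega : 0 < s)
    have he0 : (0 : ℝ) < e := by exact_mod_cast he
    have he1 : (1 : ℝ) ≤ e := by exact_mod_cast he
    have hs2p : (0 : ℝ) < (s : ℝ) ^ 2 := by positivity
    have hks : k + 1 ≤ s ^ 2 := hs.trans (Nat.le_self_pow (by norm_num) s)
    have hq'K : (m : ℝ) / s ^ 2 ≤ K := by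
      rw [div_le_iff₀ hs2p]
      exact_mod_cast hmK
    have hC1e : C1 / e ≤ (C : ℝ) / e := by gcongr
    have hmain : (m : ℝ) / s ^ 2 - C1 * (1 / e) ≤ α := by
      refine hsmall α hα ((m : ℝ) / s ^ 2) (by positivity) hq'K (1 / e) (by positivity)
        ?_ (1 / (e : ℝ) ^ 4 - (EU (k + 1) (s ^ 2) m / s ^ 2 + (C : ℝ) / s)) (by linarith) ?_
      · rw [div_le_one he0]; exact he1
      · rw [Filter.frequently_atTop]
        intro a
        refine ⟨2 ^ a * s ^ 2, ?_, ?_⟩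
        · calc a ≤ 2 ^ a := Nat.lt_two_pow_self.le
            _ = 2 ^ a * 1 := (mul_one _).symm
            _ ≤ 2 ^ a * s ^ 2 := Nat.mul_le_mul_left _ (Nat.one_le_pow _ _ (by omega))
        · have hfl : ⌊(m : ℝ) / s ^ 2 * ((2 ^ a * s ^ 2 : ℕ) : ℝ)⌋₊ = 2 ^ a * m := by
            have : (m : ℝ) / s ^ 2 * ((2 ^ a * s ^ 2 : ℕ) : ℝ) = ((2 ^ a * m : ℕ) : ℝ) := by
              push_cast
              field_simp
            rw [this, Nat.floor_natCast]
          rw [hfl]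
          have h7 := hdy (s ^ 2) m a hks hmK
          have hN : (0 : ℝ) < ((2 ^ a * s ^ 2 : ℕ) : ℝ) := by push_cast; positivity
          rw [div_le_iff₀ hN] at h7
          refine h7.trans (mul_le_mul_of_nonneg_right ?_ hN.le)
          have h8 : Real.sqrt ((s ^ 2 : ℕ) : ℝ) = s := by
            push_cast
            exact Real.sqrt_sq hs0.le
          rw [h8]
          have h9 : C2 / (s : ℝ) ≤ C / s := by gcongr
          have h10 : (1 / (e : ℝ)) ^ 4 = 1 / (e : ℝ) ^ 4 := by rw [div_pow, one_pow]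
          rw [h10]
          push_cast
          linarith
    have h11 : C1 * (1 / (e : ℝ)) = C1 / e := by ring
    rw [h11] at hmain
    linarith

end Crest.Agent.R153
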