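import Mathlib
import Crest.Agent.R153.LTFormula
import Crest.Agent.R153.LTPrim
import Crest.Agent.R153.LeftCert

/-!
# Row 153, piece LT5: the semi-decision test for rationals below the threshold

`k = 2`.  `left_cert` gives `C, K`.  For `c = pair s (pair m e)`, `q = a/b`, all conditions are
inequalities between natural numbers:
* `3 ≤ s`, `0 < e`, `m ≤ K s²`;
* `a/b < m/s² - C/e  ↔  a e s² + C b s² < m b e`;
* `EU 3 (s²) m / s² + C/s < 1/e⁴ ↔ (NU 3 (s²) m + C s D^m) e⁴ < D^m s²`,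
  `D = (s²).descFactorial 3 * 2^3`.
`testL a b c = decide (...)`, primitive recursive by `NU_primrec`, `descFactorial_primrec`.
-/

set_option autoImplicit false

namespace Crest.Agent.R153

open Crest.ProbabilityR.RandomSAT Finset

/-- the test, with constants `C`, `K` -/
def testL (C K a b c : ℕ) : Bool :=
  let s := c.unpair.1
  let m := c.unpair.2.unpair.1
  let e := c.unpair.2.unpair.2
  let D := (s ^ 2).descFactorial 3 * 2 ^ 3
  decide (3 ≤ s) && decide (0 < e) && decide (m ≤ K * s ^ 2)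
    && decide (a * e * s ^ 2 + C * b * s ^ 2 < m * b * e)
    && decide ((NU 3 (s ^ 2) m + C * s * D ^ m) * e ^ 4 < D ^ m * s ^ 2)

lemma primrec_pow_aux {α : Type*} [Primcodable α] {f g : α → ℕ} (hf : Primrec f)
    (hg : Primrec g) : Primrec (fun a => f a ^ g a) := by
  have h : Primrec₂ (fun x y : ℕ => x ^ y) := Primrec₂.unpaired'.1 Nat.Primrec.pow
  exact h.comp hf hg

lemma test_primrec_gen {α : Type*} [Primcodable α] (C K : ℕ) {a b s m e D N : α → ℕ}
    (ha : Primrec a) (hb : Primrec b) (hs : Primrec s) (hm : Primrec m) (he : Primrec e)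
    (hD : Primrec D) (hN : Primrec N) :
    Primrec (fun x => decide (3 ≤ s x) && decide (0 < e x) && decide (m x ≤ K * s x ^ 2)
      && decide (a x * e x * s x ^ 2 + C * b x * s x ^ 2 < m x * b x * e x)
      && decide ((N x + C * s x * D x ^ m x) * e x ^ 4 < D x ^ m x * s x ^ 2)) := by
  have hs2 : Primrec (fun x => s x ^ 2) := primrec_pow_aux hs (Primrec.const 2)
  have hDm := primrec_pow_aux hD hm
  have h1 : Primrec (fun x => decide (3 ≤ s x)) :=
    Primrec.nat_le.decide.comp (Primrec.const 3) hs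
  have h2 : Primrec (fun x => decide (0 < e x)) :=
    Primrec.nat_lt.decide.comp (Primrec.const 0) he
  have h3 : Primrec (fun x => decide (m x ≤ K * s x ^ 2)) :=
    Primrec.nat_le.decide.comp hm (Primrec.nat_mul.comp (Primrec.const K) hs2)
  have h4 : Primrec (fun x => decide (a x * e x * s x ^ 2 + C * b x * s x ^ 2
      < m x * b x * e x)) :=
    Primrec.nat_lt.decide.comp
      (Primrec.nat_add.comp (Primrec.nat_mul.comp (Primrec.nat_mul.comp ha he) hs2)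
        (Primrec.nat_mul.comp (Primrec.nat_mul.comp (Primrec.const C) hb) hs2))
      (Primrec.nat_mul.comp (Primrec.nat_mul.comp hm hb) he)
  have h5 : Primrec (fun x => decide ((N x + C * s x * D x ^ m x) * e x ^ 4
      < D x ^ m x * s x ^ 2)) :=
    Primrec.nat_lt.decide.comp
      (Primrec.nat_mul.comp (Primrec.nat_add.comp hN
        (Primrec.nat_mul.comp (Primrec.nat_mul.comp (Primrec.const C) hs) hDm))
        (primrec_pow_aux he (Primrec.const 4)))
      (Primrec.nat_mul.comp hDm hs2)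
  exact Primrec.and.comp (Primrec.and.comp (Primrec.and.comp (Primrec.and.comp h1 h2) h3) h4) h5

theorem testL_primrec (C K : ℕ) : Primrec (fun x : ℕ × ℕ × ℕ => testL C K x.1 x.2.1 x.2.2) := by
  have ha : Primrec (fun x : ℕ × ℕ × ℕ => x.1) := Primrec.fst
  have hb : Primrec (fun x : ℕ × ℕ × ℕ => x.2.1) := Primrec.fst.comp Primrec.snd
  have hc : Primrec (fun x : ℕ × ℕ × ℕ => x.2.2) := Primrec.snd.comp Primrec.snd
  have hs : Primrec (fun x : ℕ × ℕ × ℕ => x.2.2.unpair.1) :=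
    Primrec.fst.comp (Primrec.unpair.comp hc)
  have hme : Primrec (fun x : ℕ × ℕ × ℕ => x.2.2.unpair.2) :=
    Primrec.snd.comp (Primrec.unpair.comp hc)
  have hm : Primrec (fun x : ℕ × ℕ × ℕ => x.2.2.unpair.2.unpair.1) :=
    Primrec.fst.comp (Primrec.unpair.comp hme)
  have he : Primrec (fun x : ℕ × ℕ × ℕ => x.2.2.unpair.2.unpair.2) :=
    Primrec.snd.comp (Primrec.unpair.comp hme)
  have hs2 : Primrec (fun x : ℕ × ℕ × ℕ => x.2.2.unpair.1 ^ 2) :=
    primrec_pow_aux hs (Primrec.const 2)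
  have hD : Primrec (fun x : ℕ × ℕ × ℕ => (x.2.2.unpair.1 ^ 2).descFactorial 3 * 2 ^ 3) :=
    Primrec.nat_mul.comp ((descFactorial_primrec 3).comp hs2) (Primrec.const _)
  have hNU : Primrec (fun x : ℕ × ℕ × ℕ => NU 3 (x.2.2.unpair.1 ^ 2) x.2.2.unpair.2.unpair.1) :=
    Primrec₂.comp (f := NU 3) (NU_primrec 3) hs2 hm
  exact test_primrec_gen C K ha hb hs hm he hD hNU

theorem testL_iff (C K a b : ℕ) (hb : 0 < b) :
    (∃ c, testL C K a b c = true) ↔ ∃ s m e : ℕ, 2 + 1 ≤ s ∧ 0 < e ∧ m ≤ K * s ^ 2 ∧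
        (a : ℝ) / b < (m : ℝ) / s ^ 2 - (C : ℝ) / e ∧
        EU (2 + 1) (s ^ 2) m / s ^ 2 + (C : ℝ) / s < 1 / (e : ℝ) ^ 4 := by
  have key : ∀ s m e : ℕ, 3 ≤ s → 0 < e →
      ((a * e * s ^ 2 + C * b * s ^ 2 < m * b * e ↔
          (a : ℝ) / b < (m : ℝ) / s ^ 2 - (C : ℝ) / e) ∧
        ((NU 3 (s ^ 2) m + C * s * ((s ^ 2).descFactorial 3 * 2 ^ 3) ^ m) * e ^ 4
            < ((s ^ 2).descFactorial 3 * 2 ^ 3) ^ m * s ^ 2 ↔
          EU 3 (s ^ 2) m / s ^ 2 + (C : ℝ) / s < 1 / (e : ℝ) ^ 4)) := by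
    intro s m e hs he
    have hb' : (0 : ℝ) < b := by exact_mod_cast hb
    have hs' : (0 : ℝ) < s := by exact_mod_cast (by omega : 0 < s)
    have he' : (0 : ℝ) < e := by exact_mod_cast he
    have hD0 : 0 < (s ^ 2).descFactorial 3 * 2 ^ 3 := by
      have h3 : 3 ≤ s ^ 2 := by nlinarith
      have := Nat.descFactorial_pos.2 h3
      positivity
    have hD : (0 : ℝ) < (((s ^ 2).descFactorial 3 * 2 ^ 3 : ℕ) : ℝ) ^ m := by
      have : (0 : ℝ) < (((s ^ 2).descFactorial 3 * 2 ^ 3 : ℕ) : ℝ) := by exact_mod_cast hD0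
      positivity
    constructor
    · have h1 : (m : ℝ) / s ^ 2 - (C : ℝ) / e - (a : ℝ) / b
          = ((m : ℝ) * b * e - (a * e * s ^ 2 + C * b * s ^ 2)) / (b * e * s ^ 2) := by
        field_simp
        ring
      have h2 : (0 < (m : ℝ) / s ^ 2 - (C : ℝ) / e - (a : ℝ) / b) ↔
          ((a : ℝ) * e * s ^ 2 + C * b * s ^ 2 < m * b * e) := by
        rw [h1, div_pos_iff_of_pos_right (by positivity), sub_pos]
      rw [← sub_pos (a := (m : ℝ) / s ^ 2 - (C : ℝ) / e), h2]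
      exact_mod_cast Iff.rfl
    · rw [EU_eq]
      set D : ℕ := (s ^ 2).descFactorial 3 * 2 ^ 3 with hDdef
      have h1 : 1 / (e : ℝ) ^ 4 - ((NU 3 (s ^ 2) m : ℝ) / (D : ℝ) ^ m / (s : ℝ) ^ 2 + (C : ℝ) / s)
          = ((D : ℝ) ^ m * (s : ℝ) ^ 2 - ((NU 3 (s ^ 2) m : ℝ) + C * s * (D : ℝ) ^ m) * (e : ℝ) ^ 4)
            / ((e : ℝ) ^ 4 * (D : ℝ) ^ m * (s : ℝ) ^ 2) := by
        have hDne : (D : ℝ) ^ m ≠ 0 := hD.ne'
        field_simp
      rw [← sub_pos (a := 1 / (e : ℝ) ^ 4), h1, div_pos_iff_of_pos_right (by positivity), sub_pos]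
      exact_mod_cast Iff.rfl
  constructor
  · rintro ⟨c, hc⟩
    simp only [testL, Bool.and_eq_true, decide_eq_true_eq] at hc
    obtain ⟨⟨⟨⟨h1, h2⟩, h3⟩, h4⟩, h5⟩ := hc
    have := key _ c.unpair.2.unpair.1 _ h1 h2
    exact ⟨_, _, _, h1, h2, h3, this.1.1 h4, this.2.1 h5⟩
  · rintro ⟨s, m, e, h1, h2, h3, h4, h5⟩
    refine ⟨Nat.pair s (Nat.pair m e), ?_⟩
    have := key s m e h1 h2
    simp only [testL, Bool.and_eq_true, decide_eq_true_eq, Nat.unpair_pair]
    exact ⟨⟨⟨⟨h1, h2⟩, h3⟩, this.1.2 h4⟩, this.2.2 h5⟩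

theorem left_test {α : ℝ} (hα : IsSharpThreshold (satProb 3) α) :
    ∃ t : ℕ → ℕ → ℕ → Bool, Primrec (fun x : ℕ × ℕ × ℕ => t x.1 x.2.1 x.2.2) ∧
      (∀ a b c : ℕ, 0 < b → t a b c = true → (a : ℝ) / b < α) ∧
      (∀ a b : ℕ, 0 < b → (a : ℝ) / b < α → ∃ c, t a b c = true) := by
  obtain ⟨C, K, -, h⟩ := left_cert (k := 2) le_rfl hα
  refine ⟨testL C K, testL_primrec C K, ?_, ?_⟩
  · intro a b c hb hc
    exact (h _ (by positivity)).2 ((testL_iff C K a b hb).1 ⟨c, hc⟩)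
  · intro a b hb hab
    exact (testL_iff C K a b hb).2 ((h _ (by positivity)).1 hab)

end Crest.Agent.R153
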