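import Crest.Agent.R153.EnergyKey

/-!
Row 153.  D3: minimal energy of clauses with replacement versus injective clauses.
-/

set_option autoImplicit false

open Finset
open Crest.ProbabilityR.RandomSAT

namespace Crest.Agent.R153

/-- An ordered clause with replacement: variables (not necessarily distinct) and required values. -/
abbrev RC (n : ℕ) : Type := (Fin 3 → Fin n) × (Fin 3 → Bool)

/-- Number of violated clauses, with replacement (`vcR` = violation vector of a clause). -/
def vcR {n : ℕ} (c : RC n) : St n := fun s => if ∀ i, s (c.1 i) ≠ c.2 i then 1 else 0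

/-- Average minimal energy of `m` clauses with replacement. -/
noncomputable def uR (n m : ℕ) : ℝ :=
  (Fintype.card (Fin m → RC n) : ℝ)⁻¹ * ∑ F : Fin m → RC n, (U (∑ i, vcR (F i)) : ℝ)

/-- powers of an average of translations -/
theorem Av_pow_apply {ι : Type*} [Fintype ι] [DecidableEq ι] {V : Type*} [AddCommMonoid V]
    (w : ι → V) (m : ℕ) (g : V → ℝ) (v : V) :
    (Av w ^ m) g v = ((Fintype.card ι : ℝ) ^ m)⁻¹ * ∑ F : Fin m → ι, g (v + ∑ i, w (F i)) := by
  induction m generalizing v with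
  | zero => simp
  | succ m ih =>
    rw [pow_succ', Module.End.mul_apply, Av_apply]
    have h1 : ∑ F : Fin (m + 1) → ι, g (v + ∑ i, w (F i))
        = ∑ c : ι, ∑ F : Fin m → ι, g (v + w c + ∑ i, w (F i)) := by
      rw [← (Fin.consEquiv (fun _ : Fin (m + 1) => ι)).sum_comp, Fintype.sum_prod_type]
      refine sum_congr rfl fun c _ => sum_congr rfl fun F _ => ?_
      rw [Fin.sum_univ_succ]
      simp only [Fin.consEquiv, Equiv.coe_fn_mk, Fin.cons_zero, Fin.cons_succ]
      rw [add_assoc]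
    rw [h1, sum_congr rfl fun c _ => ih (v + w c), ← mul_sum, ← mul_assoc, pow_succ',
      mul_inv]

/-- one clause with replacement -/
noncomputable def PR (n : ℕ) : Module.End ℝ (St n → ℝ) := Av (fun c : RC n => vcR c)

theorem uR_eq (n m : ℕ) : uR n m = (PR n ^ m) Ur 0 := by
  rw [PR, Av_pow_apply, uR, Fintype.card_fun, Fintype.card_fin]
  push_cast
  congr 1
  refine sum_congr rfl fun F _ => ?_
  rw [zero_add]
  rfl

theorem RC_nonempty {n : ℕ} (hn : 1 ≤ n) : Nonempty (RC n) :=
  ⟨(fun _ => ⟨0, hn⟩, fun _ => true)⟩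

theorem PR_isT (n : ℕ) : IsT (PR n) := IsT.av _

theorem PR_mk {n : ℕ} (hn : 1 ≤ n) : Mk (PR n) := by
  have := RC_nonempty hn
  exact ⟨PR_isT n, Av_one _⟩

theorem PR_apply (n : ℕ) (g : St n → ℝ) (v : St n) :
    PR n g v = (Fintype.card (RC n) : ℝ)⁻¹ * ∑ c : RC n, g (v + vcR c) := Av_apply _ _ _

theorem vcR_le_one {n : ℕ} (c : RC n) (s : Asg n) : vcR c s ≤ 1 := by
  unfold vcR; split_ifs <;> simp

theorem PR_ge {n : ℕ} (hn : 1 ≤ n) {g : St n → ℝ} (hg : ∀ v w, g v ≤ g (v + w)) :
    g ≤ PR n g := by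
  intro v
  have hne := RC_nonempty hn
  have hc : (0 : ℝ) < Fintype.card (RC n) := by exact_mod_cast Fintype.card_pos
  rw [PR_apply]
  have h2 : (Fintype.card (RC n) : ℝ) * g v ≤ ∑ c : RC n, g (v + vcR c) := by
    calc (Fintype.card (RC n) : ℝ) * g v = ∑ _c : RC n, g v := by
          rw [Finset.sum_const, card_univ, nsmul_eq_mul]
      _ ≤ _ := Finset.sum_le_sum fun c _ => hg v (vcR c)
  rw [inv_mul_eq_div, le_div_iff₀ hc, mul_comm]
  exact h2

theorem uR_mono (n m m' : ℕ) (hn : 1 ≤ n) (h : m ≤ m') : uR n m ≤ uR n m' := by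
  refine monotone_nat_of_le_succ (f := fun m => uR n m) (fun m => ?_) h
  show uR n m ≤ uR n (m + 1)
  rw [uR_eq, uR_eq, pow_succ, Module.End.mul_apply]
  exact ((PR_isT n).pow m).mono (PR_ge hn Ur_grow) 0

theorem uR_le (n m : ℕ) : uR n m ≤ m := by
  unfold uR
  have h1 : ∀ F : Fin m → RC n, (U (∑ i, vcR (F i)) : ℝ) ≤ m := by
    intro F
    have : U (∑ i, vcR (F i)) ≤ m := by
      refine (U_le _ (fun _ => true)).trans ?_
      rw [Finset.sum_apply]
      calc ∑ i, vcR (F i) (fun _ => true) ≤ ∑ _i : Fin m, 1 :=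
            Finset.sum_le_sum fun i _ => vcR_le_one _ _
        _ = m := by simp
    exact_mod_cast this
  have h2 : ∑ F : Fin m → RC n, (U (∑ i, vcR (F i)) : ℝ) ≤ (Fintype.card (Fin m → RC n) : ℝ) * m := by
    calc _ ≤ ∑ _F : Fin m → RC n, (m : ℝ) := Finset.sum_le_sum fun F _ => h1 F
      _ = _ := by rw [Finset.sum_const, card_univ, nsmul_eq_mul]
  by_cases h0 : (Fintype.card (Fin m → RC n) : ℝ) = 0
  · rw [h0, inv_zero, zero_mul]
    positivity
  · have hpos : (0 : ℝ) < Fintype.card (Fin m → RC n) :=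
      lt_of_le_of_ne (by positivity) (Ne.symm h0)
    rw [inv_mul_eq_div, div_le_iff₀ hpos, mul_comm]
    exact h2

theorem card_RC (n : ℕ) : (Fintype.card (RC n) : ℝ) = (n : ℝ) ^ 3 * 8 := by
  rw [Fintype.card_prod, Fintype.card_fun, Fintype.card_fun, Fintype.card_fin, Fintype.card_fin,
    Fintype.card_bool]
  push_cast
  norm_num

theorem card_C3 {n : ℕ} (hn : 3 ≤ n) :
    (Fintype.card (Clause 3 n) : ℝ) = (n : ℝ) * (n - 1) * (n - 2) * 8 := by
  rw [card_clause]
  have h : n.descFactorial 3 = n * (n - 1) * (n - 2) := by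
    simp [Nat.descFactorial]
    ring
  rw [h]
  push_cast [Nat.cast_sub (show 1 ≤ n by omega), Nat.cast_sub (show 2 ≤ n by omega)]
  ring

/-- splitting the average over clauses with replacement -/
theorem sum_RC_split {n : ℕ} (g : St n → ℝ) (v : St n) :
    ∑ c : RC n, g (v + vcR c) = ∑ c : Clause 3 n, g (v + vc c)
      + ∑ c ∈ univ.filter (fun c : RC n => ¬ Function.Injective c.1), g (v + vcR c) := by
  classical
  rw [← Finset.sum_filter_add_sum_filter_not univ (fun c : RC n => Function.Injective c.1)]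
  congr 1
  symm
  refine Finset.sum_bij' (fun c _ => (c.1.1, c.2))
    (fun c hc => (⟨c.1, (mem_filter.1 hc).2⟩, c.2)) ?_ ?_ ?_ ?_ ?_
  · intro c _
    exact mem_filter.2 ⟨mem_univ _, c.1.2⟩
  · intro c _
    exact mem_univ _
  · intro c _
    rfl
  · intro c _
    rfl
  · intro c _
    rfl

theorem card_nonInj {n : ℕ} :
    ((univ.filter (fun c : RC n => ¬ Function.Injective c.1)).card : ℝ)
      = (Fintype.card (RC n) : ℝ) - Fintype.card (Clause 3 n) := by
  have h := sum_RC_split (n := n) (fun _ => 1) 0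
  rw [Finset.sum_const, Finset.sum_const, Finset.sum_const, card_univ, card_univ] at h
  simp only [nsmul_eq_mul, mul_one] at h
  linarith

/-- Replacing the non-injective clauses one by one: `uR ≤ EU + m P(not injective)`. -/
theorem uR_le_EU (n m : ℕ) (hn : 3 ≤ n) : uR n m ≤ EU 3 n m + m * (3 / n) := by
  have hn0 : (0 : ℝ) < n := by
    have : 0 < n := by omega
    exact_mod_cast this
  have hn3 : (3 : ℝ) ≤ n := by exact_mod_cast hn
  have hcR : (0 : ℝ) < Fintype.card (RC n) := by rw [card_RC]; positivity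
  have hcC : (0 : ℝ) < Fintype.card (Clause 3 n) := by
    have := clause_nonempty (j := 3) hn
    exact_mod_cast Fintype.card_pos
  -- the class of functions
  have hclass : ∀ i : ℕ, (∀ v w : St n, (P 3 n ^ i) Ur v ≤ (P 3 n ^ i) Ur (v + w)) ∧
      (∀ (v : St n) (c : RC n), (P 3 n ^ i) Ur (v + vcR c) ≤ (P 3 n ^ i) Ur v + 1) := by
    intro i
    refine ⟨fun v w => ((P_isT 3 n).pow i).grow Ur_grow v w, fun v c => ?_⟩
    have h1 : (P 3 n ^ i) Ur (v + vcR c) = (P 3 n ^ i) (tau (vcR c) Ur) v := by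
      have hcomm := ((P_isT 3 n).pow i).commute (IsT.tau (vcR c))
      have h2 : ((P 3 n ^ i) * tau (vcR c)) Ur = (tau (vcR c) * (P 3 n ^ i)) Ur := by
        rw [hcomm.eq]
      rw [Module.End.mul_apply, Module.End.mul_apply] at h2
      rw [h2, tau_apply]
    rw [h1]
    have h3 : (tau (vcR c) Ur : St n → ℝ) ≤ Ur + fun _ => 1 := by
      intro w
      rw [tau_apply, Pi.add_apply]
      unfold Ur
      obtain ⟨s, hs⟩ := exists_U w
      have h4 := U_le (w + vcR c) s
      have h5 := vcR_le_one c s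
      rw [Pi.add_apply, hs] at h4
      have h6 : U (w + vcR c) ≤ U w + 1 := by omega
      show (U (w + vcR c) : ℝ) ≤ (U w : ℝ) + 1
      exact_mod_cast h6
    have h4 := ((P_isT 3 n).pow i).mono h3 v
    rw [map_add, ((P_mk hn).pow i).const] at h4
    exact h4
  have hone : ∀ g : St n → ℝ, (∀ v w, g v ≤ g (v + w)) → (∀ v (c : RC n), g (v + vcR c) ≤ g v + 1) →
      ∀ v, PR n g v ≤ P 3 n g v + 3 / n := by
    intro g hg1 hg2 v
    have hPg : g v ≤ P 3 n g v := by
      rw [P_apply, inv_mul_eq_div, le_div_iff₀ hcC, mul_comm]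
      calc (Fintype.card (Clause 3 n) : ℝ) * g v = ∑ _c : Clause 3 n, g v := by
            rw [Finset.sum_const, card_univ, nsmul_eq_mul]
        _ ≤ _ := Finset.sum_le_sum fun c _ => hg1 v (vc c)
    have h1 : ∑ c ∈ univ.filter (fun c : RC n => ¬ Function.Injective c.1), g (v + vcR c)
        ≤ ((Fintype.card (RC n) : ℝ) - Fintype.card (Clause 3 n)) * (P 3 n g v + 1) := by
      rw [← card_nonInj, ← nsmul_eq_mul, ← Finset.sum_const]
      exact Finset.sum_le_sum fun c _ => (hg2 v c).trans (by linarith)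
    have h2 : ∑ c : Clause 3 n, g (v + vc c) = (Fintype.card (Clause 3 n) : ℝ) * P 3 n g v := by
      rw [P_apply, mul_inv_cancel_left₀ hcC.ne']
    rw [PR_apply, sum_RC_split, h2, inv_mul_eq_div, div_le_iff₀ hcR]
    have h3 : (Fintype.card (RC n) : ℝ) - Fintype.card (Clause 3 n)
        ≤ (3 / n) * Fintype.card (RC n) := by
      rw [card_RC, card_C3 hn]
      have : (3 / (n : ℝ)) * ((n : ℝ) ^ 3 * 8) = 24 * n ^ 2 := by field_simp; ring
      rw [this]
      nlinarith
    nlinarith
  have hmain : ∀ i : ℕ, ∀ v, (PR n ^ i) Ur v ≤ (P 3 n ^ i) Ur v + i * (3 / n) := by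
    intro i
    induction i with
    | zero => intro v; simp
    | succ i ih =>
      intro v
      rw [pow_succ', Module.End.mul_apply]
      have h1 : (PR n ^ i) Ur ≤ (P 3 n ^ i) Ur + fun _ => (i : ℝ) * (3 / n) := ih
      have h2 := (PR_isT n).mono h1 v
      rw [map_add, (PR_mk (by omega)).const] at h2
      have h3 := hone ((P 3 n ^ i) Ur) (hclass i).1 (hclass i).2 v
      rw [pow_succ', Module.End.mul_apply]
      simp only [Pi.add_apply] at h2
      push_cast
      linarith
  rw [uR_eq, EU]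
  exact hmain m 0

/-- With probability `≥ (1 - 3/n)^m` all clauses are injective. -/
theorem EU_le_uR (n m : ℕ) (hn : 4 ≤ n) : (1 - 3 / (n : ℝ)) ^ m * EU 3 n m ≤ uR n m := by
  have hn0 : (0 : ℝ) < n := by
    have : 0 < n := by omega
    exact_mod_cast this
  have hn4 : (4 : ℝ) ≤ n := by exact_mod_cast hn
  have hcR : (0 : ℝ) < Fintype.card (RC n) := by rw [card_RC]; positivity
  have hcC : (0 : ℝ) < Fintype.card (Clause 3 n) := by
    have := clause_nonempty (j := 3) (n := n) (by omega)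
    exact_mod_cast Fintype.card_pos
  have hx0 : 0 ≤ 1 - 3 / (n : ℝ) := by
    rw [sub_nonneg, div_le_one hn0]; linarith
  have hone : ∀ g : St n → ℝ, 0 ≤ g → (1 - 3 / (n : ℝ)) • P 3 n g ≤ PR n g := by
    intro g hg v
    have h1 : 0 ≤ ∑ c ∈ univ.filter (fun c : RC n => ¬ Function.Injective c.1), g (v + vcR c) :=
      Finset.sum_nonneg fun c _ => hg _
    have h2 : ∑ c : Clause 3 n, g (v + vc c) = (Fintype.card (Clause 3 n) : ℝ) * P 3 n g v := by
      rw [P_apply, mul_inv_cancel_left₀ hcC.ne']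
    have hP0 : 0 ≤ P 3 n g v := (P_isT 3 n).nonneg hg v
    rw [Pi.smul_apply, smul_eq_mul, PR_apply, sum_RC_split, h2, inv_mul_eq_div, le_div_iff₀ hcR]
    have h3 : (1 - 3 / (n : ℝ)) * Fintype.card (RC n) ≤ Fintype.card (Clause 3 n) := by
      rw [card_RC, card_C3 (by omega)]
      have : (1 - 3 / (n : ℝ)) * ((n : ℝ) ^ 3 * 8) = 8 * n ^ 3 - 24 * n ^ 2 := by field_simp; ring
      rw [this]
      nlinarith
    nlinarith
  have hmain : ∀ i : ℕ, (1 - 3 / (n : ℝ)) ^ i • (P 3 n ^ i) Ur ≤ (PR n ^ i) (Ur : St n → ℝ) := by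
    intro i
    induction i with
    | zero => simp
    | succ i ih =>
      have hP0 : 0 ≤ (P 3 n ^ i) (Ur : St n → ℝ) :=
        ((P_isT 3 n).pow i).nonneg (g := Ur) (fun _ => Nat.cast_nonneg _)
      have h1 := (PR_isT n).mono ih
      rw [map_smul] at h1
      have h2 := hone _ hP0
      rw [pow_succ' (PR n), Module.End.mul_apply]
      refine le_trans ?_ h1
      rw [pow_succ (1 - 3 / (n : ℝ)), mul_smul, pow_succ' (P 3 n), Module.End.mul_apply]
      intro v
      simp only [Pi.smul_apply, smul_eq_mul]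
      exact mul_le_mul_of_nonneg_left (h2 v) (pow_nonneg hx0 i)
  have h := hmain m 0
  rw [uR_eq, EU]
  simpa using h

end Crest.Agent.R153
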